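import Crest.Agent.R54.Posa

set_option autoImplicit false

namespace Crest.Agent.R54

variable {V : Type} {G : SimpleGraph V}

/-- A path from `z` to `z'` with exactly `r` inner vertices, all outside `W`. -/
def Conn (G : SimpleGraph V) (W : Finset V) (z z' : V) (r : ℕ) : Prop :=
  ∃ N : List V, N.Nodup ∧ N.length = r ∧ (∀ x ∈ N, x ∉ W) ∧ List.IsChain G.Adj (z :: (N ++ [z']))

theorem conn_zero {W : Finset V} {z z' : V} (h : G.Adj z z') : Conn G W z z' 0 :=
  ⟨[], by simp, rfl, by simp, by simpa using h⟩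

theorem conn_one {W : Finset V} {z z' x : V} (hx : x ∉ W) (h : G.Adj x z) (h' : G.Adj x z') :
    Conn G W z z' 1 :=
  ⟨[x], by simp, rfl, by simpa using hx, by simp [h.symm, h']⟩

theorem Conn.symm {W : Finset V} {z z' : V} {r : ℕ} (h : Conn G W z z' r) : Conn G W z' z r := by
  obtain ⟨N, h1, h2, h3, h4⟩ := h
  refine ⟨N.reverse, List.nodup_reverse.2 h1, by simpa using h2, by simpa using h3, ?_⟩
  simpa using isChain_rev h4

theorem shortcut (z' : V) : ∀ (N : List V) (z : V), List.IsChain G.Adj (z :: (N ++ [z'])) →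
    ∃ N' : List V, N'.Nodup ∧ (∀ x ∈ N', x ∈ N) ∧ N'.length ≤ N.length ∧ (N ≠ [] → N' ≠ []) ∧
      List.IsChain G.Adj (z :: (N' ++ [z']))
  | [], z, h => ⟨[], by simp, by simp, by simp, by simp, h⟩
  | x :: T, z, h => by
    rw [List.cons_append, List.isChain_cons_cons] at h
    obtain ⟨T', h1, h2, h3, -, h5⟩ := shortcut z' T x h.2
    by_cases hx : x ∈ T'
    · obtain ⟨B, C, rfl⟩ := List.append_of_mem hx
      refine ⟨x :: C, h1.sublist (List.sublist_append_right _ _), ?_, ?_, by simp, ?_⟩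
      · intro y hy
        exact List.mem_cons_of_mem _ (h2 y (List.mem_append_right _ hy))
      · simp at h3 ⊢; omega
      · rw [List.cons_append, List.isChain_cons_cons]
        refine ⟨h.1, ?_⟩
        rw [List.append_assoc, List.cons_append, List.isChain_cons_split] at h5
        exact h5.2
    · refine ⟨x :: T', List.nodup_cons.2 ⟨hx, h1⟩, ?_, by simpa using h3, by simp, ?_⟩
      · intro y hy
        rcases List.mem_cons.1 hy with rfl | hy
        · simp
        · exact List.mem_cons_of_mem _ (h2 y hy)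
      · rw [List.cons_append, List.isChain_cons_cons]
        exact ⟨h.1, h5⟩

theorem conn_of_walk {W : Finset V} {z z' : V} {N : List V} (hne : N ≠ [])
    (hW : ∀ x ∈ N, x ∉ W) (hc : List.IsChain G.Adj (z :: (N ++ [z']))) :
    ∃ r, 1 ≤ r ∧ r ≤ N.length ∧ Conn G W z z' r := by
  obtain ⟨N', h1, h2, h3, h4, h5⟩ := shortcut z' N z hc
  exact ⟨N'.length, List.length_pos_iff.2 (h4 hne), h3, N', h1, rfl, fun x hx => hW x (h2 x hx), h5⟩

/-- `a` can be reached from `z` by a walk of at most `ρ` steps that runs outside `W`. -/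
def Ball (G : SimpleGraph V) (W : Finset V) (z : V) (ρ : ℕ) (a : V) : Prop :=
  ∃ N : List V, N.length < ρ ∧ (∀ x ∈ N, x ∉ W) ∧ a ∉ W ∧ List.IsChain G.Adj (z :: (N ++ [a]))

theorem Ball.notMem {W : Finset V} {z a : V} {ρ : ℕ} (h : Ball G W z ρ a) : a ∉ W := by
  obtain ⟨N, -, -, h, -⟩ := h; exact h

theorem ball_one {W : Finset V} {z a : V} (ha : a ∉ W) (h : G.Adj z a) : Ball G W z 1 a :=
  ⟨[], by simp, by simp, ha, by simpa using h⟩

theorem Ball.mono {W : Finset V} {z a : V} {ρ ρ' : ℕ} (h : Ball G W z ρ a) (hρ : ρ ≤ ρ') :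
    Ball G W z ρ' a := by
  obtain ⟨N, h1, h2⟩ := h; exact ⟨N, by omega, h2⟩

theorem Ball.step {W : Finset V} {z a b : V} {ρ : ℕ} (h : Ball G W z ρ a) (hab : G.Adj a b)
    (hb : b ∉ W) : Ball G W z (ρ + 1) b := by
  obtain ⟨N, h1, h2, h3, h4⟩ := h
  refine ⟨N ++ [a], by simpa using h1, ?_, hb, ?_⟩
  · intro x hx
    rcases List.mem_append.1 hx with hx | hx
    · exact h2 x hx
    · simp at hx; exact hx ▸ h3
  · rw [List.append_assoc, List.singleton_append, List.isChain_cons_split]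
    exact ⟨h4, by simpa using hab⟩

theorem Ball.conn_adj {W : Finset V} {z z' a : V} {ρ : ℕ} (h : Ball G W z ρ a) (ha : G.Adj a z') :
    ∃ r, 1 ≤ r ∧ r ≤ ρ ∧ Conn G W z z' r := by
  obtain ⟨N, h1, h2, h3, h4⟩ := h
  obtain ⟨r, r1, r2, r3⟩ := conn_of_walk (G := G) (W := W) (z := z) (z' := z') (N := N ++ [a])
    (by simp) (by
      intro x hx
      rcases List.mem_append.1 hx with hx | hx
      · exact h2 x hx
      · simp at hx; exact hx ▸ h3) (by
      rw [List.append_assoc, List.singleton_append, List.isChain_cons_split]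
      exact ⟨h4, by simpa using ha⟩)
  exact ⟨r, r1, by simp at r2; omega, r3⟩

theorem Ball.conn {W : Finset V} {z z' a b : V} {ρ ρ' : ℕ} (h : Ball G W z ρ a)
    (h' : Ball G W z' ρ' b) (hab : a = b ∨ G.Adj a b) :
    ∃ r, 1 ≤ r ∧ r ≤ ρ + ρ' ∧ Conn G W z z' r := by
  obtain ⟨N, h1, h2, h3, h4⟩ := h
  obtain ⟨N', h1', h2', h3', h4'⟩ := h'
  have h5 : List.IsChain G.Adj (b :: (N'.reverse ++ [z'])) := by simpa using isChain_rev h4'
  rcases hab with rfl | hab
  · obtain ⟨r, r1, r2, r3⟩ := conn_of_walk (G := G) (W := W) (z := z) (z' := z')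
      (N := N ++ a :: N'.reverse) (by simp) (by
        intro x hx
        simp only [List.mem_append, List.mem_cons, List.mem_reverse] at hx
        rcases hx with hx | rfl | hx
        · exact h2 x hx
        · exact h3
        · exact h2' x hx) (by
        rw [List.append_assoc, List.cons_append, List.isChain_cons_split]
        exact ⟨h4, h5⟩)
    exact ⟨r, r1, by simp at r2; omega, r3⟩
  · obtain ⟨r, r1, r2, r3⟩ := conn_of_walk (G := G) (W := W) (z := z) (z' := z')
      (N := N ++ a :: b :: N'.reverse) (by simp) (by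
        intro x hx
        simp only [List.mem_append, List.mem_cons, List.mem_reverse] at hx
        rcases hx with hx | rfl | rfl | hx
        · exact h2 x hx
        · exact h3
        · exact h3'
        · exact h2' x hx) (by
        rw [List.append_assoc, List.cons_append, List.cons_append, List.isChain_cons_append_cons_cons]
        exact ⟨h4, hab, h5⟩)
    exact ⟨r, r1, by simp at r2; omega, r3⟩

/-- The ball, together with its centre when `p` holds. -/
def BallP (G : SimpleGraph V) (W : Finset V) (z : V) (ρ : ℕ) (p : Prop) (a : V) : Prop :=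
  (p ∧ a = z) ∨ Ball G W z ρ a

theorem ballP_anti {W : Finset V} {z z' a b : V} {ρ ρ' : ℕ} {p p' : Prop} (hz : z ∈ W)
    (hz' : z' ∈ W) (hne : z ≠ z') (hc : ∀ r, 1 ≤ r → r ≤ ρ + ρ' → ¬ Conn G W z z' r)
    (h0 : p → p' → ¬ G.Adj z z') (ha : BallP G W z ρ p a) (hb : BallP G W z' ρ' p' b) :
    a ≠ b ∧ ¬ G.Adj a b := by
  rcases ha with ⟨hp, rfl⟩ | ha <;> rcases hb with ⟨hp', rfl⟩ | hb
  · exact ⟨hne, h0 hp hp'⟩
  · refine ⟨fun h => hb.notMem (h ▸ hz), fun h => ?_⟩
    obtain ⟨r, r1, r2, r3⟩ := hb.conn_adj h.symm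
    exact hc r r1 (by omega) r3.symm
  · refine ⟨fun h => ha.notMem (h ▸ hz'), fun h => ?_⟩
    obtain ⟨r, r1, r2, r3⟩ := ha.conn_adj h
    exact hc r r1 (by omega) r3
  · refine ⟨fun h => ?_, fun h => ?_⟩
    · obtain ⟨r, r1, r2, r3⟩ := ha.conn hb (Or.inl h)
      exact hc r r1 r2 r3
    · obtain ⟨r, r1, r2, r3⟩ := ha.conn hb (Or.inr h)
      exact hc r r1 r2 r3

/-- Gluing independent sets. -/
theorem Hyp.sum_le {k : ℕ} (h : Hyp G k) {ι : Type} (Z : Finset ι) (J : ι → Finset V)
    (hI : ∀ z ∈ Z, Indep G (J z))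
    (hA : ∀ z ∈ Z, ∀ z' ∈ Z, z ≠ z' → ∀ a ∈ J z, ∀ b ∈ J z', a ≠ b ∧ ¬ G.Adj a b) :
    ∑ z ∈ Z, (J z).card ≤ k := by
  classical
  rw [← Finset.card_biUnion]
  · apply h.indep_le
    intro a ha b hb
    obtain ⟨z, hz, ha⟩ := Finset.mem_biUnion.1 ha
    obtain ⟨z', hz', hb⟩ := Finset.mem_biUnion.1 hb
    by_cases hzz : z = z'
    · subst hzz; exact hI z hz a ha b hb
    · exact (hA z hz z' hz' hzz a ha b hb).2
  · intro z hz z' hz' hzz
    rw [Function.onFun, Finset.disjoint_left]
    intro a ha ha'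
    exact (hA z hz z' hz' hzz a ha a ha').1 rfl

open Classical in
/-- Neighbours outside `W`. -/
noncomputable def NX [Fintype V] (G : SimpleGraph V) (W : Finset V) (v : V) : Finset V :=
  Finset.univ.filter (fun y => G.Adj v y ∧ y ∉ W)

theorem mem_NX [Fintype V] {W : Finset V} {v y : V} : y ∈ NX G W v ↔ G.Adj v y ∧ y ∉ W := by
  simp [NX]

theorem Hyp.nx_card [Fintype V] {k : ℕ} (h : Hyp G k) (W : Finset V) (v : V) (D : Finset V)
    (hD : ∀ y ∈ W, G.Adj v y → y ∈ D) : k ≤ (NX G W v).card + D.card := by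
  classical
  refine (h.deg' v (NX G W v ∪ D) ?_).trans (Finset.card_union_le _ _)
  intro u hu
  by_cases huW : u ∈ W
  · exact Finset.mem_union_right _ (hD u huW hu)
  · exact Finset.mem_union_left _ (mem_NX.2 ⟨hu, huW⟩)

theorem two_of_nbhd {t : ℕ} (ht : ClqBound G t) (v : V) (S : Finset V) (hS : ∀ y ∈ S, G.Adj v y)
    (hc : t ≤ S.card) : ∃ J ⊆ S, Indep G J ∧ J.card = 2 := by
  classical
  obtain ⟨a, ha, b, hb, hab, hn⟩ := exists_nonadj_of_card ht (S := insert v S) (by
    rw [Finset.card_insert_of_notMem (fun hv => G.irrefl (hS v hv))]; omega)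
  have ha' : a ∈ S := by
    rcases Finset.mem_insert.1 ha with rfl | ha'
    · rcases Finset.mem_insert.1 hb with rfl | hb'
      · exact absurd rfl hab
      · exact absurd (hS b hb') hn
    · exact ha'
  have hb' : b ∈ S := by
    rcases Finset.mem_insert.1 hb with rfl | hb'
    · exact absurd (hS a ha').symm hn
    · exact hb'
  refine ⟨{a, b}, ?_, indep_pair hn, Finset.card_pair hab⟩
  intro x hx
  simp only [Finset.mem_insert, Finset.mem_singleton] at hx
  rcases hx with rfl | rfl <;> assumption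

/-- Three independent vertices in the ball of radius three. -/
theorem Hyp.three_in_ball [Fintype V] {k t : ℕ} (h : Hyp G k) (ht : ClqBound G t) (W : Finset V)
    {z x : V} (hx : Ball G W z 1 x) (hc : t ≤ (NX G W x).card) (D : Finset V)
    (hD : ∀ w ∈ W, ∀ y, Ball G W z 2 y → G.Adj y w → w ∈ D)
    (hn : D.card + 1 + t + max (2 * (t - 1)) (k - 1) < 2 * k + 1) :
    ∃ J : Finset V, Indep G J ∧ 3 ≤ J.card ∧ ∀ a ∈ J, Ball G W z 3 a := by
  classical
  by_contra hcon
  push Not at hcon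
  have hsmall : ∀ J : Finset V, Indep G J → (∀ a ∈ J, Ball G W z 3 a) → J.card ≤ 2 := by
    intro J hJ hb
    by_contra hc'
    obtain ⟨a, ha, ha'⟩ := hcon J hJ (by omega)
    exact ha' (hb a ha)
  obtain ⟨J, hJ, hI, hJc⟩ := two_of_nbhd ht x (NX G W x) (fun y hy => (mem_NX.1 hy).1) hc
  obtain ⟨y1, y2, hy, rfl⟩ := Finset.card_eq_two.1 hJc
  have m1 := mem_NX.1 (hJ (Finset.mem_insert_self _ _))
  have m2 := mem_NX.1 (hJ (Finset.mem_insert_of_mem (Finset.mem_singleton_self _)))
  have b1 : Ball G W z 2 y1 := hx.step m1.1 m1.2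
  have b2 : Ball G W z 2 y2 := hx.step m2.1 m2.2
  have n12 : ¬ G.Adj y1 y2 := hI y1 (by simp) y2 (by simp)
  obtain ⟨J1, hJ1, hI1, hc1⟩ := h.ratio_nbhd ht y1 (NX G W y1) (fun y hy => (mem_NX.1 hy).1)
  have hJ1c := hsmall J1 hI1 (fun a ha => b1.step (mem_NX.1 (hJ1 ha)).1 (mem_NX.1 (hJ1 ha)).2)
  have c1 : (NX G W y1).card ≤ max (2 * (t - 1)) (k - 1) := by
    have := Nat.mul_le_mul_left (max (2 * (t - 1)) (k - 1)) hJ1c
    omega
  let S := (NX G W y2).filter (fun u => u ≠ y1 ∧ ¬ G.Adj y1 u)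
  have hS : ∀ u, u ∈ S ↔ (G.Adj y2 u ∧ u ∉ W) ∧ u ≠ y1 ∧ ¬ G.Adj y1 u := by
    intro u; simp [S, mem_NX]
  have c2 : (insert y2 S).card ≤ t := by
    apply ht
    refine Clq.insert ?_ (fun u hu => ((hS u).1 hu).1.1)
    intro a ha b hb hab
    by_contra hn'
    have ha' := (hS a).1 ha
    have hb' := (hS b).1 hb
    have := hsmall {y1, a, b} ((indep_pair hn').insert (by
      intro u hu
      simp only [Finset.mem_insert, Finset.mem_singleton] at hu
      rcases hu with rfl | rfl
      · exact ha'.2.2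
      · exact hb'.2.2)) (by
      intro u hu
      simp only [Finset.mem_insert, Finset.mem_singleton] at hu
      rcases hu with rfl | rfl | rfl
      · exact b1.mono (by omega)
      · exact b2.step ha'.1.1 ha'.1.2
      · exact b2.step hb'.1.1 hb'.1.2)
    rw [Finset.card_eq_three.2 ⟨y1, a, b, ha'.2.1.symm, hb'.2.1.symm, hab, rfl⟩] at this
    omega
  have hexp := h.expand {y1, y2} (D ∪ (insert y1 (NX G W y1 ∪ insert y2 S))) (by simp) hI (by
    intro v hv
    by_cases h1 : v = y1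
    · simp [h1]
    by_cases h2 : v = y2
    · simp [h2]
    have hadj : G.Adj y1 v ∨ G.Adj y2 v := by
      rcases hv with hv | ⟨u, hu, huv⟩
      · simp [h1, h2] at hv
      · simp only [Finset.mem_insert, Finset.mem_singleton] at hu
        rcases hu with rfl | rfl
        · exact Or.inl huv
        · exact Or.inr huv
    by_cases hW : v ∈ W
    · refine Finset.mem_union_left _ ?_
      rcases hadj with hadj | hadj
      · exact hD v hW y1 b1 hadj
      · exact hD v hW y2 b2 hadj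
    refine Finset.mem_union_right _ (Finset.mem_insert_of_mem ?_)
    by_cases h3 : G.Adj y1 v
    · exact Finset.mem_union_left _ (mem_NX.2 ⟨h3, hW⟩)
    · exact Finset.mem_union_right _ (Finset.mem_insert_of_mem
        ((hS v).2 ⟨⟨hadj.resolve_left h3, hW⟩, h1, h3⟩)))
  rw [hJc] at hexp
  have c3 := Finset.card_union_le D (insert y1 (NX G W y1 ∪ insert y2 S))
  have c4 := Finset.card_insert_le y1 (NX G W y1 ∪ insert y2 S)
  have c5 := Finset.card_union_le (NX G W y1) (insert y2 S)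
  omega

end Crest.Agent.R54
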