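import Crest.Agent.R54.Layers

set_option autoImplicit false

namespace Crest.Agent.R54

variable {V : Type} {G : SimpleGraph V}

open Classical in
noncomputable def layerF [Fintype V] (G : SimpleGraph V) (v : V) (i : ℕ) : Finset V :=
  Finset.univ.filter (Lay G v i)

open Classical in
noncomputable def ballF [Fintype V] (G : SimpleGraph V) (v : V) (i : ℕ) : Finset V :=
  Finset.univ.filter (Near G v i)

theorem mem_layerF [Fintype V] {v x : V} {i : ℕ} : x ∈ layerF G v i ↔ Lay G v i x := by
  simp [layerF]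

theorem mem_ballF [Fintype V] {v x : V} {i : ℕ} : x ∈ ballF G v i ↔ Near G v i x := by
  simp [ballF]

theorem card_ballF_zero [Fintype V] (v : V) : (ballF G v 0).card = 1 := by
  rw [Finset.card_eq_one]
  refine ⟨v, ?_⟩
  ext x
  simp [mem_ballF, Near]

theorem card_ballF_succ [Fintype V] (v : V) (i : ℕ) :
    (ballF G v (i + 1)).card ≤ (ballF G v i).card + (layerF G v (i + 1)).card := by
  classical
  refine le_trans (Finset.card_le_card ?_) (Finset.card_union_le _ _)
  intro x hx
  obtain ⟨j, hj, hl⟩ := (mem_ballF.1 hx).exists_lay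
  by_cases h : j = i + 1
  · subst h; exact Finset.mem_union_right _ (mem_layerF.2 hl)
  · exact Finset.mem_union_left _ (mem_ballF.2 (hl.1.mono (by omega)))

/-- The union of independent sets in alternate layers. -/
def altU [DecidableEq V] (J : ℕ → Finset V) : ℕ → Finset V
  | 0 => J 0
  | 1 => J 1
  | j + 2 => altU J j ∪ J (j + 2)

theorem altU_spec [DecidableEq V] {v : V} (J : ℕ → Finset V) (hJ : ∀ i, ∀ x ∈ J i, Lay G v i x)
    (hI : ∀ i, Indep G (J i)) (j : ℕ) :
    (∀ x ∈ altU J j, ∃ i ≤ j, Lay G v i x) ∧ Indep G (altU J j) ∧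
      (altU J (j + 2)).card = (altU J j).card + (J (j + 2)).card := by
  have aux : ∀ j, (∀ x ∈ altU J j, ∃ i ≤ j, Lay G v i x) →
      (altU J (j + 2)).card = (altU J j).card + (J (j + 2)).card := by
    intro j h
    rw [altU, Finset.card_union_of_disjoint]
    rw [Finset.disjoint_left]
    intro x hx hx'
    obtain ⟨i, hi, hl⟩ := h x hx
    have := hl.unique (hJ _ x hx')
    omega
  induction j using Nat.twoStepInduction with
  | zero =>
    have : ∀ x ∈ altU J 0, ∃ i ≤ 0, Lay G v i x := fun x hx => ⟨0, le_rfl, hJ 0 x hx⟩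
    exact ⟨this, hI 0, aux 0 this⟩
  | one =>
    have : ∀ x ∈ altU J 1, ∃ i ≤ 1, Lay G v i x := fun x hx => ⟨1, le_rfl, hJ 1 x hx⟩
    exact ⟨this, hI 1, aux 1 this⟩
  | more j ih _ =>
    have : ∀ x ∈ altU J (j + 2), ∃ i ≤ j + 2, Lay G v i x := by
      intro x hx
      rcases Finset.mem_union.1 hx with hx | hx
      · obtain ⟨i, hi, hl⟩ := ih.1 x hx
        exact ⟨i, by omega, hl⟩
      · exact ⟨j + 2, le_rfl, hJ _ x hx⟩
    refine ⟨this, ?_, aux _ this⟩
    refine ih.2.1.union (hI _) ?_
    intro x hx y hy hxy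
    obtain ⟨i, hi, hl⟩ := ih.1 x hx
    have := hl.adj_le (hJ _ y hy) hxy
    omega

theorem Hyp.not_clqBound_half [Fintype V] {k : ℕ} (h : Hyp G k) (hk : 6 ≤ k) (v : V) :
    ¬ ClqBound G (k / 2) := by
  classical
  intro hr
  set r := k / 2 with hrdef
  choose J hJsub hJI hJmax using fun i => exists_max_indep G (layerF G v i)
  have hJ : ∀ i, ∀ x ∈ J i, Lay G v i x := fun i x hx => mem_layerF.1 (hJsub i hx)
  have hJ0 : (J 0).card = 1 := by
    have h1 := hJmax 0 {v} (by simp [mem_layerF, lay_zero]) (indep_singleton v)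
    have h2 : J 0 ⊆ {v} := fun x hx => by simpa [lay_zero] using hJ 0 x hx
    have := Finset.card_le_card h2
    rw [Finset.card_singleton] at h1 this
    omega
  have hL1 : 2 * (layerF G v 1).card ≤ (k - 1) * (J 1).card := by
    obtain ⟨J', h1, h2, h3⟩ := h.ratio_nbhd hr v (layerF G v 1)
      (fun x hx => lay_one.1 (mem_layerF.1 hx))
    rw [max_eq_right (by omega)] at h3
    exact h3.trans (Nat.mul_le_mul_left _ (hJmax 1 J' h1 h2))
  have hdeg := h.deg' v (layerF G v 1) (fun u hu => mem_layerF.2 (lay_one.2 hu))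
  have ha1 : 3 ≤ (J 1).card := by
    by_contra hc
    have : (k - 1) * (J 1).card ≤ (k - 1) * 2 := Nat.mul_le_mul_left _ (by omega)
    omega
  have hLi : ∀ i, 2 ≤ i → i ≤ r → (layerF G v i).card ≤ r * (J i).card := by
    intro i hi2 hir
    obtain ⟨J', h1, h2, h3⟩ := h.ratio_layer (v := v) (i := i) hr (by omega) (by omega) hi2 (by omega)
      (J 1) (hJI 1) ha1 (fun x hx => lay_one.1 (hJ 1 x hx)) (layerF G v i)
      (fun x hx => mem_layerF.1 hx)
    have := Nat.mul_le_mul_left r (hJmax i J' h1 h2)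
    nlinarith
  have hU := altU_spec (G := G) J hJ hJI
  set E : ℕ → ℕ := fun j => (altU J j).card with hE
  have hE0 : E 0 = 1 := hJ0
  have hE1 : E 1 = (J 1).card := rfl
  have hE2 : ∀ j, E (j + 2) = E j + (J (j + 2)).card := fun j => (hU j).2.2
  have hEk : ∀ j, E j ≤ k := fun j => h.indep_le _ (hU j).2.1
  have hexp : ∀ j, 0 < E j → k * E j + 1 ≤ (ballF G v (j + 1)).card := by
    intro j hj
    refine h.expand _ _ (Finset.card_pos.1 hj) (hU j).2.1 ?_
    rintro x (hx | ⟨u, hu, hux⟩)
    · obtain ⟨i, hi, hl⟩ := (hU j).1 x hx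
      exact mem_ballF.2 (hl.1.mono (by omega))
    · obtain ⟨i, hi, hl⟩ := (hU j).1 u hu
      exact mem_ballF.2 (Or.inr ⟨u, hl.1.mono hi, hux⟩)
  have hball : ∀ j, j + 1 ≤ r → 2 * (ballF G v (j + 1)).card + 2 * r * (1 + (J 1).card) ≤
      2 + (k - 1) * (J 1).card + 2 * r * (E (j + 1) + E j) := by
    intro j
    induction j with
    | zero =>
      intro _
      have h1 := card_ballF_succ (G := G) v 0
      rw [card_ballF_zero] at h1
      simp only [zero_add] at h1 ⊢
      rw [hE0, hE1]
      nlinarith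
    | succ j ih =>
      intro hj
      have h1 := card_ballF_succ (G := G) v (j + 1)
      have h2 := hLi (j + 2) (by omega) hj
      have h3 := ih (by omega)
      rw [hE2 j]
      nlinarith
  have hgrow : ∀ j, j + 1 ≤ r → 0 < E j →
      2 * k * E j + 2 * r * (1 + (J 1).card) ≤ (k - 1) * (J 1).card + 2 * r * (E (j + 1) + E j) := by
    intro j hj h0
    have h1 := hexp j h0
    have h2 := hball j hj
    nlinarith
  have hlow : ∀ j, j ≤ r → 2 * j + 1 ≤ E j := by
    intro j
    induction j with
    | zero => intro _; omega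
    | succ j ih =>
      intro hj
      have h1 := ih (by omega)
      have h2 := hgrow j hj (by omega)
      by_contra hc
      have h3 : E (j + 1) ≤ E j + 1 := by omega
      have h4 : 2 * r * (E (j + 1) + E j) ≤ 2 * r * (2 * E j + 1) := Nat.mul_le_mul_left _ (by omega)
      rcases Nat.even_or_odd' k with ⟨m, hm | hm⟩
      · have : r = m := by omega
        subst this
        obtain ⟨r', hr'⟩ : ∃ r', r = r' + 1 := ⟨r - 1, by omega⟩
        rw [hm, show 2 * r - 1 = 2 * r' + 1 by omega, hr'] at h2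
        rw [hr'] at h4
        nlinarith
      · have : r = m := by omega
        subst this
        rw [hm, show 2 * r + 1 - 1 = 2 * r by omega] at h2
        nlinarith
  rcases Nat.even_or_odd' k with ⟨m, hm | hm⟩
  · have := hlow r le_rfl
    have := hEk r
    omega
  · have hrm : r = m := by omega
    obtain ⟨j, hj⟩ : ∃ j, r = j + 1 := ⟨r - 1, by omega⟩
    have h1 := hlow j (by omega)
    have h2 := hgrow j (by omega) (by omega)
    have h3 := hEk (j + 1)
    have h4 : E (j + 1) ≤ E j + 2 := by omega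
    have h5 : 2 * r * (E (j + 1) + E j) ≤ 2 * r * (2 * E j + 2) := Nat.mul_le_mul_left _ (by omega)
    rw [hm, show 2 * m + 1 - 1 = 2 * m by omega, ← hrm] at h2
    have h6 : r < E j := by omega
    nlinarith

end Crest.Agent.R54
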