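import Crest.Agent.R54.Checker

set_option autoImplicit false

namespace Crest.Agent.R54

variable {V : Type} {G : SimpleGraph V}

/-- The marks of a cyclic system with the given amounts. -/
def bits : List ℕ → List Bool
  | [] => []
  | a :: l => true :: (List.replicate a false ++ bits l)

def bitsF (l : List ℕ) (i : ℕ) : Bool := (bits l).getD i false

/-- Number of positive entries. -/
def npos : List ℕ → ℕ
  | [] => 0
  | 0 :: l => npos l
  | (_ + 1) :: l => npos l + 1

def comps (r : ℕ) : ℕ → ℕ → List (List ℕ)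
  | 0, L => bif Nat.beq L 0 then [[]] else []
  | t + 1, L => ((List.range (L + 1)).filter (fun c => Nat.beq c 0 || Nat.ble r c)).flatMap
      (fun c => (comps r t (L - c)).map (fun l => c :: l))

theorem mem_comps (r : ℕ) : ∀ (l : List ℕ), (∀ c ∈ l, c = 0 ∨ r ≤ c) → l ∈ comps r l.length l.sum
  | [], _ => by simp [comps]
  | a :: l, h => by
    have ih := mem_comps r l (fun c hc => h c (List.mem_cons_of_mem _ hc))
    simp only [comps, List.length_cons, List.sum_cons, List.mem_flatMap, List.mem_filter,
      List.mem_range, Bool.or_eq_true, Nat.beq_eq, Nat.ble_eq, List.mem_map]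
    exact ⟨a, ⟨by omega, h a (by simp)⟩, l, by simpa using ih, rfl⟩

def family (r t L e : ℕ) : List (List ℕ) := (comps r t L).filter (fun l => Nat.beq (npos l) e)

theorem mem_family {r t L e : ℕ} {l : List ℕ} (h1 : l.length = t) (h2 : l.sum = L)
    (h3 : ∀ c ∈ l, c = 0 ∨ r ≤ c) (h4 : npos l = e) : l ∈ family r t L e := by
  subst h1 h2
  exact List.mem_filter.2 ⟨mem_comps r l h3, by simp [h4]⟩

def chkSubs (FL : List (ℕ × ℕ)) (n : ℕ) : List (List ℕ) → List ℕ → Bool
  | [], _ => true
  | _ :: _, [] => false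
  | l :: ls, c :: cs => chkInto FL n (cfgE n (bitsF l)) c && chkSubs FL n ls cs

theorem chkSubs_sound {FL : List (ℕ × ℕ)} (hFL : ∀ c ∈ FL, Forb G c) {n : ℕ} :
    ∀ (ls : List (List ℕ)) (cs : List ℕ), chkSubs FL n ls cs = true →
      ∀ l ∈ ls, ¬ Contains G n (cfgE n (bitsF l))
  | [], _, _ => by simp
  | _ :: _, [], h => by simp [chkSubs] at h
  | l :: ls, c :: cs, h => by
    simp only [chkSubs, Bool.and_eq_true] at h
    intro l' hl'
    rcases List.mem_cons.1 hl' with rfl | hl'
    · exact chkInto_sound hFL h.1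
    · exact chkSubs_sound hFL ls cs h.2 l' hl'

end Crest.Agent.R54
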