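import Crest.Agent.R54.Small

set_option autoImplicit false

namespace Crest.Agent.R54

variable {V : Type} {G : SimpleGraph V}

theorem Hyp.c4 (h : Hyp G 3) {a b c d : V} (hab : G.Adj a b) (hbc : G.Adj b c) (hcd : G.Adj c d)
    (hda : G.Adj d a) (hac : a ≠ c) (hbd : b ≠ d) : False := by
  apply h.noCyc
  refine ⟨a, [b, c, d], ?_, rfl, ?_⟩
  · simp [hab.ne, hac, hda.ne.symm, hbc.ne, hbd, hcd.ne]
  · simp [hab, hbc, hcd, hda]

theorem Hyp.i4 (h : Hyp G 3) {a b c d : V} (hab : ¬ G.Adj a b) (hac : ¬ G.Adj a c)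
    (had : ¬ G.Adj a d) (hbc : ¬ G.Adj b c) (hbd : ¬ G.Adj b d) (hcd : ¬ G.Adj c d)
    (nab : a ≠ b) (nac : a ≠ c) (nad : a ≠ d) (nbc : b ≠ c) (nbd : b ≠ d) (ncd : c ≠ d) :
    False := by
  classical
  have h1 : Indep G (insert a {b, c, d}) := (indep_three hbc hbd hcd).insert (by
    intro u hu
    simp only [Finset.mem_insert, Finset.mem_singleton] at hu
    rcases hu with rfl | rfl | rfl <;> assumption)
  have h2 := h.indep_le _ h1
  rw [Finset.card_insert_of_notMem (by simp [nab, nac, nad]),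
    Finset.card_eq_three.2 ⟨b, c, d, nbc, nbd, ncd, rfl⟩] at h2
  omega

/-- A triangle. -/
structure Tri (G : SimpleGraph V) (a b c : V) : Prop where
  ab : G.Adj a b
  ac : G.Adj a c
  bc : G.Adj b c

theorem Tri.rot {a b c : V} (h : Tri G a b c) : Tri G b c a := ⟨h.bc, h.ab.symm, h.ac.symm⟩
theorem Tri.swap {a b c : V} (h : Tri G a b c) : Tri G a c b := ⟨h.ac, h.ab, h.bc.symm⟩

/-- `x` is an outside neighbour of `a`. -/
def PN (G : SimpleGraph V) (a b c x : V) : Prop := G.Adj a x ∧ x ≠ b ∧ x ≠ c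

theorem PN.swap {a b c x : V} (h : PN G a b c x) : PN G a c b x := ⟨h.1, h.2.2, h.2.1⟩

theorem Hyp.pn_nadj (h : Hyp G 3) {a b c x : V} (T : Tri G a b c) (hx : PN G a b c x) :
    ¬ G.Adj b x := fun hb =>
  h.c4 hx.1.symm T.ac T.bc.symm hb hx.2.2 T.ab.ne

theorem Hyp.pn_ne (h : Hyp G 3) {a b c x y : V} (T : Tri G a b c) (hx : PN G a b c x)
    (hy : PN G b c a y) : x ≠ y := by
  rintro rfl
  exact h.pn_nadj T hx hy.1

theorem Hyp.pn_anti (h : Hyp G 3) {a b c x y : V} (T : Tri G a b c) (hx : PN G a b c x)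
    (hy : PN G b c a y) : ¬ G.Adj x y := fun hxy =>
  h.c4 hx.1 hxy hy.1.symm T.ab.symm hy.2.2.symm hx.2.1

theorem Hyp.pn_exists [Fintype V] (h : Hyp G 3) (a b c : V) : ∃ x, PN G a b c x := by
  classical
  by_contra hcon
  push Not at hcon
  have := h.deg' a {b, c} (by
    intro u hu
    by_contra hu'
    simp only [Finset.mem_insert, Finset.mem_singleton, not_or] at hu'
    exact hcon u ⟨hu, hu'.1, hu'.2⟩)
  have := Finset.card_le_two (a := b) (b := c)
  omega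

/-- A vertex away from the triangle. -/
def Out (G : SimpleGraph V) (a b c y : V) : Prop :=
  y ≠ a ∧ y ≠ b ∧ y ≠ c ∧ ¬ G.Adj a y ∧ ¬ G.Adj b y ∧ ¬ G.Adj c y

theorem Out.rot {a b c y : V} (h : Out G a b c y) : Out G b c a y :=
  ⟨h.2.1, h.2.2.1, h.1, h.2.2.2.2.1, h.2.2.2.2.2, h.2.2.2.1⟩

theorem Out.swap {a b c y : V} (h : Out G a b c y) : Out G a c b y :=
  ⟨h.1, h.2.2.1, h.2.1, h.2.2.2.1, h.2.2.2.2.2, h.2.2.2.2.1⟩

theorem Hyp.out_adj (h : Hyp G 3) {a b c x1 x2 y : V} (T : Tri G a b c) (h1 : PN G a b c x1)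
    (h2 : PN G b c a x2) (hy : Out G a b c y) : G.Adj x1 y ∨ G.Adj x2 y := by
  by_contra hcon
  push Not at hcon
  refine h.i4 (a := c) (b := x1) (c := x2) (d := y) (h.pn_nadj T.swap h1.swap)
    (h.pn_nadj T.rot h2) hy.2.2.2.2.2 (h.pn_anti T h1 h2) hcon.1 hcon.2 h1.2.2.symm h2.2.1.symm
    hy.2.2.1.symm (h.pn_ne T h1 h2) ?_ ?_
  · rintro rfl; exact hy.2.2.2.1 h1.1
  · rintro rfl; exact hy.2.2.2.2.1 h2.1

theorem Hyp.pn_clq [Fintype V] (h : Hyp G 3) {a b c x x' : V} (T : Tri G a b c)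
    (hx : PN G a b c x) (hx' : PN G a b c x') (hne : x ≠ x') : G.Adj x x' := by
  by_contra hcon
  obtain ⟨y, hy⟩ := h.pn_exists b c a
  obtain ⟨z, hz⟩ := h.pn_exists c a b
  exact h.i4 (a := x) (b := x') (c := y) (d := z) hcon (h.pn_anti T hx hy)
    (h.pn_anti T.swap hx.swap hz.swap) (h.pn_anti T hx' hy) (h.pn_anti T.swap hx'.swap hz.swap)
    (h.pn_anti T.rot hy hz) hne (h.pn_ne T hx hy) (h.pn_ne T.swap hx.swap hz.swap)
    (h.pn_ne T hx' hy) (h.pn_ne T.swap hx'.swap hz.swap) (h.pn_ne T.rot hy hz)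

theorem Hyp.pn_out [Fintype V] (h : Hyp G 3) {a b c x x' : V} (T : Tri G a b c)
    (hx : PN G a b c x) (hx' : PN G a b c x') (hne : x ≠ x') : ∃ y, Out G a b c y ∧ G.Adj x y := by
  classical
  by_contra hcon
  push Not at hcon
  have := h.deg' x {a, x'} (by
    intro u hu
    by_contra hu'
    simp only [Finset.mem_insert, Finset.mem_singleton, not_or] at hu'
    have nb : u ≠ b := by rintro rfl; exact h.pn_nadj T hx hu.symm
    have nc : u ≠ c := by rintro rfl; exact h.pn_nadj T.swap hx.swap hu.symm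
    refine hcon u ⟨hu'.1, nb, nc, ?_, ?_, ?_⟩ hu
    · intro hau
      exact no_K4 h.clqBound (a := x) (b := x') (c := u) (d := a) (h.pn_clq T hx hx' hne) hu
        (h.pn_clq T hx' ⟨hau, nb, nc⟩ (Ne.symm hu'.2)) hx.1 hx'.1 hau
    · intro hbu
      exact h.pn_anti T hx ⟨hbu, nc, hu'.1⟩ hu
    · intro hcu
      exact h.pn_anti T.swap hx.swap ⟨hcu, nb, hu'.1⟩ hu)
  have := Finset.card_le_two (a := a) (b := x')
  omega

theorem Hyp.pn_uniq [Fintype V] (h : Hyp G 3) {a b c x x' : V} (T : Tri G a b c)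
    (hx : PN G a b c x) (hx' : PN G a b c x') : x = x' := by
  by_contra hne
  obtain ⟨y, hy, hxy⟩ := h.pn_out T hx hx' hne
  obtain ⟨y', hy', hxy'⟩ := h.pn_out T hx' hx (Ne.symm hne)
  obtain ⟨u, hu⟩ := h.pn_exists b c a
  obtain ⟨w, hw⟩ := h.pn_exists c a b
  have n1 : ¬ G.Adj x' y := fun h' => h.c4 hxy.symm hx.1.symm hx'.1 h' hy.1 hne
  have n2 : ¬ G.Adj x y' := fun h' => h.c4 h'.symm hx.1.symm hx'.1 hxy' hy'.1 hne
  have yy : y ≠ y' := by rintro rfl; exact n2 hxy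
  have a1 := (h.out_adj T hx' hu hy).resolve_left n1
  have a2 := (h.out_adj T.swap hx'.swap hw.swap hy.swap).resolve_left n1
  have a3 := (h.out_adj T hx hu hy').resolve_left n2
  have a4 := (h.out_adj T.swap hx.swap hw.swap hy'.swap).resolve_left n2
  exact h.c4 a1 a2.symm a4 a3.symm (h.pn_ne T.rot hu hw) yy

theorem Hyp.case33 [Fintype V] (h : Hyp G 3) (v : V) : False := by
  classical
  have h2 := h.not_clqBound_two v
  unfold ClqBound at h2
  push Not at h2
  obtain ⟨K, hK, hc⟩ := h2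
  obtain ⟨a, ha, b, hb, c, hc', hab, hac, hbc⟩ := Finset.two_lt_card.1 hc
  have T : Tri G a b c := ⟨hK a ha b hb hab, hK a ha c hc' hac, hK b hb c hc' hbc⟩
  obtain ⟨x, hx⟩ := h.pn_exists a b c
  obtain ⟨y, hy⟩ := h.pn_exists b c a
  obtain ⟨z, hz⟩ := h.pn_exists c a b
  let C : V → V → Finset V := fun u w => Finset.univ.filter (fun s => G.Adj u s ∧ G.Adj w s)
  have hC : ∀ u w, u ≠ w → (C u w).card ≤ 1 := by
    intro u w huw
    rw [Finset.card_le_one]
    intro s hs s' hs'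
    simp only [C, Finset.mem_filter, Finset.mem_univ, true_and] at hs hs'
    by_contra hss
    exact h.c4 hs.1 hs.2.symm hs'.2 hs'.1.symm huw hss
  have nxy := h.pn_ne T hx hy
  have nxz := h.pn_ne T.swap hx.swap hz.swap
  have nyz := h.pn_ne T.rot hy hz
  have hexp := h.expand {x, y, z} ({a, b, c} ∪ ({x, y, z} ∪ (C x y ∪ (C x z ∪ C y z)))) (by simp)
    (indep_three (h.pn_anti T hx hy) (h.pn_anti T.swap hx.swap hz.swap) (h.pn_anti T.rot hy hz))
    (by
      intro s _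
      by_contra hs
      simp only [C, Finset.mem_union, Finset.mem_insert, Finset.mem_singleton, not_or,
        Finset.mem_filter, Finset.mem_univ, true_and, not_and] at hs
      obtain ⟨⟨sa, sb, sc⟩, ⟨sx, sy, sz⟩, c1, c2, c3⟩ := hs
      have ho : Out G a b c s := by
        refine ⟨sa, sb, sc, fun h' => sx ?_, fun h' => sy ?_, fun h' => sz ?_⟩
        · exact h.pn_uniq T ⟨h', sb, sc⟩ hx
        · exact h.pn_uniq T.rot ⟨h', sc, sa⟩ hy
        · exact h.pn_uniq T.rot.rot ⟨h', sa, sb⟩ hz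
      have o1 := h.out_adj T hx hy ho
      have o2 := h.out_adj T.swap hx.swap hz.swap ho.swap
      have o3 := h.out_adj T.rot hy hz ho.rot
      tauto)
  rw [Finset.card_eq_three.2 ⟨x, y, z, nxy, nxz, nyz, rfl⟩] at hexp
  have c1 := Finset.card_union_le ({a, b, c} : Finset V) ({x, y, z} ∪ (C x y ∪ (C x z ∪ C y z)))
  have c2 := Finset.card_union_le ({x, y, z} : Finset V) (C x y ∪ (C x z ∪ C y z))
  have c3 := Finset.card_union_le (C x y) (C x z ∪ C y z)
  have c4 := Finset.card_union_le (C x z) (C y z)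
  have c5 := Finset.card_le_three (a := a) (b := b) (c := c)
  have c6 := Finset.card_le_three (a := x) (b := y) (c := z)
  have := hC x y nxy
  have := hC x z nxz
  have := hC y z nyz
  omega

end Crest.Agent.R54
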