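import Crest.Agent.R54.Balls

set_option autoImplicit false

namespace Crest.Agent.R54

variable {V : Type} {G : SimpleGraph V}

@[simp] theorem beq_false_iff {a b : ℕ} : Nat.beq a b = false ↔ a ≠ b := by
  rw [← Bool.not_eq_true, Nat.beq_eq]

def allLt (f : ℕ → Bool) : ℕ → Bool
  | 0 => true
  | n + 1 => f n && allLt f n

theorem allLt_iff {f : ℕ → Bool} : ∀ {n : ℕ}, allLt f n = true ↔ ∀ i < n, f i = true
  | 0 => by simp [allLt]
  | n + 1 => by
    rw [allLt, Bool.and_eq_true, allLt_iff, Nat.forall_lt_succ_right]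
    exact and_comm

def cntLt (f : ℕ → Bool) : ℕ → ℕ
  | 0 => 0
  | n + 1 => (bif f n then 1 else 0) + cntLt f n

theorem cntLt_eq (f : ℕ → Bool) :
    ∀ n : ℕ, cntLt f n = ((Finset.range n).filter (fun i => f i = true)).card
  | 0 => by simp [cntLt]
  | n + 1 => by
    rw [cntLt, cntLt_eq f n, Finset.range_add_one, Finset.filter_insert]
    cases hf : f n
    · simp
    · simp [add_comm]

/-- `φ` embeds the graph with vertices `0, …, n - 1` and edge test `E` into `G`. -/
def Emb (G : SimpleGraph V) (n : ℕ) (E : ℕ → ℕ → Bool) (φ : ℕ → V) : Prop :=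
  (∀ i < n, ∀ j < n, φ i = φ j → i = j) ∧ ∀ i < n, ∀ j < n, E i j = true → G.Adj (φ i) (φ j)

def Contains (G : SimpleGraph V) (n : ℕ) (E : ℕ → ℕ → Bool) : Prop := ∃ φ, Emb G n E φ

/-- A cycle on `0, …, n - 1` in which the marked vertices form a clique. -/
def cfgE (n : ℕ) (b : ℕ → Bool) (i j : ℕ) : Bool :=
  !(Nat.beq i j) && ((b i && b j) || Nat.beq j ((i + 1) % n) || Nat.beq i ((j + 1) % n))

def dg (M i : ℕ) : ℕ := (M >>> (5 * i)) % 32

def chkEmb (N : ℕ) (E : ℕ → ℕ → Bool) (n2 : ℕ) (E2 : ℕ → ℕ → Bool) (M : ℕ) : Bool :=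
  allLt (fun i => Nat.blt (dg M i) N && allLt (fun j =>
    (Nat.beq i j || !(Nat.beq (dg M i) (dg M j))) && (!(E2 i j) || E (dg M i) (dg M j))) n2) n2

theorem chkEmb_sound {N n2 M : ℕ} {E E2 : ℕ → ℕ → Bool} (h : chkEmb N E n2 E2 M = true)
    (hc : Contains G N E) : Contains G n2 E2 := by
  obtain ⟨φ, h1, h2⟩ := hc
  simp only [chkEmb, allLt_iff, Bool.and_eq_true, Nat.blt_eq, Bool.or_eq_true, Nat.beq_eq,
    Bool.not_eq_true'] at h
  refine ⟨fun i => φ (dg M i), ?_, ?_⟩
  · intro i hi j hj hij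
    have := h1 _ (h i hi).1 _ (h j hj).1 hij
    rcases ((h i hi).2 j hj).1 with h3 | h3
    · exact h3
    · rw [this] at h3; simp at h3
  · intro i hi j hj hij
    rcases ((h i hi).2 j hj).2 with h3 | h3
    · rw [hij] at h3; simp at h3
    · exact h2 _ (h i hi).1 _ (h j hj).1 h3

def pathE (n x y r i j : ℕ) : Bool :=
  (Nat.beq r 0 && Nat.beq i x && Nat.beq j y) ||
    (Nat.blt 0 r && ((Nat.beq i x && Nat.beq j n) ||
      (Nat.ble n i && Nat.beq j (i + 1) && Nat.blt j (n + r)) ||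
      (Nat.beq (i + 1) (n + r) && Nat.beq j y)))

def extE (n : ℕ) (E : ℕ → ℕ → Bool) (x y r i j : ℕ) : Bool :=
  (Nat.blt i n && Nat.blt j n && E i j) || pathE n x y r i j || pathE n x y r j i

open Classical in
noncomputable def imW (φ : ℕ → V) (n : ℕ) : Finset V := (Finset.range n).image φ

theorem mem_imW {φ : ℕ → V} {n : ℕ} {v : V} : v ∈ imW φ n ↔ ∃ i < n, φ i = v := by
  simp [imW]

theorem Conn.exists_fun {W : Finset V} {z z' : V} {r : ℕ} (h : Conn G W z z' r) :
    ∃ c : ℕ → V, c 0 = z ∧ c (r + 1) = z' ∧ (∀ p ≤ r, G.Adj (c p) (c (p + 1))) ∧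
      (∀ p < r, c (p + 1) ∉ W) ∧ ∀ p < r, ∀ q < r, c (p + 1) = c (q + 1) → p = q := by
  obtain ⟨N, h1, rfl, h3, h4⟩ := h
  have key : ∀ p (hp : p < N.length), (z :: (N ++ [z'])).getD (p + 1) z = N[p] := by
    intro p hp
    simp [List.getElem?_append_left hp, hp]
  refine ⟨fun p => (z :: (N ++ [z'])).getD p z, by simp, by simp, ?_, ?_, ?_⟩
  · intro p hp
    have := h4.getElem p (by simp; omega)
    show G.Adj ((z :: (N ++ [z'])).getD p z) ((z :: (N ++ [z'])).getD (p + 1) z)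
    rwa [List.getD_eq_getElem _ _ (by simp; omega), List.getD_eq_getElem _ _ (by simp; omega)]
  · intro p hp
    simp only [key p hp]
    exact h3 _ (List.getElem_mem _)
  · intro p hp q hq hpq
    simp only [key p hp, key q hq] at hpq
    exact (List.Nodup.getElem_inj_iff h1).1 hpq

theorem Emb.ext {n x y r : ℕ} {E : ℕ → ℕ → Bool} {φ : ℕ → V} (h : Emb G n E φ) (hx : x < n)
    (hy : y < n) (hc : Conn G (imW φ n) (φ x) (φ y) r) : Contains G (n + r) (extE n E x y r) := by
  obtain ⟨c, c0, c1, c2, c3, c4⟩ := hc.exists_fun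
  let ψ : ℕ → V := fun i => if i < n then φ i else c (i - n + 1)
  have p1 : ∀ i < n, ψ i = φ i := fun i hi => if_pos hi
  have p2 : ∀ i, n ≤ i → ψ i = c (i - n + 1) := fun i hi => if_neg (by omega)
  have hp : ∀ i j, pathE n x y r i j = true → G.Adj (ψ i) (ψ j) := by
    intro i j hij
    simp only [pathE, Bool.and_eq_true, Nat.blt_eq, Bool.or_eq_true, Nat.beq_eq,
      Nat.ble_eq] at hij
    rcases hij with ⟨⟨rfl, rfl⟩, rfl⟩ | ⟨hr, (⟨rfl, rfl⟩ | ⟨⟨h1, rfl⟩, h2⟩) | ⟨h1, rfl⟩⟩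
    · rw [p1 _ hx, p1 _ hy, ← c0, ← c1]; exact c2 0 le_rfl
    · rw [p1 _ hx, p2 _ le_rfl, ← c0, Nat.sub_self]; exact c2 0 (by omega)
    · rw [p2 _ h1, p2 _ (by omega), show i + 1 - n + 1 = i - n + 1 + 1 by omega]
      exact c2 _ (by omega)
    · rw [p2 _ (by omega), p1 _ hy, ← c1, show i - n + 1 = r by omega]
      exact c2 _ le_rfl
  refine ⟨ψ, ?_, ?_⟩
  · intro i hi j hj hij
    by_cases h1 : i < n <;> by_cases h2 : j < n
    · rw [p1 i h1, p1 j h2] at hij; exact h.1 i h1 j h2 hij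
    · rw [p1 i h1, p2 j (by omega)] at hij
      exact absurd (mem_imW.2 ⟨i, h1, hij⟩) (c3 _ (by omega))
    · rw [p2 i (by omega), p1 j h2] at hij
      exact absurd (mem_imW.2 ⟨j, h2, hij.symm⟩) (c3 _ (by omega))
    · rw [p2 i (by omega), p2 j (by omega)] at hij
      have := c4 _ (by omega) _ (by omega) hij
      omega
  · intro i _ j _ hij
    simp only [extE, Bool.and_eq_true, Nat.blt_eq, Bool.or_eq_true] at hij
    rcases hij with (⟨⟨h1, h2⟩, h3⟩ | h3) | h3
    · rw [p1 i h1, p1 j h2]; exact h.2 i h1 j h2 h3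
    · exact hp i j h3
    · exact (hp j i h3).symm

/-- The configuration with `c.1` vertices and marks `c.2` does not occur. -/
def Forb (G : SimpleGraph V) (c : ℕ × ℕ) : Prop := ¬ Contains G c.1 (cfgE c.1 c.2.testBit)

theorem Hyp.forb_cyc {k : ℕ} (h : Hyp G k) : Forb G (k + 1, 0) := by
  rintro ⟨φ, h1, h2⟩
  have hk := h.three_le
  refine h.noCyc (hasCyc_of_fun (by omega) φ h1 ?_ ?_)
  · intro i hi
    refine h2 i (by simpa using (by omega : i < k + 1)) (i + 1) hi ?_
    simp [cfgE, Nat.mod_eq_of_lt hi]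
  · refine h2 _ (by simp) 0 (by simp) ?_
    simp [cfgE]
    omega

/-- Embedding of a forbidden configuration; `c` encodes its index and the map. -/
def chkInto (FL : List (ℕ × ℕ)) (N : ℕ) (E : ℕ → ℕ → Bool) (c : ℕ) : Bool :=
  match FL[c % 64]? with
  | none => false
  | some d => chkEmb N E d.1 (cfgE d.1 d.2.testBit) (c / 64)

theorem chkInto_sound {FL : List (ℕ × ℕ)} (hFL : ∀ c ∈ FL, Forb G c) {N c : ℕ}
    {E : ℕ → ℕ → Bool} (h : chkInto FL N E c = true) : ¬ Contains G N E := by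
  intro hc
  unfold chkInto at h
  split at h
  · simp at h
  · next d hd => exact hFL d (List.mem_of_getElem? hd) (chkEmb_sound h hc)

def chkCert (FL : List (ℕ × ℕ)) (n : ℕ) (E : ℕ → ℕ → Bool) (c : ℕ) : Bool :=
  Nat.blt (c % 16) n && Nat.blt (c / 16 % 16) n &&
    chkInto FL (n + c / 256 % 8) (extE n E (c % 16) (c / 16 % 16) (c / 256 % 8)) (c / 2048)

def certMask : List ℕ → ℕ
  | [] => 0
  | c :: l => (2 ^ (c / 256 % 8 * 256 + c % 16 * 16 + c / 16 % 16) |||
      2 ^ (c / 256 % 8 * 256 + c / 16 % 16 * 16 + c % 16)) ||| certMask l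

def fb (T x y r : ℕ) : Bool := T.testBit (r * 256 + x * 16 + y)

theorem idx_inj {a b c a' b' c' : ℕ} (hb : b < 16) (hc : c < 16) (hb' : b' < 16) (hc' : c' < 16)
    (h : a * 256 + b * 16 + c = a' * 256 + b' * 16 + c') : a = a' ∧ b = b' ∧ c = c' := by
  omega

theorem fb_sound {FL : List (ℕ × ℕ)} (hFL : ∀ c ∈ FL, Forb G c) {n : ℕ} {E : ℕ → ℕ → Bool}
    {φ : ℕ → V} (hφ : Emb G n E φ) {x y r : ℕ} (hx : x < 16) (hy : y < 16) :
    ∀ l : List ℕ, l.all (chkCert FL n E) = true → fb (certMask l) x y r = true →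
      ¬ Conn G (imW φ n) (φ x) (φ y) r
  | [], _, h => by simp [fb, certMask] at h
  | c :: l, h1, h2 => by
    simp only [List.all_cons, Bool.and_eq_true] at h1
    simp only [fb, certMask, Nat.testBit_or, Bool.or_eq_true, Nat.testBit_two_pow,
      decide_eq_true_eq] at h2
    obtain ⟨h3, h4⟩ := h1
    simp only [chkCert, Bool.and_eq_true, Nat.blt_eq] at h3
    have key : ¬ Conn G (imW φ n) (φ (c % 16)) (φ (c / 16 % 16)) (c / 256 % 8) :=
      fun hc => chkInto_sound hFL h3.2 (hφ.ext h3.1.1 h3.1.2 hc)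
    rcases h2 with (h2 | h2) | h2
    · obtain ⟨e3, e1, e2⟩ := idx_inj (by omega) (by omega) hx hy h2
      rwa [e2, e1, e3] at key
    · obtain ⟨e3, e2, e1⟩ := idx_inj (by omega) (by omega) hx hy h2
      rw [e2, e1, e3] at key
      exact fun hc => key hc.symm
    · exact fb_sound hFL hφ hx hy l h4 h2

/-- Test that every `F`-free subset of the list has at most `m` elements. -/
def mcLe (F : ℕ → ℕ → Bool) : ℕ → List ℕ → ℕ → Bool
  | 0, c, m => Nat.ble c.length m
  | _ + 1, [], _ => true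
  | _ + 1, _ :: _, 0 => false
  | f + 1, a :: c, m + 1 => Nat.ble c.length m ||
      (mcLe F f (c.filter (fun y => !(F a y))) m && mcLe F f c (m + 1))

theorem card_le_length_of_mem {K : Finset ℕ} {c : List ℕ} (h : ∀ a ∈ K, a ∈ c) :
    K.card ≤ c.length :=
  (Finset.card_le_card (fun a ha => List.mem_toFinset.2 (h a ha))).trans c.toFinset_card_le

theorem mcLe_sound (F : ℕ → ℕ → Bool) : ∀ (f : ℕ) (c : List ℕ) (m : ℕ) (K : Finset ℕ),
    (∀ a ∈ K, a ∈ c) → (∀ a ∈ K, ∀ b ∈ K, a ≠ b → F a b = false) → mcLe F f c m = true →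
      K.card ≤ m
  | 0, c, m, K, h1, _, h3 => by
    simp only [mcLe, Nat.ble_eq] at h3
    exact (card_le_length_of_mem h1).trans h3
  | _ + 1, [], _, K, h1, _, _ => by
    have := card_le_length_of_mem h1
    simp only [List.length_nil] at this
    omega
  | _ + 1, _ :: _, 0, K, _, _, h3 => by simp [mcLe] at h3
  | f + 1, a :: c, m + 1, K, h1, h2, h3 => by
    simp only [mcLe, Nat.ble_eq, Bool.or_eq_true, Bool.and_eq_true] at h3
    rcases h3 with h3 | ⟨h3, h4⟩
    · have := card_le_length_of_mem h1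
      simp only [List.length_cons] at this
      omega
    by_cases ha : a ∈ K
    · have := mcLe_sound F f _ m (K.erase a) (by
        intro b hb
        obtain ⟨hb1, hb2⟩ := Finset.mem_erase.1 hb
        refine List.mem_filter.2 ⟨(List.mem_cons.1 (h1 b hb2)).resolve_left hb1, ?_⟩
        simp [h2 a ha b hb2 hb1.symm])
        (fun x hx y hy => h2 x (Finset.mem_of_mem_erase hx) y (Finset.mem_of_mem_erase hy)) h3
      rw [Finset.card_erase_of_mem ha] at this
      omega
    · exact mcLe_sound F f c (m + 1) K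
        (fun b hb => (List.mem_cons.1 (h1 b hb)).resolve_left (fun e => ha (e ▸ hb))) h2 h4

def d0c (T n z : ℕ) : ℕ := cntLt (fun y => !(Nat.beq y z) && !(fb T z y 0)) n

def wpc (T n z : ℕ) : ℕ := cntLt (fun y => !(Nat.beq y z) && !(fb T z y 1 && fb T z y 2)) n

def m1Le (T n z m : ℕ) : Bool :=
  mcLe (fun a b => fb T a b 1) n
    ((List.range n).filter (fun y => !(Nat.beq y z) && !(fb T z y 1))) m

def rho : ℕ → ℕ
  | 0 => 0 | 1 => 1 | 2 => 1 | 3 => 2 | 4 => 2 | _ => 3

def plus : ℕ → Bool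
  | 0 => true | 4 => true | _ => false

def wt : ℕ → ℕ
  | 0 => 1 | 1 => 1 | 2 => 2 | 3 => 2 | 4 => 2 | _ => 3

def chkNode (k t T n z : ℕ) : ℕ → Bool
  | 0 => true
  | 1 => Nat.ble (d0c T n z + 1) k
  | 2 => Nat.ble (d0c T n z + t) k
  | 3 => Nat.ble (d0c T n z + 1) k && Nat.ble (t + 1) k && m1Le T n z (k - (t + 1))
  | 4 => Nat.ble (d0c T n z + 1) k && Nat.ble t k && m1Le T n z (k - t)
  | _ => Nat.ble (d0c T n z + 1) k && Nat.ble (t + 1) k && m1Le T n z (k - (t + 1)) &&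
      Nat.blt (wpc T n z + 2 + t + max (2 * (t - 1)) (k - 1)) (2 * k + 1)

section Node

variable [Fintype V] {k t T n z : ℕ} {φ : ℕ → V}

theorem nx_d0 (h : Hyp G k)
    (hF : ∀ x < n, ∀ y < n, ∀ r, fb T x y r = true → ¬ Conn G (imW φ n) (φ x) (φ y) r)
    (hz : z < n) : k ≤ (NX G (imW φ n) (φ z)).card + d0c T n z := by
  classical
  have := h.nx_card (imW φ n) (φ z) (((Finset.range n).filter
    (fun y => (!(Nat.beq y z) && !(fb T z y 0)) = true)).image φ) (by
      intro y hy hadj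
      obtain ⟨j, hj, rfl⟩ := mem_imW.1 hy
      refine Finset.mem_image_of_mem _ (Finset.mem_filter.2 ⟨Finset.mem_range.2 hj, ?_⟩)
      have h1 : j ≠ z := by rintro rfl; exact G.irrefl hadj
      have h2 : ¬ fb T z j 0 = true := fun hf => hF z hz j hj 0 hf (conn_zero hadj)
      simp [h1, h2])
  rw [d0c, cntLt_eq]
  exact this.trans (Nat.add_le_add_left Finset.card_image_le _)

theorem nx_m1 (h : Hyp G k)
    (hF : ∀ x < n, ∀ y < n, ∀ r, fb T x y r = true → ¬ Conn G (imW φ n) (φ x) (φ y) r)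
    (hz : z < n) {m : ℕ} (hm : m1Le T n z m = true) {x : V} (hx : x ∈ NX G (imW φ n) (φ z)) :
    k ≤ (NX G (imW φ n) x).card + (m + 1) := by
  classical
  obtain ⟨hx1, hx2⟩ := mem_NX.1 hx
  let K := (Finset.range n).filter (fun y => y ≠ z ∧ G.Adj x (φ y))
  have hK : ∀ y, y ∈ K ↔ y < n ∧ y ≠ z ∧ G.Adj x (φ y) := by intro y; simp [K]
  have hc : K.card ≤ m := by
    refine mcLe_sound _ _ _ _ K ?_ ?_ hm
    · intro a ha
      obtain ⟨h1, h2, h3⟩ := (hK a).1 ha
      refine List.mem_filter.2 ⟨List.mem_range.2 h1, ?_⟩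
      have h4 : ¬ fb T z a 1 = true := fun hf => hF z hz a h1 1 hf (conn_one hx2 hx1.symm h3)
      simp [h2, h4]
    · intro a ha b hb _
      obtain ⟨h1, -, h3⟩ := (hK a).1 ha
      obtain ⟨h1', -, h3'⟩ := (hK b).1 hb
      have h4 : ¬ fb T a b 1 = true := fun hf => hF a h1 b h1' 1 hf (conn_one hx2 h3 h3')
      simpa using h4
  have := h.nx_card (imW φ n) x ((insert z K).image φ) (by
    intro y hy hadj
    obtain ⟨j, hj, rfl⟩ := mem_imW.1 hy
    refine Finset.mem_image_of_mem _ ?_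
    by_cases hjz : j = z
    · simp [hjz]
    · exact Finset.mem_insert_of_mem ((hK j).2 ⟨hj, hjz, hadj⟩))
  have c1 : ((insert z K).image φ).card ≤ (insert z K).card := Finset.card_image_le
  have c2 := Finset.card_insert_le z K
  omega

theorem chkNode_sound (h : Hyp G k) (ht : ClqBound G t)
    (hF : ∀ x < n, ∀ y < n, ∀ r, fb T x y r = true → ¬ Conn G (imW φ n) (φ x) (φ y) r)
    (hz : z < n) (ty : ℕ) (hc : chkNode k t T n z ty = true) :
    ∃ J : Finset V, Indep G J ∧ wt ty ≤ J.card ∧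
      ∀ a ∈ J, BallP G (imW φ n) (φ z) (rho ty) (plus ty = true) a := by
  classical
  have hd := nx_d0 h hF hz
  have b1 : ∀ x ∈ NX G (imW φ n) (φ z), Ball G (imW φ n) (φ z) 1 x :=
    fun x hx => ball_one (mem_NX.1 hx).2 (mem_NX.1 hx).1
  have b2 : ∀ x ∈ NX G (imW φ n) (φ z), ∀ y ∈ NX G (imW φ n) x, Ball G (imW φ n) (φ z) 2 y :=
    fun x hx y hy => (b1 x hx).step (mem_NX.1 hy).1 (mem_NX.1 hy).2
  match ty, hc with
  | 0, _ => exact ⟨{φ z}, indep_singleton _, by simp [wt], by simp [BallP, plus]⟩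
  | 1, hc =>
    simp only [chkNode, Nat.ble_eq] at hc
    obtain ⟨x, hx⟩ := Finset.card_pos.1 (by omega : 0 < (NX G (imW φ n) (φ z)).card)
    exact ⟨{x}, indep_singleton _, by simp [wt], by
      intro a ha
      rw [Finset.mem_singleton.1 ha]
      exact Or.inr (b1 x hx)⟩
  | 2, hc =>
    simp only [chkNode, Nat.ble_eq] at hc
    obtain ⟨J, hJ, hI, hJc⟩ := two_of_nbhd ht (φ z) (NX G (imW φ n) (φ z))
      (fun y hy => (mem_NX.1 hy).1) (by omega)
    exact ⟨J, hI, by simp [wt, hJc], fun a ha => Or.inr (b1 a (hJ ha))⟩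
  | 3, hc =>
    simp only [chkNode, Nat.ble_eq, Bool.and_eq_true] at hc
    obtain ⟨x, hx⟩ := Finset.card_pos.1 (by omega : 0 < (NX G (imW φ n) (φ z)).card)
    have := nx_m1 h hF hz hc.2 hx
    obtain ⟨J, hJ, hI, hJc⟩ := two_of_nbhd ht x (NX G (imW φ n) x)
      (fun y hy => (mem_NX.1 hy).1) (by omega)
    exact ⟨J, hI, by simp [wt, hJc], fun a ha => Or.inr (b2 x hx a (hJ ha))⟩
  | 4, hc =>
    simp only [chkNode, Nat.ble_eq, Bool.and_eq_true] at hc
    obtain ⟨x, hx⟩ := Finset.card_pos.1 (by omega : 0 < (NX G (imW φ n) (φ z)).card)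
    have := nx_m1 h hF hz hc.2 hx
    obtain ⟨J, hJ, hI, hJc⟩ := two_of_nbhd ht x (insert (φ z) (NX G (imW φ n) x))
      (by
        intro y hy
        rcases Finset.mem_insert.1 hy with rfl | hy
        · exact (mem_NX.1 hx).1.symm
        · exact (mem_NX.1 hy).1)
      (by
        rw [Finset.card_insert_of_notMem
          (fun hm => (mem_NX.1 hm).2 (mem_imW.2 ⟨z, hz, rfl⟩))]
        omega)
    refine ⟨J, hI, by simp [wt, hJc], fun a ha => ?_⟩
    rcases Finset.mem_insert.1 (hJ ha) with rfl | ha'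
    · exact Or.inl ⟨rfl, rfl⟩
    · exact Or.inr (b2 x hx a ha')
  | m + 5, hc =>
    simp only [chkNode, Nat.ble_eq, Bool.and_eq_true, Nat.blt_eq] at hc
    obtain ⟨x, hx⟩ := Finset.card_pos.1 (by omega : 0 < (NX G (imW φ n) (φ z)).card)
    have := nx_m1 h hF hz hc.1.2 hx
    obtain ⟨J, hI, hJc, hJ⟩ := h.three_in_ball ht (imW φ n) (b1 x hx) (by omega)
      ((insert z ((Finset.range n).filter
        (fun y => (!(Nat.beq y z) && !(fb T z y 1 && fb T z y 2)) = true))).image φ)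
      (by
        intro w hw y hy hadj
        obtain ⟨j, hj, rfl⟩ := mem_imW.1 hw
        refine Finset.mem_image_of_mem _ ?_
        by_cases hjz : j = z
        · simp [hjz]
        refine Finset.mem_insert_of_mem (Finset.mem_filter.2 ⟨Finset.mem_range.2 hj, ?_⟩)
        obtain ⟨r, r1, r2, r3⟩ := hy.conn_adj hadj
        have h4 : ¬ fb T z j r = true := fun hf => hF z hz j hj r hf r3
        have : r = 1 ∨ r = 2 := by omega
        rcases this with rfl | rfl <;> simp [hjz, h4])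
      (by
        have c1 := Finset.card_image_le (f := φ) (s := insert z ((Finset.range n).filter
          (fun y => (!(Nat.beq y z) && !(fb T z y 1 && fb T z y 2)) = true)))
        have c2 := Finset.card_insert_le z ((Finset.range n).filter
          (fun y => (!(Nat.beq y z) && !(fb T z y 1 && fb T z y 2)) = true))
        have c3 := hc.2
        rw [wpc, cntLt_eq] at c3
        omega)
    exact ⟨J, hI, hJc, fun a ha => Or.inr (hJ a ha)⟩

end Node

def compat (T a b : ℕ) : Bool :=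
  !(Nat.beq (a / 8) (b / 8)) &&
    allLt (fun r => Nat.beq r 0 || fb T (a / 8) (b / 8) r) (rho (a % 8) + rho (b % 8) + 1) &&
    (!(plus (a % 8) && plus (b % 8)) || fb T (a / 8) (b / 8) 0)

def pwCompat (T : ℕ) : List ℕ → Bool
  | [] => true
  | a :: l => l.all (compat T a) && pwCompat T l

theorem pwCompat_sound (T : ℕ) : ∀ l : List ℕ, pwCompat T l = true →
    l.Pairwise (fun a b => compat T a b = true)
  | [], _ => List.Pairwise.nil
  | a :: l, h => by
    simp only [pwCompat, Bool.and_eq_true, List.all_eq_true] at h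
    exact List.Pairwise.cons h.1 (pwCompat_sound T l h.2)

def chkElim (k t : ℕ) (FL : List (ℕ × ℕ)) (n mask T : ℕ) (certs sel : List ℕ) : Bool :=
  Nat.ble n 16 && Nat.beq (certMask certs) T && certs.all (chkCert FL n (cfgE n mask.testBit)) &&
    sel.all (fun a => Nat.blt (a / 8) n && chkNode k t T n (a / 8) (a % 8)) && pwCompat T sel &&
    Nat.blt k (sel.map (fun a => wt (a % 8))).sum

theorem chkElim_sound [Fintype V] {k t : ℕ} (h : Hyp G k) (ht : ClqBound G t)
    {FL : List (ℕ × ℕ)} (hFL : ∀ c ∈ FL, Forb G c) {n mask T : ℕ} {certs sel : List ℕ}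
    (hc : chkElim k t FL n mask T certs sel = true) : Forb G (n, mask) := by
  classical
  rintro ⟨φ, hφ⟩
  simp only [chkElim, Bool.and_eq_true, Nat.ble_eq, Nat.beq_eq, Nat.blt_eq] at hc
  obtain ⟨⟨⟨⟨⟨h1, h2⟩, h3⟩, h4⟩, h5⟩, h6⟩ := hc
  have hF : ∀ x < n, ∀ y < n, ∀ r, fb T x y r = true → ¬ Conn G (imW φ n) (φ x) (φ y) r :=
    fun x hx y hy r hr => fb_sound hFL hφ (by omega) (by omega) certs h3 (h2 ▸ hr)
  simp only [List.all_eq_true, Bool.and_eq_true, Nat.blt_eq] at h4
  have hJ : ∀ a : ℕ, ∃ J : Finset V, a ∈ sel → (Indep G J ∧ wt (a % 8) ≤ J.card ∧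
      ∀ x ∈ J, BallP G (imW φ n) (φ (a / 8)) (rho (a % 8)) (plus (a % 8) = true) x) := by
    intro a
    by_cases ha : a ∈ sel
    · obtain ⟨J, hJ⟩ := chkNode_sound h ht hF (h4 a ha).1 _ (h4 a ha).2
      exact ⟨J, fun _ => hJ⟩
    · exact ⟨∅, fun ha' => absurd ha' ha⟩
  choose J hJ using hJ
  have hp := pwCompat_sound T sel h5
  have hnd : sel.Nodup := hp.imp (by
    rintro a b hab rfl
    simp [compat] at hab)
  have hp2 : sel.Pairwise (fun a b => ∀ x ∈ J a, ∀ y ∈ J b, x ≠ y ∧ ¬ G.Adj x y) := by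
    refine List.Pairwise.imp_of_mem ?_ hp
    intro a b ha hb hab x hx y hy
    simp only [compat, Bool.and_eq_true, allLt_iff, Bool.or_eq_true, Nat.beq_eq,
      Bool.not_eq_true'] at hab
    obtain ⟨⟨e1, e2⟩, e3⟩ := hab
    have la := (h4 a ha).1
    have lb := (h4 b hb).1
    refine ballP_anti (mem_imW.2 ⟨_, la, rfl⟩) (mem_imW.2 ⟨_, lb, rfl⟩) ?_ ?_ ?_
      ((hJ a ha).2.2 x hx) ((hJ b hb).2.2 y hy)
    · intro he
      have := hφ.1 _ la _ lb he
      rw [this] at e1
      simp at e1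
    · intro r r1 r2
      exact hF _ la _ lb r ((e2 r (by omega)).resolve_left (by omega))
    · intro p1 p2 hadj
      rw [p1, p2] at e3
      exact hF _ la _ lb 0 (e3.resolve_left (by simp)) (conn_zero hadj)
  have hsum := h.sum_le sel.toFinset J (fun a ha => (hJ a (List.mem_toFinset.1 ha)).1) (by
    intro a ha b hb hab
    have : Std.Symm (fun a b => ∀ x ∈ J a, ∀ y ∈ J b, x ≠ y ∧ ¬ G.Adj x y) := by
      constructor
      intro u v huv x hx y hy
      exact ⟨(huv y hy x hx).1.symm, fun hh => (huv y hy x hx).2 hh.symm⟩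
    exact hp2.forall (List.mem_toFinset.1 ha) (List.mem_toFinset.1 hb) hab)
  rw [List.sum_toFinset _ hnd] at hsum
  have := List.sum_le_sum (l := sel) (f := fun a => wt (a % 8)) (g := fun a => (J a).card)
    (fun a ha => (hJ a ha).2.1)
  omega

def chkStep (k t : ℕ) (FL : List (ℕ × ℕ)) (s : ℕ × ℕ × ℕ × List ℕ × List ℕ) : Bool :=
  match s with
  | (n, mask, T, _, []) => chkInto FL n (cfgE n mask.testBit) T
  | (n, mask, T, certs, a :: sel) => chkElim k t FL n mask T certs (a :: sel)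

def chkAll (k t : ℕ) : List (ℕ × ℕ) → List (ℕ × ℕ × ℕ × List ℕ × List ℕ) → Bool
  | _, [] => true
  | FL, s :: ss => chkStep k t FL s && chkAll k t (FL ++ [(s.1, s.2.1)]) ss

theorem chkAll_sound [Fintype V] {k t : ℕ} (h : Hyp G k) (ht : ClqBound G t) :
    ∀ (ss : List (ℕ × ℕ × ℕ × List ℕ × List ℕ)) (FL : List (ℕ × ℕ)), (∀ c ∈ FL, Forb G c) →
      chkAll k t FL ss = true → ∀ s ∈ ss, Forb G (s.1, s.2.1)
  | [], _, _, _ => by simp
  | s :: ss, FL, hFL, hc => by
    simp only [chkAll, Bool.and_eq_true] at hc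
    have h1 : Forb G (s.1, s.2.1) := by
      obtain ⟨n, mask, T, certs, sel⟩ := s
      cases sel with
      | nil => exact chkInto_sound hFL hc.1
      | cons a sel => exact chkElim_sound h ht hFL hc.1
    intro s' hs'
    rcases List.mem_cons.1 hs' with rfl | hs'
    · exact h1
    · refine chkAll_sound h ht ss _ ?_ hc.2 s' hs'
      intro c hc'
      rcases List.mem_append.1 hc' with hc' | hc'
      · exact hFL c hc'
      · simp only [List.mem_singleton] at hc'
        exact hc' ▸ h1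

end Crest.Agent.R54
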