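import Crest.Agent.R54.Posa

set_option autoImplicit false

namespace Crest.Agent.R54

variable {V : Type} {G : SimpleGraph V}

/-- No path with `ℓ` edges through vertices of the form `e x` joins two colours. -/
def NoBi (G : SimpleGraph V) (e : ℤ → V) (χ : V → Bool) (ℓ : ℕ) : Prop :=
  ∀ f : ℕ → V, (∀ i ≤ ℓ, ∀ j ≤ ℓ, f i = f j → i = j) → (∀ i < ℓ, G.Adj (f i) (f (i + 1))) →
    (∀ i ≤ ℓ, ∃ x, f i = e x) → χ (f 0) = χ (f ℓ)

theorem twoSeg {n : ℤ} {e : ℤ → V} (hadj : ∀ x, G.Adj (e x) (e (x + 1)))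
    (hinj : ∀ x y, e x = e y → n ∣ x - y) {χ : V → Bool} {ℓ : ℕ} (hno : NoBi G e χ ℓ)
    (σ τ ρ : ℤ) (hσ : σ = 1 ∨ σ = -1) (hτ : τ = 1 ∨ τ = -1) (hch : G.Adj (e 0) (e ρ))
    (a b : ℕ) (hab : a + b + 1 = ℓ) (ha : (a : ℤ) < n) (hb : (b : ℤ) < n)
    (hw : ∀ i : ℕ, i ≤ a → ∀ j : ℕ, j ≤ b → σ * i ≠ ρ + τ * j ∧ σ * i - (ρ + τ * j) < n ∧
      ρ + τ * j - σ * i < n) :
    χ (e (σ * a)) = χ (e (ρ + τ * b)) := by
  have hinj' : ∀ x y, e x = e y → x - y < n → y - x < n → x = y := by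
    intro x y hxy h1 h2
    obtain ⟨c, hc⟩ := hinj x y hxy
    have : c = 0 := by
      by_contra hc0
      have hn : 0 < n := by omega
      rcases lt_or_gt_of_ne hc0 with h | h
      · nlinarith
      · nlinarith
    subst this
    omega
  have hadj' : ∀ x, G.Adj (e x) (e (x - 1)) := fun x => by
    have := (hadj (x - 1)).symm
    rwa [sub_add_cancel] at this
  let g : ℕ → ℤ := fun i => if i ≤ a then σ * ((a - i : ℕ) : ℤ) else ρ + τ * ((i - a - 1 : ℕ) : ℤ)
  have h := hno (fun i => e (g i)) ?_ ?_ ?_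
  · have h0 : g 0 = σ * a := by simp [g]
    have h1 : g ℓ = ρ + τ * b := by
      have : ¬ ℓ ≤ a := by omega
      simp only [g, this, if_false]
      rw [show ℓ - a - 1 = b by omega]
    simpa [h0, h1] using h
  · intro i hi j hj hij
    by_cases h1 : i ≤ a <;> by_cases h2 : j ≤ a
    · simp only [g, h1, h2, if_true] at hij
      have := hinj' _ _ hij (by rcases hσ with rfl | rfl <;> omega) (by rcases hσ with rfl | rfl <;> omega)
      rcases hσ with rfl | rfl <;> omega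
    · simp only [g, h1, h2, if_true, if_false] at hij
      have hw' := hw (a - i) (by omega) (j - a - 1) (by omega)
      exact absurd (hinj' _ _ hij hw'.2.1 hw'.2.2) hw'.1
    · simp only [g, h1, h2, if_true, if_false] at hij
      have hw' := hw (a - j) (by omega) (i - a - 1) (by omega)
      exact absurd (hinj' _ _ hij.symm hw'.2.1 hw'.2.2) hw'.1
    · simp only [g, h1, h2, if_false] at hij
      have := hinj' _ _ hij (by rcases hτ with rfl | rfl <;> omega) (by rcases hτ with rfl | rfl <;> omega)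
      rcases hτ with rfl | rfl <;> omega
  · intro i hi
    by_cases h1 : i + 1 ≤ a
    · have h2 : i ≤ a := by omega
      simp only [g, h1, h2, if_true]
      rcases hσ with rfl | rfl
      · rw [show (1 : ℤ) * ((a - (i + 1) : ℕ) : ℤ) = 1 * ((a - i : ℕ) : ℤ) - 1 by omega]
        exact hadj' _
      · rw [show (-1 : ℤ) * ((a - (i + 1) : ℕ) : ℤ) = -1 * ((a - i : ℕ) : ℤ) + 1 by omega]
        exact hadj _
    · by_cases h2 : i ≤ a
      · simp only [g, h1, h2, if_true, if_false]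
        rw [show a - i = 0 by omega, show i + 1 - a - 1 = 0 by omega]
        simpa using hch
      · simp only [g, h1, h2, if_false]
        rcases hτ with rfl | rfl
        · rw [show ρ + (1 : ℤ) * ((i + 1 - a - 1 : ℕ) : ℤ) = ρ + 1 * ((i - a - 1 : ℕ) : ℤ) + 1 by omega]
          exact hadj _
        · rw [show ρ + (-1 : ℤ) * ((i + 1 - a - 1 : ℕ) : ℤ) = ρ + -1 * ((i - a - 1 : ℕ) : ℤ) - 1 by omega]
          exact hadj' _
  · intro i _
    exact ⟨_, rfl⟩

theorem period_of_noBi {n : ℤ} {e : ℤ → V} (hadj : ∀ x, G.Adj (e x) (e (x + 1)))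
    (hinj : ∀ x y, e x = e y → n ∣ x - y) {χ : V → Bool} {ℓ : ℕ} (hno : NoBi G e χ ℓ)
    (hℓ : (ℓ : ℤ) < n) (x : ℤ) : χ (e (x + ℓ)) = χ (e x) := by
  have h := hno (fun i => e (x + i)) ?_ ?_ ?_
  · simpa using h.symm
  · intro i hi j hj hij
    obtain ⟨c, hc⟩ := hinj _ _ hij
    have : c = 0 := by
      by_contra hc0
      have hn : 0 < n := by omega
      have h1 : (i : ℤ) ≤ ℓ := by exact_mod_cast hi
      have h2 : (j : ℤ) ≤ ℓ := by exact_mod_cast hj
      have h3 : (0 : ℤ) ≤ i := by omega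
      have h4 : (0 : ℤ) ≤ j := by omega
      rcases lt_or_gt_of_ne hc0 with h | h
      · nlinarith
      · nlinarith
    subst this
    omega
  · intro i _
    push_cast
    rw [← add_assoc]
    exact hadj _
  · intro i _
    exact ⟨_, rfl⟩

/-- The Bondy–Simonovits chord lemma. -/
theorem chord_int {n : ℤ} {e : ℤ → V} (hadj : ∀ x, G.Adj (e x) (e (x + 1)))
    (hinj : ∀ x y, e x = e y → n ∣ x - y) (hper : ∀ x, e (x + n) = e x)
    {ρ : ℤ} (hρ1 : 2 ≤ ρ) (hρ2 : ρ ≤ n - 2) (hch : G.Adj (e 0) (e ρ))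
    {χ : V → Bool} (hnc : ∃ x y, χ (e x) ≠ χ (e y)) {ℓ : ℕ} (hℓ1 : 1 ≤ ℓ) (hℓ : (ℓ : ℤ) < n)
    (hno : NoBi G e χ ℓ) :
    Even ℓ ∧ (∀ x, χ (e (x + 1)) ≠ χ (e x)) ∧ χ (e 0) ≠ χ (e ρ) := by
  classical
  let ψ : ℤ → Bool := fun x => χ (e x)
  have hpn : Function.Periodic ψ n := fun x => by simp [ψ, hper]
  have hpl : Function.Periodic ψ (ℓ : ℤ) := fun x => period_of_noBi hadj hinj hno hℓ x
  have hex : ∃ m : ℕ, 0 < m ∧ Function.Periodic ψ (m : ℤ) := ⟨ℓ, hℓ1, hpl⟩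
  obtain ⟨hm0, hpm⟩ := Nat.find_spec hex
  set m := Nat.find hex with hm
  have hm0' : (0 : ℤ) < m := by exact_mod_cast hm0
  have hdvd : ∀ d : ℤ, Function.Periodic ψ d → (m : ℤ) ∣ d := by
    intro d hd
    have h1 : Function.Periodic ψ (d % m) := by
      have := hd.sub_period (hpm.int_mul (d / m))
      have h2 : d % m = d - ((d / m : ℤ) : ℤ) * m := by
        rw [Int.emod_def]; ring
      rw [h2]; simpa using this
    have h2 := Int.emod_nonneg d hm0'.ne'
    have h3 := Int.emod_lt_of_pos d hm0'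
    by_contra hnd
    have h4 : d % m ≠ 0 := fun h => hnd (Int.dvd_of_emod_eq_zero h)
    have h5 : m ≤ (d % m).toNat := Nat.find_min' hex ⟨by omega, by
      rw [Int.toNat_of_nonneg h2]; exact h1⟩
    omega
  have hcong : ∀ x y : ℤ, (m : ℤ) ∣ x - y → ψ x = ψ y := by
    rintro x y ⟨c, hc⟩
    have := (hpm.int_mul c) y
    rw [show x = y + (c : ℤ) * m by linarith]
    simpa using this
  have hm2 : 2 ≤ m := by
    by_contra h
    have h1 : m = 1 := by omega
    obtain ⟨x, y, hxy⟩ := hnc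
    exact hxy (hcong x y (by simp [h1]))
  have hmn := hdvd n hpn
  have hml := hdvd ℓ hpl
  have hlm : (m : ℤ) ≤ ℓ := Int.le_of_dvd (by omega) hml
  have hlnm : (ℓ : ℤ) ≤ n - m := by
    have := Int.le_of_dvd (by omega : 0 < n - ℓ) (dvd_sub hmn hml)
    omega
  -- every residue class has a representative in a window of length m
  have hres : ∀ lo x : ℤ, ∃ a : ℤ, lo ≤ a ∧ a < lo + m ∧ (m : ℤ) ∣ a - x := by
    intro lo x
    refine ⟨lo + (x - lo) % m, ?_, ?_, ?_⟩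
    · have := Int.emod_nonneg (x - lo) hm0'.ne'; omega
    · have := Int.emod_lt_of_pos (x - lo) hm0'; omega
    · rw [Int.emod_def]
      exact ⟨-((x - lo) / m), by ring⟩
  by_cases hc1 : ρ ≤ m
  · exfalso
    have hnp : ¬ Function.Periodic ψ (ρ - 1) := by
      intro h
      have := Int.le_of_dvd (by omega) (hdvd _ h)
      omega
    apply hnp
    intro x
    obtain ⟨a, ha1, ha2, ha3⟩ := hres 0 (-x)
    obtain ⟨a, rfl⟩ := Int.eq_ofNat_of_zero_le ha1
    have h := twoSeg hadj hinj hno (-1) 1 ρ (Or.inr rfl) (Or.inl rfl) hch a (ℓ - 1 - a)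
      (by omega) (by omega) (by omega) (by intro i hi j hj; omega)
    have e1 : ψ x = ψ (-1 * a) := hcong _ _ (by
      rw [show x - -1 * (a : ℤ) = a - -x by ring]; exact ha3)
    have e2 : ψ (x + (ρ - 1)) = ψ (ρ + 1 * ((ℓ - 1 - a : ℕ) : ℤ)) := hcong _ _ (by
      rw [show x + (ρ - 1) - (ρ + 1 * ((ℓ - 1 - a : ℕ) : ℤ)) = (a - -x) - ℓ by omega]
      exact dvd_sub ha3 hml)
    rw [e1, e2]; exact h.symm
  by_cases hc2 : n - m ≤ ρ
  · exfalso
    have hnp : ¬ Function.Periodic ψ (n - ρ - 1) := by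
      intro h
      have := Int.le_of_dvd (by omega) (hdvd _ h)
      omega
    apply hnp
    intro x
    obtain ⟨a, ha1, ha2, ha3⟩ := hres 0 (x + (n - ρ - 1))
    obtain ⟨a, rfl⟩ := Int.eq_ofNat_of_zero_le ha1
    have hch' : G.Adj (e 0) (e (ρ - n)) := by
      rw [← hper (ρ - n), sub_add_cancel]; exact hch
    have h := twoSeg hadj hinj hno 1 (-1) (ρ - n) (Or.inl rfl) (Or.inr rfl) hch' a (ℓ - 1 - a)
      (by omega) (by omega) (by omega) (by intro i hi j hj; omega)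
    have e1 : ψ (x + (n - ρ - 1)) = ψ (1 * a) := (hcong _ _ (by
      rw [one_mul]; exact ha3)).symm
    have e2 : ψ x = ψ (ρ - n + -1 * ((ℓ - 1 - a : ℕ) : ℤ)) := hcong _ _ (by
      rw [show x - (ρ - n + -1 * ((ℓ - 1 - a : ℕ) : ℤ)) = ℓ - (a - (x + (n - ρ - 1))) by omega]
      exact dvd_sub hml ha3)
    rw [e1, e2]; exact h
  -- middle case
  have t1 : ∀ x : ℤ, ψ (-x) = ψ (ρ + 1 + x) := by
    intro x
    obtain ⟨a, ha1, ha2, ha3⟩ := hres (max 0 (ℓ - ρ)) x
    have ha0 : 0 ≤ a := le_trans (le_max_left _ _) ha1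
    obtain ⟨a, rfl⟩ := Int.eq_ofNat_of_zero_le ha0
    have h := twoSeg hadj hinj hno (-1) (-1) ρ (Or.inr rfl) (Or.inr rfl) hch a (ℓ - 1 - a)
      (by omega) (by omega) (by omega) (by intro i hi j hj; omega)
    have e1 : ψ (-x) = ψ (-1 * a) := hcong _ _ (by
      rw [show -x - -1 * (a : ℤ) = a - x by ring]; exact ha3)
    have e2 : ψ (ρ + 1 + x) = ψ (ρ + -1 * ((ℓ - 1 - a : ℕ) : ℤ)) := hcong _ _ (by
      rw [show ρ + 1 + x - (ρ + -1 * ((ℓ - 1 - a : ℕ) : ℤ)) = ℓ - (a - x) by omega]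
      exact dvd_sub hml ha3)
    rw [e1, e2]; exact h
  have t2 : ∀ x : ℤ, ψ x = ψ (ρ - 1 - x) := by
    intro x
    obtain ⟨a, ha1, ha2, ha3⟩ := hres (max 0 (ℓ + ρ - n)) x
    have ha0 : 0 ≤ a := le_trans (le_max_left _ _) ha1
    obtain ⟨a, rfl⟩ := Int.eq_ofNat_of_zero_le ha0
    have h := twoSeg hadj hinj hno 1 1 ρ (Or.inl rfl) (Or.inl rfl) hch a (ℓ - 1 - a)
      (by omega) (by omega) (by omega) (by intro i hi j hj; omega)
    have e1 : ψ x = ψ (1 * a) := (hcong _ _ (by rw [one_mul]; exact ha3)).symm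
    have e2 : ψ (ρ - 1 - x) = ψ (ρ + 1 * ((ℓ - 1 - a : ℕ) : ℤ)) := hcong _ _ (by
      rw [show ρ - 1 - x - (ρ + 1 * ((ℓ - 1 - a : ℕ) : ℤ)) = (a - x) - ℓ by omega]
      exact dvd_sub ha3 hml)
    rw [e1, e2]; exact h
  have hp2 : Function.Periodic ψ 2 := by
    intro y
    have h1 := t1 (y - ρ + 1)
    have h2 := t2 (-(y - ρ + 1))
    rw [show ρ + 1 + (y - ρ + 1) = y + 2 by ring] at h1
    rw [show ρ - 1 - -(y - ρ + 1) = y by ring] at h2
    rw [← h1, h2]
  have hmeq : m = 2 := by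
    have := Int.le_of_dvd (by omega) (hdvd _ hp2)
    omega
  have halt : ∀ x, ψ (x + 1) ≠ ψ x := by
    intro x hx
    have : Function.Periodic ψ 1 := by
      intro y
      rcases Int.even_or_odd' (y - x) with ⟨c, hc | hc⟩
      · rw [hcong (y + 1) (x + 1) (by rw [hmeq]; exact ⟨c, by push_cast; omega⟩),
          hcong y x (by rw [hmeq]; exact ⟨c, by push_cast; omega⟩), hx]
      · rw [hcong (y + 1) x (by rw [hmeq]; exact ⟨c + 1, by push_cast; omega⟩),
          hcong y (x + 1) (by rw [hmeq]; exact ⟨c, by push_cast; omega⟩), hx]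
    have := Int.le_of_dvd (by omega) (hdvd _ this)
    omega
  refine ⟨?_, halt, ?_⟩
  · rw [hmeq] at hml
    have : (2 : ℕ) ∣ ℓ := by exact_mod_cast hml
    exact even_iff_two_dvd.2 this
  · have h1 := t1 0
    simp only [neg_zero, add_zero] at h1
    have h2 := halt ρ
    intro h
    exact h2 (h1.symm.trans h)

/-- The chord lemma for a cycle given as `CycFun`. -/
theorem chord_cyc {S : Finset V} {n : ℕ} {c : ℕ → V} (hc : CycFun G S n c)
    {p q : ℕ} (hpq : p + 2 ≤ q) (hq : q < n) (hq' : q + 2 ≤ n + p) (hch : G.Adj (c p) (c q))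
    {χ : V → Bool} (hnc : ∃ i < n, ∃ j < n, χ (c i) ≠ χ (c j)) {ℓ : ℕ} (hℓ1 : 1 ≤ ℓ) (hℓ : ℓ < n)
    (hno : ∀ f : ℕ → V, (∀ i ≤ ℓ, ∀ j ≤ ℓ, f i = f j → i = j) →
      (∀ i < ℓ, G.Adj (f i) (f (i + 1))) → (∀ i ≤ ℓ, ∃ j < n, f i = c j) → χ (f 0) = χ (f ℓ)) :
    Even ℓ ∧ (∀ i, i + 1 < n → χ (c (i + 1)) ≠ χ (c i)) ∧ χ (c 0) ≠ χ (c (n - 1)) ∧
      χ (c p) ≠ χ (c q) := by
  have hn0 : (0 : ℤ) < n := by omega
  let e : ℤ → V := fun x => c ((x + p) % n).toNat
  have hlt : ∀ x : ℤ, ((x + p) % n).toNat < n := by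
    intro x
    have := Int.emod_lt_of_pos (x + p) hn0
    have := Int.emod_nonneg (x + p) hn0.ne'
    omega
  have he : ∀ i < n, e ((i : ℤ) - p) = c i := by
    intro i hi
    simp only [e, sub_add_cancel]
    rw [Int.emod_eq_of_lt (by omega) (by omega)]
    simp
  have hper : ∀ x, e (x + n) = e x := by
    intro x
    simp only [e]
    rw [show x + n + p = (x + p) + n by ring, Int.add_emod_right]
  have hadj : ∀ x, G.Adj (e x) (e (x + 1)) := by
    intro x
    simp only [e]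
    have h1 := Int.emod_lt_of_pos (x + p) hn0
    have h2 := Int.emod_nonneg (x + p) hn0.ne'
    have h3 : (x + 1 + p) % n = ((x + p) % n + 1) % n := by
      rw [Int.emod_add_emod]; congr 1; ring
    rw [h3]
    by_cases h4 : (x + p) % n + 1 < n
    · rw [Int.emod_eq_of_lt (by omega) h4,
        show ((x + p) % n + 1).toNat = ((x + p) % n).toNat + 1 by omega]
      exact hc.adj _ (by omega)
    · rw [show (x + p) % n + 1 = n by omega, Int.emod_self,
        show ((x + p) % n).toNat = n - 1 by omega]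
      exact hc.close
  have hinj : ∀ x y, e x = e y → (n : ℤ) ∣ x - y := by
    intro x y hxy
    have h1 := hc.inj _ (hlt x) _ (hlt y) hxy
    have h2 := Int.emod_nonneg (x + p) hn0.ne'
    have h3 := Int.emod_nonneg (y + p) hn0.ne'
    have h4 : (x + p) % n = (y + p) % n := by omega
    have h5 := Int.dvd_of_emod_eq_zero (Int.emod_eq_emod_iff_emod_sub_eq_zero.1 h4)
    rwa [show x + p - (y + p) = x - y by ring] at h5
  have h := chord_int (G := G) (n := n) (e := e) hadj hinj hper (ρ := (q : ℤ) - p) (by omega)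
    (by omega) (by
      rw [he q hq, show (0 : ℤ) = (p : ℤ) - p by ring, he p (by omega)]; exact hch)
    (χ := χ) (by
      obtain ⟨i, hi, j, hj, hij⟩ := hnc
      exact ⟨(i : ℤ) - p, (j : ℤ) - p, by rwa [he i hi, he j hj]⟩)
    hℓ1 (by omega) (by
      intro f h1 h2 h3
      refine hno f h1 h2 ?_
      intro i hi
      obtain ⟨x, hx⟩ := h3 i hi
      exact ⟨_, hlt x, hx⟩)
  refine ⟨h.1, ?_, ?_, ?_⟩
  · intro i hi
    have := h.2.1 ((i : ℤ) - p)
    rwa [he i (by omega), show (i : ℤ) - p + 1 = ((i + 1 : ℕ) : ℤ) - p by push_cast; ring,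
      he (i + 1) hi] at this
  · have := h.2.1 (((n - 1 : ℕ) : ℤ) - p)
    rwa [he (n - 1) (by omega), show ((n - 1 : ℕ) : ℤ) - p + 1 = (((0 : ℕ) : ℤ) - p) + n by omega,
      hper, he 0 (by omega)] at this
  · have := h.2.2
    rwa [he q hq, show (0 : ℤ) = (p : ℤ) - p by ring, he p (by omega)] at this

end Crest.Agent.R54
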