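import Crest.Agent.R54.Generic
import Crest.Agent.R54.Data4
import Crest.Agent.R54.Case33

set_option autoImplicit false

namespace Crest.Agent.R54

variable {V : Type} {G : SimpleGraph V}

theorem exists_max_clq [Fintype V] (G : SimpleGraph V) :
    ∃ Q : Finset V, Clq G Q ∧ ClqBound G Q.card := by
  classical
  obtain ⟨Q, hQ, hmax⟩ := (Finset.univ.filter (Clq G)).exists_max_image Finset.card
    ⟨∅, by simp [Clq]⟩
  simp only [Finset.mem_filter, Finset.mem_univ, true_and] at hQ hmax
  exact ⟨Q, hQ, hmax⟩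

theorem ClqBound.mono {t s : ℕ} (h : ClqBound G t) (hts : t ≤ s) : ClqBound G s :=
  fun K hK => (h K hK).trans hts

theorem not_forb_K4 {Q : Finset V} (hQ : Clq G Q) (h4 : Q.card = 4) : ¬ Forb G (4, 15) := by
  intro hf
  have hl : Q.toList.length = 4 := by simpa using h4
  have := (qpath_of_subset hQ Q.nodup_toList (by simp)).contains hQ
    (by intro e; rw [e] at hl; simp at hl) (Nat.testBit 15)
    (fun i hi _ => Finset.mem_toList.1 (List.getElem_mem hi))
  rw [hl] at this
  exact hf this

/-- There is no minimal counterexample. -/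
theorem Hyp.false [Fintype V] {k : ℕ} (h : Hyp G k) (v : V) : False := by
  obtain ⟨Q, hQ, ht⟩ := exists_max_clq G
  have hk := h.three_le
  have htk := h.clqBound Q hQ
  by_cases h3 : k = 3
  · subst h3; exact h.case33 v
  have h4 : 4 ≤ Q.card ∧ k + 1 ≤ 2 * Q.card := by
    by_cases e4 : k = 4
    · subst e4
      have : ¬ Q.card ≤ 3 := fun hle => h.case43 v (ht.mono hle)
      omega
    by_cases e5 : k = 5
    · subst e5
      have : ¬ Q.card ≤ 3 := fun hle => h.case53 v (ht.mono hle)
      omega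
    have : ¬ Q.card ≤ k / 2 := fun hle => h.not_clqBound_half (by omega) v (ht.mono hle)
    omega
  by_cases h5 : 5 ≤ Q.card
  · exact h.generic hQ ht h5 h4.2
  have e : Q.card = 4 := by omega
  rw [e] at ht
  refine not_forb_K4 hQ e ?_
  have : k = 4 ∨ k = 5 ∨ k = 6 ∨ k = 7 := by omega
  rcases this with rfl | rfl | rfl | rfl
  · exact h.forb4 ht
  · exact h.forb5 ht
  · exact h.forb6 ht
  · exact h.forb7 ht

/-- The reduction to a minimal counterexample. -/
theorem no_counterexample [Fintype V] {k a : ℕ} (hk : 3 ≤ k) (ha : a ≤ k)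
    (hV : k * a + 1 ≤ Fintype.card V) (hc : ¬ HasCyc G (k + 1))
    (hi : ∀ I : Finset V, Indep G I → I.card ≤ a) : False := by
  classical
  let P : Finset V → Prop := fun S => ∃ b, (∀ I ⊆ S, Indep G I → I.card ≤ b) ∧ k * b + 1 ≤ S.card
  obtain ⟨S, hS, hmin⟩ := (Finset.univ.filter P).exists_min_image Finset.card
    ⟨Finset.univ, by
      simp only [Finset.mem_filter, Finset.mem_univ, true_and]
      exact ⟨a, fun I _ hI => hi I hI, hV⟩⟩
  simp only [Finset.mem_filter, Finset.mem_univ, true_and] at hS hmin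
  obtain ⟨b, hb1, hb2⟩ := hS
  obtain ⟨v, hv⟩ := Finset.card_pos.1 (by omega : 0 < S.card)
  let f : {x // x ∈ S} ↪ V := Function.Embedding.subtype _
  have hind : ∀ I : Finset {x // x ∈ S}, Indep (G.comap f) I → Indep G (I.map f) := by
    intro I hI u hu w hw
    obtain ⟨u', hu', rfl⟩ := Finset.mem_map.1 hu
    obtain ⟨w', hw', rfl⟩ := Finset.mem_map.1 hw
    exact hI u' hu' w' hw'
  have hsub : ∀ I : Finset {x // x ∈ S}, I.map f ⊆ S := by
    intro I u hu
    obtain ⟨u', -, rfl⟩ := Finset.mem_map.1 hu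
    exact u'.2
  refine Hyp.false (G := G.comap f) (k := k) ⟨hk, ?_, ?_, ?_⟩ ⟨v, hv⟩
  · rintro ⟨x, l, h1, h2, h3⟩
    refine hc ⟨f x, l.map f, ?_, by simpa using h2, ?_⟩
    · exact (List.map_cons (f := f) ..) ▸ h1.map f.injective
    · have := (List.isChain_map (R := G.Adj) f (l := x :: (l ++ [x]))).2 h3
      simpa using this
  · intro I hI
    have := hi _ (hind I hI)
    rw [Finset.card_map] at this
    omega
  · intro I T hne hI hT
    by_contra hcon
    have hIT : I ⊆ T := fun x hx => hT x (Or.inl hx)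
    have hIb := hb1 _ (hsub I) (hind I hI)
    rw [Finset.card_map] at hIb
    have hcard : (S \ T.map f).card + T.card = S.card := by
      rw [← Finset.card_map f, Finset.card_sdiff_add_card_eq_card (hsub T)]
    have hT0 : 0 < T.card := Finset.card_pos.2 (hne.mono hIT)
    have := hmin (S \ T.map f) ⟨b - I.card, ?_, ?_⟩
    · omega
    · intro J hJ hJi
      have hJS : ∀ u ∈ J, u ∈ S ∧ u ∉ T.map f := fun u hu => Finset.mem_sdiff.1 (hJ hu)
      have h1 := hb1 (I.map f ∪ J) (Finset.union_subset (hsub I) (fun u hu => (hJS u hu).1))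
        ((hind I hI).union hJi (by
          intro u hu w hw huw
          obtain ⟨u', hu', rfl⟩ := Finset.mem_map.1 hu
          exact (hJS w hw).2 (Finset.mem_map.2
            ⟨⟨w, (hJS w hw).1⟩, hT _ (Or.inr ⟨u', hu', huw⟩), rfl⟩)))
      rw [Finset.card_union_of_disjoint (by
        rw [Finset.disjoint_left]
        intro u hu hu'
        exact (hJS u hu').2 (Finset.map_subset_map.2 hIT hu)), Finset.card_map] at h1
      omega
    · obtain ⟨c, rfl⟩ := Nat.exists_eq_add_of_le hIb
      rw [Nat.add_sub_cancel_left]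
      rw [Nat.mul_add] at hb2
      omega

theorem exists_walk_of_chain (b : V) : ∀ (l : List V) (a : V),
    List.IsChain G.Adj (a :: (l ++ [b])) → ∃ p : G.Walk a b, p.support = a :: (l ++ [b])
  | [], a, h => ⟨SimpleGraph.Walk.cons (by simpa using h) SimpleGraph.Walk.nil, rfl⟩
  | c :: l, a, h => by
    rw [List.cons_append, List.isChain_cons_cons] at h
    obtain ⟨p, hp⟩ := exists_walk_of_chain b l c h.2
    exact ⟨SimpleGraph.Walk.cons h.1 p, by simp [hp]⟩

theorem HasCyc.exists_isCycle {m : ℕ} (h : HasCyc G m) (hm : 3 ≤ m) :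
    ∃ v : V, ∃ p : G.Walk v v, p.IsCycle ∧ p.length = m := by
  obtain ⟨a, l, h1, h2, h3⟩ := h
  obtain ⟨p, hp⟩ := exists_walk_of_chain a l a h3
  have hl : p.length = m := by
    have := p.length_support
    rw [hp] at this
    simp at this
    omega
  refine ⟨a, p, ?_, hl⟩
  rw [SimpleGraph.Walk.isCycle_iff_isPath_tail_and_le_length]
  refine ⟨SimpleGraph.Walk.IsPath.mk' ?_, by omega⟩
  rw [SimpleGraph.Walk.support_tail_of_not_nil _ (by
    rw [SimpleGraph.Walk.not_nil_iff_lt_length]; omega), hp, List.tail_cons]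
  exact (List.perm_append_singleton a l).nodup_iff.2 h1

end Crest.Agent.R54
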