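import Mathlib

set_option autoImplicit false

namespace Crest.Agent.R54

open List

variable {V : Type}

/-- `G` has a cycle on exactly `n` vertices, written as a list. -/
def HasCyc (G : SimpleGraph V) (n : ℕ) : Prop :=
  ∃ (a : V) (l : List V), (a :: l).Nodup ∧ l.length + 1 = n ∧ List.IsChain G.Adj (a :: (l ++ [a]))

def Indep (G : SimpleGraph V) (I : Finset V) : Prop := ∀ u ∈ I, ∀ v ∈ I, ¬ G.Adj u v

def Clq (G : SimpleGraph V) (K : Finset V) : Prop := ∀ u ∈ K, ∀ v ∈ K, u ≠ v → G.Adj u v

def ClqBound (G : SimpleGraph V) (t : ℕ) : Prop := ∀ K : Finset V, Clq G K → K.card ≤ t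

/-- The properties of a minimal counterexample. -/
structure Hyp (G : SimpleGraph V) (k : ℕ) : Prop where
  three_le : 3 ≤ k
  noCyc : ¬ HasCyc G (k + 1)
  indep_le : ∀ I : Finset V, Indep G I → I.card ≤ k
  expand : ∀ I T : Finset V, I.Nonempty → Indep G I →
    (∀ v, (v ∈ I ∨ ∃ u ∈ I, G.Adj u v) → v ∈ T) → k * I.card + 1 ≤ T.card

variable {G : SimpleGraph V}

theorem Indep.mono {I J : Finset V} (h : Indep G J) (hIJ : I ⊆ J) : Indep G I :=
  fun u hu v hv => h u (hIJ hu) v (hIJ hv)

theorem Clq.mono {I J : Finset V} (h : Clq G J) (hIJ : I ⊆ J) : Clq G I :=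
  fun u hu v hv => h u (hIJ hu) v (hIJ hv)

theorem indep_empty : Indep G ∅ := by intro u hu; simp at hu

theorem indep_singleton (v : V) : Indep G {v} := by
  intro u hu w hw
  simp at hu hw
  subst hu; subst hw; exact G.irrefl

theorem indep_pair [DecidableEq V] {u v : V} (h : ¬ G.Adj u v) : Indep G {u, v} := by
  intro a ha b hb
  simp at ha hb
  rcases ha with rfl | rfl <;> rcases hb with rfl | rfl
  · exact G.irrefl
  · exact h
  · exact fun h' => h h'.symm
  · exact G.irrefl

theorem Indep.union [DecidableEq V] {I J : Finset V} (hI : Indep G I) (hJ : Indep G J)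
    (h : ∀ u ∈ I, ∀ v ∈ J, ¬ G.Adj u v) : Indep G (I ∪ J) := by
  intro a ha b hb
  rcases Finset.mem_union.1 ha with ha | ha <;> rcases Finset.mem_union.1 hb with hb | hb
  · exact hI a ha b hb
  · exact h a ha b hb
  · exact fun h' => h b hb a ha h'.symm
  · exact hJ a ha b hb

theorem Indep.insert [DecidableEq V] {I : Finset V} (hI : Indep G I) {x : V}
    (h : ∀ u ∈ I, ¬ G.Adj x u) : Indep G (insert x I) := by
  have := (indep_singleton (G := G) x).union hI (by intro u hu v hv; simp at hu; subst hu; exact h v hv)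
  simpa using this

theorem Clq.insert [DecidableEq V] {I : Finset V} (hI : Clq G I) {x : V}
    (h : ∀ u ∈ I, G.Adj x u) : Clq G (insert x I) := by
  intro a ha b hb hab
  rcases Finset.mem_insert.1 ha with ha' | ha' <;> rcases Finset.mem_insert.1 hb with hb' | hb'
  · exact absurd (ha'.trans hb'.symm) hab
  · exact ha' ▸ h b hb'
  · exact hb' ▸ (h a ha').symm
  · exact hI a ha' b hb' hab

/-- A set that is not a clique contains two distinct non-adjacent vertices. -/
theorem exists_nonadj_of_card {t : ℕ} (ht : ClqBound G t) {S : Finset V} (hS : t < S.card) :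
    ∃ u ∈ S, ∃ v ∈ S, u ≠ v ∧ ¬ G.Adj u v := by
  by_contra hcon
  push Not at hcon
  exact absurd (ht S hcon) (by omega)

theorem isChain_rev {l : List V} (h : List.IsChain G.Adj l) : List.IsChain G.Adj l.reverse := by
  rw [isChain_reverse]; exact h.imp (fun a b hab => hab.symm)

/-- Minimum degree: any set containing the neighbours of `v` has at least `k` elements other
than `v`. -/
theorem Hyp.deg [DecidableEq V] {k : ℕ} (h : Hyp G k) (v : V) (T : Finset V)
    (hT : ∀ u, G.Adj v u → u ∈ T) : k ≤ (T.erase v).card := by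
  have := h.expand {v} (insert v (T.erase v)) (by simp) (indep_singleton v) (by
    intro u hu
    rcases hu with hu | ⟨w, hw, hwu⟩
    · simp at hu; simp [hu]
    · simp at hw; subst hw
      by_cases huw : u = w <;> simp [hT u hwu, huw])
  rw [Finset.card_insert_of_notMem (by simp)] at this
  simp only [Finset.card_singleton] at this
  omega

theorem Hyp.deg' {k : ℕ} (h : Hyp G k) (v : V) (T : Finset V)
    (hT : ∀ u, G.Adj v u → u ∈ T) : k ≤ T.card := by
  classical
  exact (h.deg v T hT).trans (Finset.card_le_card (Finset.erase_subset _ _))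

/-- A cycle from a path inside the neighbourhood of a vertex. -/
theorem hasCyc_of_path_in_nbhd {v : V} {l : List V} (hnd : l.Nodup) (hch : List.IsChain G.Adj l)
    (hv : ∀ x ∈ l, G.Adj v x) (hne : l ≠ []) : HasCyc G (l.length + 1) := by
  refine ⟨v, l, ?_, rfl, ?_⟩
  · refine List.nodup_cons.2 ⟨fun hmem => G.irrefl (hv v hmem), hnd⟩
  · rw [isChain_cons]
    refine ⟨?_, ?_⟩
    · intro y hy
      rw [List.head?_append_of_ne_nil _ hne] at hy
      exact hv y (List.mem_of_mem_head? hy)
    · refine hch.append (List.IsChain.singleton _) ?_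
      intro x hx y hy
      simp at hy; subst hy
      exact (hv x (List.mem_of_mem_getLast? hx)).symm

/-- A cycle from a closed list given by a path and a closing edge. -/
theorem hasCyc_of_path {l : List V} {a b : V} (hnd : l.Nodup) (hch : List.IsChain G.Adj l)
    (ha : l.head? = some a) (hb : l.getLast? = some b) (hab : G.Adj b a) : HasCyc G l.length := by
  cases l with
  | nil => simp at ha
  | cons x l =>
    simp at ha; subst ha
    refine ⟨x, l, hnd, rfl, ?_⟩
    rw [← List.cons_append]
    refine hch.append (List.IsChain.singleton _) ?_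
    intro y hy z hz
    simp at hz; subst hz
    rw [hb] at hy
    simp at hy; subst hy
    exact hab

/-- A cycle given by a function on an initial segment of the naturals. -/
theorem hasCyc_of_fun {n : ℕ} (hn : 1 ≤ n) (c : ℕ → V)
    (hinj : ∀ i < n, ∀ j < n, c i = c j → i = j)
    (hadj : ∀ i, i + 1 < n → G.Adj (c i) (c (i + 1))) (hcl : G.Adj (c (n - 1)) (c 0)) :
    HasCyc G n := by
  have h := hasCyc_of_path (G := G) (l := (List.range n).map c) (a := c 0) (b := c (n - 1))
    (by
      refine List.Nodup.map_on ?_ List.nodup_range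
      intro i hi j hj hij
      exact hinj i (List.mem_range.1 hi) j (List.mem_range.1 hj) hij)
    (by
      rw [isChain_map, isChain_range]
      intro m hm
      exact hadj m (by omega))
    (by
      obtain ⟨m, rfl⟩ : ∃ m, n = m + 1 := ⟨n - 1, by omega⟩
      simp [List.range_succ_eq_map])
    (by
      obtain ⟨m, rfl⟩ : ∃ m, n = m + 1 := ⟨n - 1, by omega⟩
      simp [List.range_succ])
    hcl
  simpa using h

/-- A clique on `k + 1 ≥ 2` vertices contains a cycle of that length. -/
theorem hasCyc_of_clq {K : Finset V} (hK : Clq G K) {n : ℕ} (hn : 2 ≤ n) (hc : n ≤ K.card) :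
    HasCyc G n := by
  obtain ⟨K', hsub, hcard⟩ := Finset.exists_subset_card_eq hc
  have hK' := hK.mono hsub
  have hlen : K'.toList.length = n := by simpa using hcard
  have hnd := K'.nodup_toList
  have hmem : ∀ x ∈ K'.toList, x ∈ K' := fun x hx => Finset.mem_toList.1 hx
  generalize K'.toList = l at hlen hnd hmem
  match l, hlen, hnd, hmem with
  | a :: b :: l, hlen, hnd, hmem =>
    have hne : (b :: l) ≠ [] := by simp
    have hp : (b :: l).Pairwise G.Adj := by
      have h1 : (b :: l).Nodup := (List.nodup_cons.1 hnd).2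
      refine List.Pairwise.imp_of_mem ?_ h1
      intro x y hx hy hxy
      exact hK' x (hmem x (List.mem_cons_of_mem _ hx)) y (hmem y (List.mem_cons_of_mem _ hy)) hxy
    have := hasCyc_of_path_in_nbhd (G := G) (v := a) (l := b :: l) (List.nodup_cons.1 hnd).2
      hp.isChain (by
        intro x hx
        refine hK' a (hmem a (by simp)) x (hmem x (List.mem_cons_of_mem _ hx)) ?_
        rintro rfl
        exact (List.nodup_cons.1 hnd).1 hx) hne
    simpa [← hlen] using this
  | [a], hlen, _, _ => simp at hlen; omega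
  | [], hlen, _, _ => simp at hlen; omega

theorem Hyp.clqBound {k : ℕ} (h : Hyp G k) : ClqBound G k := by
  intro K hK
  by_contra hc
  exact h.noCyc (hasCyc_of_clq hK (by have := h.three_le; omega) (by omega))

/-- A maximum independent subset of a finset. -/
theorem exists_max_indep (G : SimpleGraph V) (S : Finset V) :
    ∃ J ⊆ S, Indep G J ∧ ∀ I ⊆ S, Indep G I → I.card ≤ J.card := by
  classical
  obtain ⟨J, hJ, hmax⟩ := (S.powerset.filter (Indep G)).exists_max_image Finset.card
    ⟨∅, by simp [indep_empty]⟩
  simp only [Finset.mem_filter, Finset.mem_powerset] at hJ hmax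
  exact ⟨J, hJ.1, hJ.2, fun I hI hI' => hmax I ⟨hI, hI'⟩⟩

end Crest.Agent.R54
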