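import Crest.Agent.R54.Opt

set_option autoImplicit false

namespace Crest.Agent.R54

variable {V : Type} {G : SimpleGraph V}

/-- The degree outside `W` of a vertex with at most one neighbour in each of `A` and `B`. -/
theorem Hyp.nx_two [Fintype V] [DecidableEq V] {k : ℕ} (h : Hyp G k) {W A B : Finset V}
    (hA : A ⊆ W) (hB : B ⊆ W) (cA : ∀ z ∈ A, ∀ z' ∈ A, z ≠ z' → ¬ Conn G W z z' 1)
    (cB : ∀ z ∈ B, ∀ z' ∈ B, z ≠ z' → ¬ Conn G W z z' 1) {z x : V} (hz : z ∈ A)
    (hx : x ∈ NX G W z) :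
    k + A.card ≤ (NX G W x).card + W.card + 1 ∧
      k + (A ∪ B).card ≤ (NX G W x).card + W.card + 2 ∧
      (z ∈ B → k + (A ∪ B).card ≤ (NX G W x).card + W.card + 1) := by
  obtain ⟨hx1, hx2⟩ := mem_NX.1 hx
  have uA : ∀ y ∈ A, G.Adj x y → y = z := by
    intro y hy hxy
    by_contra hne
    exact cA y hy z hz hne (conn_one hx2 hxy hx1.symm)
  have c1 := Finset.card_sdiff_add_card_eq_card hA
  have c2 := Finset.card_sdiff_add_card_eq_card (Finset.union_subset hA hB)
  refine ⟨?_, ?_, fun hzB => ?_⟩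
  · have := h.nx_card W x (insert z (W \ A)) (by
      intro y hy hxy
      by_cases hyA : y ∈ A
      · simp [uA y hyA hxy]
      · simp [hy, hyA])
    have := Finset.card_insert_le z (W \ A)
    omega
  · obtain ⟨b, hb⟩ : ∃ b, ∀ y ∈ B, G.Adj x y → y = b := by
      by_cases hex : ∃ b ∈ B, G.Adj x b
      · obtain ⟨b, hb, hxb⟩ := hex
        refine ⟨b, fun y hy hxy => ?_⟩
        by_contra hne
        exact cB y hy b hb hne (conn_one hx2 hxy hxb)
      · exact ⟨z, fun y hy hxy => absurd ⟨y, hy, hxy⟩ hex⟩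
    have := h.nx_card W x (insert z (insert b (W \ (A ∪ B)))) (by
      intro y hy hxy
      by_cases hyA : y ∈ A
      · simp [uA y hyA hxy]
      by_cases hyB : y ∈ B
      · simp [hb y hyB hxy]
      · simp [hy, hyA, hyB])
    have := Finset.card_insert_le z (insert b (W \ (A ∪ B)))
    have := Finset.card_insert_le b (W \ (A ∪ B))
    omega
  · have := h.nx_card W x (insert z (W \ (A ∪ B))) (by
      intro y hy hxy
      by_cases hyA : y ∈ A
      · simp [uA y hyA hxy]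
      by_cases hyB : y ∈ B
      · have : y = z := by
          by_contra hne
          exact cB y hyB z hzB hne (conn_one hx2 hxy hx1.symm)
        simp [this]
      · simp [hy, hyA, hyB])
    have := Finset.card_insert_le z (W \ (A ∪ B))
    omega

theorem Hyp.caseI [Fintype V] [DecidableEq V] {k t : ℕ} (h : Hyp G k) (ht : ClqBound G t)
    {W A : Finset V} (hA : A ⊆ W) (hAc : A.card = t)
    (cA : ∀ z ∈ A, ∀ z' ∈ A, z ≠ z' → ∀ r, 1 ≤ r → r ≤ 4 → ¬ Conn G W z z' r)
    (x : V → V) (hx : ∀ z ∈ A, x z ∈ NX G W z) {z0 : V} (hz0 : z0 ∈ A)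
    (h0 : t ≤ (NX G W (x z0)).card + 1)
    (hcase : (k + 1 ≤ 2 * t ∧ ∀ z ∈ A, z ≠ z0 → t ≤ (NX G W (x z)).card) ∨ k ≤ t) : False := by
  have b1 : ∀ z ∈ A, Ball G W z 1 (x z) :=
    fun z hz => ball_one (mem_NX.1 (hx z hz)).2 (mem_NX.1 (hx z hz)).1
  have b2 : ∀ z ∈ A, ∀ y ∈ NX G W (x z), Ball G W z 2 y :=
    fun z hz y hy => (b1 z hz).step (mem_NX.1 hy).1 (mem_NX.1 hy).2
  have key : ∀ w : ℕ, (∀ z ∈ A, z ≠ z0 → ∃ J : Finset V, Indep G J ∧ J.card = w ∧
      ∀ a ∈ J, Ball G W z 2 a) → 2 + (t - 1) * w ≤ k := by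
    intro w hw
    have hJ : ∀ z, ∃ J : Finset V, z ∈ A → (Indep G J ∧ J.card = (if z = z0 then 2 else w) ∧
        ∀ a ∈ J, BallP G W z 2 (z = z0) a) := by
      intro z
      by_cases hz : z ∈ A
      swap
      · exact ⟨∅, fun hz' => absurd hz' hz⟩
      by_cases hzz : z = z0
      · subst hzz
        obtain ⟨J, hJ, hI, hJc⟩ := two_of_nbhd ht (x z) (insert z (NX G W (x z)))
          (by
            intro y hy
            rcases Finset.mem_insert.1 hy with rfl | hy
            · exact (mem_NX.1 (hx _ hz)).1.symm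
            · exact (mem_NX.1 hy).1)
          (by
            rw [Finset.card_insert_of_notMem (fun hm => (mem_NX.1 hm).2 (hA hz))]
            omega)
        refine ⟨J, fun _ => ⟨hI, by simp [hJc], fun a ha => ?_⟩⟩
        rcases Finset.mem_insert.1 (hJ ha) with rfl | ha'
        · exact Or.inl ⟨rfl, rfl⟩
        · exact Or.inr (b2 z hz a ha')
      · obtain ⟨J, h1, h2, h3⟩ := hw z hz hzz
        exact ⟨J, fun _ => ⟨h1, by simp [hzz, h2], fun a ha => Or.inr (h3 a ha)⟩⟩
    choose J hJ using hJ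
    have hs := h.sum_le A J (fun z hz => (hJ z hz).1) (by
      intro z hz z' hz' hne a ha b hb
      exact ballP_anti (hA hz) (hA hz') hne (cA z hz z' hz' hne)
        (fun e1 e2 => absurd (e1.trans e2.symm) hne) ((hJ z hz).2.2 a ha) ((hJ z' hz').2.2 b hb))
    rw [← Finset.add_sum_erase A _ hz0, (hJ z0 hz0).2.1, if_pos rfl,
      Finset.sum_congr rfl (g := fun _ => w) (by
        intro z hz
        rw [(hJ z (Finset.mem_of_mem_erase hz)).2.1, if_neg (Finset.ne_of_mem_erase hz)]),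
      Finset.sum_const, Finset.card_erase_of_mem hz0, hAc, smul_eq_mul] at hs
    exact hs
  have ht1 : 1 ≤ t := hAc ▸ Finset.card_pos.2 ⟨z0, hz0⟩
  rcases hcase with ⟨h1, h2⟩ | h1
  · have := key 2 (by
      intro z hz hzz
      obtain ⟨J, hJ, hI, hJc⟩ := two_of_nbhd ht (x z) (NX G W (x z))
        (fun y hy => (mem_NX.1 hy).1) (h2 z hz hzz)
      exact ⟨J, hI, hJc, fun a ha => b2 z hz a (hJ ha)⟩)
    omega
  · have := key 1 (by
      intro z hz _
      refine ⟨{x z}, indep_singleton _, rfl, fun a ha => ?_⟩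
      rw [Finset.mem_singleton.1 ha]
      exact (b1 z hz).mono (by omega))
    omega

theorem Hyp.caseII [Fintype V] [DecidableEq V] {k t : ℕ} (h : Hyp G k) (ht : ClqBound G t)
    (h2 : k + 1 ≤ 2 * t) {W A : Finset V} (hAc : A.card = t)
    (c1 : ∀ z ∈ A, ∀ z' ∈ A, z ≠ z' → ¬ Conn G W z z' 1)
    (c3 : ∀ z ∈ A, ∀ z' ∈ A, z ≠ z' → ¬ Conn G W z z' 3)
    (c4 : ∀ z ∈ A, ∀ z' ∈ A, z ≠ z' → ¬ Conn G W z z' 4)
    (x : V → V) (hx : ∀ z ∈ A, x z ∈ NX G W z)
    (hP : ∀ z ∈ A, ∃ P : Finset V, (∀ z' ∈ A, z ≠ z' → Conn G W z z' 2 → z' ∈ P) ∧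
      t + P.card ≤ (NX G W (x z)).card) : False := by
  have xa : ∀ z ∈ A, G.Adj z (x z) := fun z hz => (mem_NX.1 (hx z hz)).1
  have xw : ∀ z ∈ A, x z ∉ W := fun z hz => (mem_NX.1 (hx z hz)).2
  have xne : ∀ z ∈ A, ∀ z' ∈ A, z ≠ z' → x z ≠ x z' := fun z hz z' hz' hne e =>
    c1 z hz z' hz' hne (conn_one (xw z hz) (xa z hz).symm (e ▸ (xa z' hz').symm))
  have hJ : ∀ z, ∃ J : Finset V, z ∈ A → (Indep G J ∧ J.card = 2 ∧
      ∀ a ∈ J, a ∈ NX G W (x z) ∧ ∀ z' ∈ A, a ≠ x z') := by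
    intro z
    by_cases hz : z ∈ A
    swap
    · exact ⟨∅, fun hz' => absurd hz' hz⟩
    obtain ⟨P, hP1, hP2⟩ := hP z hz
    obtain ⟨J, hJ, hI, hJc⟩ := two_of_nbhd ht (x z) (NX G W (x z) \ P.image x)
      (fun y hy => (mem_NX.1 (Finset.mem_sdiff.1 hy).1).1) (by
        have e1 := Finset.le_card_sdiff (P.image x) (NX G W (x z))
        have e2 : (P.image x).card ≤ P.card := Finset.card_image_le
        omega)
    refine ⟨J, fun _ => ⟨hI, hJc, fun a ha => ?_⟩⟩
    obtain ⟨a1, a2⟩ := Finset.mem_sdiff.1 (hJ ha)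
    refine ⟨a1, ?_⟩
    rintro z' hz' rfl
    have hadj := (mem_NX.1 a1).1
    refine a2 (Finset.mem_image_of_mem _ (hP1 z' hz' (by rintro rfl; exact G.irrefl hadj)
      ⟨[x z, x z'], by simp [hadj.ne], rfl, by simp [xw z hz, xw z' hz'], ?_⟩))
    simp [xa z hz, hadj, (xa z' hz').symm]
  choose J hJ using hJ
  have hs := h.sum_le A J (fun z hz => (hJ z hz).1) (by
    intro z hz z' hz' hne a ha b hb
    obtain ⟨a1, a2⟩ := (hJ z hz).2.2 a ha
    obtain ⟨b1, b2⟩ := (hJ z' hz').2.2 b hb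
    obtain ⟨a3, a4⟩ := mem_NX.1 a1
    obtain ⟨b3, b4⟩ := mem_NX.1 b1
    constructor
    · rintro rfl
      refine c3 z hz z' hz' hne ⟨[x z, a, x z'], ?_, rfl, by simp [xw z hz, xw z' hz', a4], ?_⟩
      · simp [a3.ne, xne z hz z' hz' hne, a2 z' hz']
      · simp [xa z hz, a3, b3.symm, (xa z' hz').symm]
    · intro hab
      refine c4 z hz z' hz' hne ⟨[x z, a, b, x z'], ?_, rfl,
        by simp [xw z hz, xw z' hz', a4, b4], ?_⟩
      · simp [a3.ne, xne z hz z' hz' hne, a2 z' hz', hab.ne, (b2 z hz).symm, b2 z' hz']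
      · simp [xa z hz, a3, hab, b3.symm, (xa z' hz').symm])
  rw [Finset.sum_congr rfl (g := fun _ => 2) (fun z hz => (hJ z hz).2.1), Finset.sum_const, hAc,
    smul_eq_mul] at hs
  omega

theorem Hyp.generic [Fintype V] {k : ℕ} (h : Hyp G k) {Q : Finset V} (hQ : Clq G Q)
    (ht : ClqBound G Q.card) (h5 : 5 ≤ Q.card) (h2 : k + 1 ≤ 2 * Q.card) : False := by
  classical
  obtain ⟨p, ho⟩ := exists_opt hQ (h.clqBound Q hQ)
  have hr := ho.reverse
  have hWc : p.toFinset.card = p.length := List.toFinset_card_of_nodup ho.path.nodup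
  have hshort := ho.short
  have hA : Zm Q p ⊆ p.toFinset := Zm_subset p
  have hB : Zm Q p.reverse ⊆ p.toFinset := by simpa using Zm_subset (Q := Q) p.reverse
  have hAc : (Zm Q p).card = Q.card := card_Zm ho.path ho.cover
  have hBc : (Zm Q p.reverse).card = Q.card := card_Zm hr.path hr.cover
  have cA := fun z hz z' hz' hne r r1 r4 hc =>
    ho.conn (z := z) (z' := z') (r := r) h hQ ht h5 h2 hz hz' hne r1 r4 hc
  have cB : ∀ z ∈ Zm Q p.reverse, ∀ z' ∈ Zm Q p.reverse, z ≠ z' → ¬ Conn G p.toFinset z z' 1 := by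
    intro z hz z' hz' hne hc
    have := (hr.conn h hQ ht h5 h2 hz hz' hne le_rfl (by omega) (by simpa using hc)).1
    omega
  have cA1 : ∀ z ∈ Zm Q p, ∀ z' ∈ Zm Q p, z ≠ z' → ¬ Conn G p.toFinset z z' 1 := by
    intro z hz z' hz' hne hc
    have := (cA z hz z' hz' hne 1 le_rfl (by omega) hc).1
    omega
  have out1 := exists_Zm_out (Q := Q) (p := p)
  have out2 := exists_Zp_not_Zm ho.path
  have hin : (¬ ∃ x ∈ p, x ∉ Q) → p.toFinset ⊆ Q := by
    intro hh x hx
    by_contra hx'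
    exact hh ⟨x, List.mem_toFinset.1 hx, hx'⟩
  generalize Zm Q p = A at *
  generalize Zm Q p.reverse = B at *
  generalize p.toFinset = W at *
  generalize p.length = n at *
  generalize (∃ x ∈ p, x ∉ Q) = O at *
  have hx : ∀ z, ∃ x, z ∈ A → x ∈ NX G W z := by
    intro z
    by_cases hz : z ∈ A
    swap
    · exact ⟨z, fun hz' => absurd hz' hz⟩
    have e1 := h.nx_card W z (W.erase z) (fun y hy hzy => Finset.mem_erase.2 ⟨hzy.ne.symm, hy⟩)
    rw [Finset.card_erase_of_mem (hA hz)] at e1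
    have e2 : 0 < W.card := Finset.card_pos.2 ⟨z, hA hz⟩
    obtain ⟨x, hx⟩ := Finset.card_pos.1 (by omega : 0 < (NX G W z).card)
    exact ⟨x, fun _ => hx⟩
  choose x hx using hx
  have hd := fun z hz => h.nx_two hA hB cA1 cB (z := z) hz (hx z hz)
  have u1 := Finset.card_union_add_card_inter A B
  have u2 := Finset.card_sdiff_add_card A B
  have u3 := Finset.card_sdiff_add_card B A
  rw [Finset.union_comm] at u3
  have u4 := Finset.card_le_card (Finset.union_subset hA hB)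
  by_cases hII : ∃ z ∈ A, ∃ z' ∈ A, z ≠ z' ∧ Conn G W z z' 2
  · obtain ⟨z1, hz1, z2, hz2, hne, hc⟩ := hII
    obtain ⟨-, hn, -, -, hR⟩ := cA z1 hz1 z2 hz2 hne 2 (by omega) (by omega) hc
    have hR2 : (A ∩ B).card ≤ 2 := by
      refine le_trans (Finset.card_le_card (t := {z1, z2}) ?_) Finset.card_le_two
      intro w hw
      simpa using hR w (Finset.mem_inter.1 hw).1 (Finset.mem_inter.1 hw).2
    have hO : O := by
      by_contra hO
      have := Finset.card_le_card (hin hO)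
      omega
    obtain ⟨zs, hzs, hzsQ⟩ := out1 hO
    refine h.caseII ht h2 hAc cA1 ?_ ?_ x hx ?_
    · intro z hz z' hz' hne hc
      have := (cA z hz z' hz' hne 3 (by omega) (by omega) hc).1
      omega
    · intro z hz z' hz' hne hc
      have := (cA z hz z' hz' hne 4 (by omega) (by omega) hc).1
      omega
    intro z hz
    obtain ⟨d1, d2, d3⟩ := hd z hz
    by_cases hP : ∃ z' ∈ A, z ≠ z' ∧ Conn G W z z' 2
    swap
    · exact ⟨∅, fun z' hz' hne hc => absurd ⟨z', hz', hne, hc⟩ hP, by simp; omega⟩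
    obtain ⟨y, hy, hzy, hcy⟩ := hP
    obtain ⟨-, -, hzQ, -, hRy⟩ := cA z hz y hy hzy 2 (by omega) (by omega) hcy
    by_cases hex : ∃ w ∈ A ∩ B, w ≠ z
    · obtain ⟨w, hw, hwz⟩ := hex
      refine ⟨{w}, ?_, ?_⟩
      · intro z' hz' hne hc
        have := (cA z hz z' hz' hne 2 (by omega) (by omega) hc).2.2.2.2 w
          (Finset.mem_inter.1 hw).1 (Finset.mem_inter.1 hw).2
        simp [this.resolve_left hwz]
      · rw [Finset.card_singleton]
        by_cases hzB : z ∈ B
        · have := d3 hzB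
          omega
        · have : (A ∩ B).card ≤ 1 := by
            refine le_trans (Finset.card_le_card (t := {y}) ?_) (by simp)
            intro w' hw'
            have := hRy w' (Finset.mem_inter.1 hw').1 (Finset.mem_inter.1 hw').2
            rcases this with rfl | rfl
            · exact absurd (Finset.mem_inter.1 hw').2 hzB
            · simp
          omega
    · push Not at hex
      have hR1 : (A ∩ B).card ≤ 1 :=
        le_trans (Finset.card_le_card (t := {z}) (fun w hw => by simp [hex w hw])) (by simp)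
      obtain ⟨w, hw⟩ := Finset.card_pos.1 (by omega : 0 < (A ∩ B).card)
      have hzB : z ∈ B := hex w hw ▸ (Finset.mem_inter.1 hw).2
      refine ⟨(A.erase z).erase zs, ?_, ?_⟩
      · intro z' hz' hne hc
        refine Finset.mem_erase.2 ⟨?_, Finset.mem_erase.2 ⟨hne.symm, hz'⟩⟩
        rintro rfl
        exact hzsQ (cA z hz z' hz' hne 2 (by omega) (by omega) hc).2.2.2.1
      · rw [Finset.card_erase_of_mem (Finset.mem_erase.2 ⟨by rintro rfl; exact hzsQ hzQ, hzs⟩),
          Finset.card_erase_of_mem hz]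
        have := d3 hzB
        omega
  · have cAll : ∀ z ∈ A, ∀ z' ∈ A, z ≠ z' → ∀ r, 1 ≤ r → r ≤ 4 → ¬ Conn G W z z' r := by
      intro z hz z' hz' hne r r1 r4 hc
      obtain ⟨rfl, -⟩ := cA z hz z' hz' hne r r1 r4 hc
      exact hII ⟨z, hz, z', hz', hne, hc⟩
    obtain ⟨a, ha⟩ := Finset.card_pos.1 (by omega : 0 < A.card)
    by_cases hO : O
    · obtain ⟨u, hu, hu'⟩ := out2 hO
      have e1 : 0 < (B \ A).card := Finset.card_pos.2 ⟨u, Finset.mem_sdiff.2 ⟨hu, hu'⟩⟩
      obtain ⟨z0, hz0⟩ := Finset.card_pos.1 (by omega : 0 < (A \ B).card)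
      have hz0A := (Finset.mem_sdiff.1 hz0).1
      refine h.caseI ht hA hAc cAll x hx hz0A (by have := (hd z0 hz0A).1; omega)
        (Or.inl ⟨h2, fun z hz hne => ?_⟩)
      obtain ⟨-, d2, d3⟩ := hd z hz
      by_cases hzB : z ∈ B
      · have := d3 hzB
        omega
      · have : 1 < (A \ B).card :=
          Finset.one_lt_card.2 ⟨z, Finset.mem_sdiff.2 ⟨hz, hzB⟩, z0, hz0, hne⟩
        omega
    · have e1 := Finset.card_le_card (hin hO)
      refine h.caseI ht hA hAc cAll x hx ha (by have := (hd a ha).1; omega) ?_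
      by_cases hk : k ≤ Q.card
      · exact Or.inr hk
      · exact Or.inl ⟨h2, fun z hz _ => by have := (hd z hz).1; omega⟩

end Crest.Agent.R54
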