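import Crest.Agent.R54.Chord

set_option autoImplicit false

namespace Crest.Agent.R54

variable {V : Type} {G : SimpleGraph V}

/-- `x` is within distance `i` of `v`. -/
def Near (G : SimpleGraph V) (v : V) : ℕ → V → Prop
  | 0, x => x = v
  | i + 1, x => Near G v i x ∨ ∃ y, Near G v i y ∧ G.Adj y x

/-- `x` is at distance exactly `i` from `v`. -/
def Lay (G : SimpleGraph V) (v : V) (i : ℕ) (x : V) : Prop :=
  Near G v i x ∧ ∀ j < i, ¬ Near G v j x

variable {v : V}

theorem Near.mono {i j : ℕ} {x : V} (h : Near G v i x) (hij : i ≤ j) : Near G v j x := by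
  induction hij with
  | refl => exact h
  | step _ ih => exact Or.inl ih

theorem Near.exists_lay {i : ℕ} {x : V} (h : Near G v i x) : ∃ j ≤ i, Lay G v j x := by
  classical
  have hex : ∃ j, Near G v j x := ⟨i, h⟩
  exact ⟨Nat.find hex, Nat.find_min' hex h, Nat.find_spec hex, fun j hj => Nat.find_min hex hj⟩

theorem Lay.unique {i j : ℕ} {x : V} (hi : Lay G v i x) (hj : Lay G v j x) : i = j := by
  rcases lt_trichotomy i j with h | h | h
  · exact absurd hi.1 (hj.2 i h)
  · exact h
  · exact absurd hj.1 (hi.2 j h)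

theorem Lay.le_of_near {i j : ℕ} {x : V} (hi : Lay G v i x) (hj : Near G v j x) : i ≤ j := by
  by_contra h
  exact hi.2 j (by omega) hj

theorem Lay.adj_le {i j : ℕ} {x y : V} (hi : Lay G v i x) (hj : Lay G v j y) (h : G.Adj x y) :
    j ≤ i + 1 :=
  hj.le_of_near (Or.inr ⟨x, hi.1, h⟩)

theorem lay_zero {x : V} : Lay G v 0 x ↔ x = v :=
  ⟨fun h => h.1, fun h => ⟨h, fun _ hj => absurd hj (by omega)⟩⟩

theorem lay_one {x : V} : Lay G v 1 x ↔ G.Adj v x := by
  constructor
  · rintro ⟨h1 | ⟨y, hy, hyx⟩, h2⟩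
    · exact absurd h1 (h2 0 (by omega))
    · have : y = v := hy
      exact this ▸ hyx
  · intro h
    refine ⟨Or.inr ⟨v, rfl, h⟩, ?_⟩
    intro j hj hn
    have : j = 0 := by omega
    subst this
    have : x = v := hn
    exact G.irrefl (this ▸ h)

theorem Lay.exists_parent {i : ℕ} {x : V} (h : Lay G v (i + 1) x) :
    ∃ p, Lay G v i p ∧ G.Adj p x := by
  rcases h.1 with h1 | ⟨y, hy, hyx⟩
  · exact absurd h1 (h.2 i (by omega))
  · exact ⟨y, ⟨hy, fun j hj hn => h.2 (j + 1) (by omega) (Or.inr ⟨y, hn, hyx⟩)⟩, hyx⟩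

/-- A parent function for the layering. -/
def IsPar (G : SimpleGraph V) (v : V) (par : V → V) : Prop :=
  ∀ i x, Lay G v (i + 1) x → Lay G v i (par x) ∧ G.Adj (par x) x

theorem exists_isPar (G : SimpleGraph V) (v : V) : ∃ par, IsPar G v par := by
  classical
  have : ∀ x, ∃ p, ∀ i, Lay G v (i + 1) x → Lay G v i p ∧ G.Adj p x := by
    intro x
    by_cases h : ∃ i, Lay G v (i + 1) x
    · obtain ⟨i, hi⟩ := h
      obtain ⟨p, hp⟩ := hi.exists_parent
      refine ⟨p, fun j hj => ?_⟩
      have := hi.unique hj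
      have : i = j := by omega
      subst this
      exact hp
    · exact ⟨x, fun i hi => absurd ⟨i, hi⟩ h⟩
  choose par hpar using this
  exact ⟨par, fun i x => hpar x i⟩

theorem IsPar.iter {par : V → V} (hp : IsPar G v par) {i : ℕ} {x : V} (hx : Lay G v i x) (a : ℕ)
    (ha : a ≤ i) : Lay G v (i - a) (par^[a] x) := by
  induction a with
  | zero => simpa using hx
  | succ a ih =>
    rw [Function.iterate_succ_apply']
    have h1 := ih (by omega)
    rw [show i - a = (i - (a + 1)) + 1 by omega] at h1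
    exact (hp _ _ h1).1

theorem IsPar.iter_adj {par : V → V} (hp : IsPar G v par) {i : ℕ} {x : V} (hx : Lay G v i x)
    (a : ℕ) (ha : a + 1 ≤ i) : G.Adj (par^[a + 1] x) (par^[a] x) := by
  rw [Function.iterate_succ_apply']
  have h1 := hp.iter hx a (by omega)
  rw [show i - a = (i - (a + 1)) + 1 by omega] at h1
  exact (hp _ _ h1).2

/-- A path inside a layer together with the tree path between its ends forms a cycle. -/
theorem IsPar.tree_cycle {par : V → V} (hp : IsPar G v par) {i j ℓ : ℕ} (hj1 : 1 ≤ j) (hji : j ≤ i)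
    (f : ℕ → V) (hinj : ∀ a ≤ ℓ, ∀ b ≤ ℓ, f a = f b → a = b)
    (hadj : ∀ a < ℓ, G.Adj (f a) (f (a + 1))) (hlay : ∀ a ≤ ℓ, Lay G v i (f a))
    (heq : par^[j] (f 0) = par^[j] (f ℓ)) (hne : par^[j - 1] (f 0) ≠ par^[j - 1] (f ℓ)) :
    HasCyc G (ℓ + 2 * j) := by
  have h0 := hlay 0 (by omega)
  have hl := hlay ℓ le_rfl
  let g : ℕ → V := fun a => if a ≤ ℓ then f a else if a ≤ ℓ + j then par^[a - ℓ] (f ℓ)
    else par^[ℓ + 2 * j - a] (f 0)
  have hglay : ∀ a < ℓ + 2 * j, Lay G v (if a ≤ ℓ then i else if a ≤ ℓ + j then i - (a - ℓ)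
      else i - (ℓ + 2 * j - a)) (g a) := by
    intro a ha
    simp only [g]
    split_ifs with h1 h2
    · exact hlay a h1
    · exact hp.iter hl _ (by omega)
    · exact hp.iter h0 _ (by omega)
  have hdiff : ∀ b, b ≤ j - 1 → par^[b] (f 0) ≠ par^[b] (f ℓ) := by
    intro b hb h
    apply hne
    rw [show j - 1 = (j - 1 - b) + b by omega, Function.iterate_add_apply,
      Function.iterate_add_apply, h]
  refine hasCyc_of_fun (by omega) g ?_ ?_ ?_
  · intro a ha b hb hab
    have h1 := hglay a ha
    have h2 := hglay b hb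
    rw [hab] at h1
    have h3 := h1.unique h2
    simp only [g] at hab
    split_ifs at hab h3 with c1 c2 c3 c4 c5 c6 c7 c8
    · exact hinj a c1 b c2 hab
    · omega
    · omega
    · omega
    · omega
    · exfalso
      rw [show a - ℓ = ℓ + 2 * j - b by omega] at hab
      exact hdiff _ (by omega) hab.symm
    · omega
    · exfalso
      rw [show b - ℓ = ℓ + 2 * j - a by omega] at hab
      exact hdiff _ (by omega) hab
    · omega
  · intro a ha
    simp only [g]
    split_ifs with c1 c2 c3 c4 c5 c6 c7 c8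
    · exact hadj a (by omega)
    · rw [show a + 1 - ℓ = 0 + 1 by omega, show a = ℓ by omega]
      exact (hp.iter_adj hl 0 (by omega)).symm
    · omega
    · omega
    · rw [show a + 1 - ℓ = (a - ℓ) + 1 by omega]
      exact (hp.iter_adj hl _ (by omega)).symm
    · rw [show a - ℓ = j by omega, ← heq, show ℓ + 2 * j - (a + 1) = j - 1 by omega]
      have := hp.iter_adj h0 (j - 1) (by omega)
      rwa [show j - 1 + 1 = j by omega] at this
    · omega
    · omega
    · rw [show ℓ + 2 * j - a = (ℓ + 2 * j - (a + 1)) + 1 by omega]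
      exact hp.iter_adj h0 _ (by omega)
  · simp only [g]
    have c0 : 0 ≤ ℓ := by omega
    have c1 : ¬ (ℓ + 2 * j - 1 ≤ ℓ) := by omega
    simp only [c0, c1, if_true, if_false]
    split_ifs with c2
    · have hj : j = 1 := by omega
      subst hj
      rw [show ℓ + 2 * 1 - 1 - ℓ = 1 by omega, ← heq]
      exact hp.iter_adj h0 0 (by omega)
    · rw [show ℓ + 2 * j - (ℓ + 2 * j - 1) = 0 + 1 by omega]
      exact hp.iter_adj h0 0 (by omega)

/-- Ratio bound inside a layer. -/
theorem Hyp.ratio_layer {k r i : ℕ} (h : Hyp G k) (hr : ClqBound G r) (hr3 : 3 ≤ r)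
    (hkr : k ≤ 2 * r + 1) (hi2 : 2 ≤ i) (hik : 2 * i ≤ k)
    (I1 : Finset V) (hI1 : Indep G I1) (hI1c : 3 ≤ I1.card) (hI1v : ∀ x ∈ I1, G.Adj v x)
    (S : Finset V) (hS : ∀ x ∈ S, Lay G v i x) :
    ∃ J ⊆ S, Indep G J ∧ 2 * S.card ≤ (2 * r) * J.card := by
  classical
  obtain ⟨par, hp⟩ := exists_isPar G v
  refine ratio_of_step _ S ?_
  intro S' hS' hne
  rcases posa_step (G := G) S' hne with ⟨u, hu, K, hKS, hK, huK, hnb⟩ |
      ⟨n, c, p, q, hc, hpq, hq, h0p, h0q, hna, hnb⟩
  · refine ⟨{u}, K, by simpa using hu, by simp, indep_singleton u, by simpa using huK, ?_, ?_⟩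
    · intro x hx w hw hwx
      simp at hw; subst hw
      exact hnb x hx hwx
    · have := hr K hK
      simp only [Finset.card_singleton]; omega
  have hne' : c p ≠ c q := fun h => by have := hc.inj p (by omega) q (by omega) h; omega
  set B := S'.filter (fun x => G.Adj (c p) x ∨ G.Adj (c q) x) with hB
  by_cases hBc : B.card + 2 ≤ 2 * r
  · refine ⟨{c p, c q}, {c p, c q} ∪ B, ?_, by simp, indep_pair hna, Finset.subset_union_left, ?_, ?_⟩
    · intro x hx
      simp at hx
      rcases hx with rfl | rfl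
      · exact hc.mem p (by omega)
      · exact hc.mem q (by omega)
    · intro x hx u hu hux
      simp at hu
      refine Finset.mem_union_right _ (Finset.mem_filter.2 ⟨hx, ?_⟩)
      rcases hu with rfl | rfl <;> simp [hux]
    · have := Finset.card_union_le ({c p, c q} : Finset V) B
      rw [Finset.card_pair hne'] at this ⊢
      omega
  exfalso
  have hlayc : ∀ a < n, Lay G v i (c a) := fun a ha => hS _ (hS' (hc.mem a ha))
  have hBmem : ∀ x ∈ B, ∃ a < n, x = c a ∧ (G.Adj (c p) (c a) ∨ G.Adj (c q) (c a)) := by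
    intro x hx
    obtain ⟨hx1, hx2⟩ := Finset.mem_filter.1 hx
    obtain ⟨a, ha, rfl⟩ := hnb x hx1 hx2
    exact ⟨a, ha, rfl, hx2⟩
  have hn : B.card + 2 ≤ n := by
    have hsub : insert (c p) (insert (c q) B) ⊆ (Finset.range n).image c := by
      intro x hx
      simp only [Finset.mem_insert] at hx
      rcases hx with rfl | rfl | hx
      · exact Finset.mem_image.2 ⟨p, Finset.mem_range.2 (by omega), rfl⟩
      · exact Finset.mem_image.2 ⟨q, Finset.mem_range.2 (by omega), rfl⟩
      · obtain ⟨a, ha, rfl, -⟩ := hBmem x hx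
        exact Finset.mem_image.2 ⟨a, Finset.mem_range.2 ha, rfl⟩
    have h1 := Finset.card_le_card hsub
    have h2 : ((Finset.range n).image c).card ≤ n := by
      simpa using Finset.card_image_le (s := Finset.range n) (f := c)
    have hq' : c q ∉ B := by
      simp only [hB, Finset.mem_filter, not_and, not_or]
      exact fun _ => ⟨hna, G.irrefl⟩
    have hp' : c p ∉ insert (c q) B := by
      simp only [hB, Finset.mem_insert, Finset.mem_filter, not_or, not_and]
      exact ⟨hne', fun _ => ⟨G.irrefl, fun h => hna h.symm⟩⟩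
    rw [Finset.card_insert_of_notMem hp', Finset.card_insert_of_notMem hq'] at h1
    omega
  -- the height of the common ancestor
  have hex : ∃ j, ∀ a < n, par^[j] (c a) = par^[j] (c 0) := by
    refine ⟨i, fun a ha => ?_⟩
    have h1 := hp.iter (hlayc a ha) i le_rfl
    have h2 := hp.iter (hlayc 0 (by omega)) i le_rfl
    rw [Nat.sub_self, lay_zero] at h1 h2
    rw [h1, h2]
  have hji : Nat.find hex ≤ i := Nat.find_min' hex (fun a ha => by
    have h1 := hp.iter (hlayc a ha) i le_rfl
    have h2 := hp.iter (hlayc 0 (by omega)) i le_rfl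
    rw [Nat.sub_self, lay_zero] at h1 h2
    rw [h1, h2])
  have hjs := Nat.find_spec hex
  set j := Nat.find hex with hj
  have hj1 : 1 ≤ j := by
    by_contra h0
    have h1 : j = 0 := by omega
    have := hjs 1 (by omega)
    rw [h1] at this
    have := hc.inj 1 (by omega) 0 (by omega) this
    omega
  have hjm := Nat.find_min hex (show j - 1 < j by omega)
  push Not at hjm
  let χ : V → Bool := fun x => decide (par^[j - 1] x = par^[j - 1] (c 0))
  have hnc : ∃ a < n, ∃ b < n, χ (c a) ≠ χ (c b) := by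
    obtain ⟨a, ha, hne⟩ := hjm
    exact ⟨a, ha, 0, by omega, by simp [χ, hne]⟩
  have hno : ∀ f : ℕ → V, (∀ a ≤ k + 1 - 2 * j, ∀ b ≤ k + 1 - 2 * j, f a = f b → a = b) →
      (∀ a < k + 1 - 2 * j, G.Adj (f a) (f (a + 1))) →
      (∀ a ≤ k + 1 - 2 * j, ∃ b < n, f a = c b) → χ (f 0) = χ (f (k + 1 - 2 * j)) := by
    intro f h1 h2 h3
    by_contra hχ
    apply h.noCyc
    rw [show k + 1 = (k + 1 - 2 * j) + 2 * j by omega]
    refine hp.tree_cycle hj1 hji f h1 h2 ?_ ?_ ?_
    · intro a ha
      obtain ⟨b, hb, hab⟩ := h3 a ha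
      rw [hab]; exact hlayc b hb
    · obtain ⟨b, hb, hab⟩ := h3 0 (by omega)
      obtain ⟨b', hb', hab'⟩ := h3 _ le_rfl
      rw [hab, hab', hjs b hb, hjs b' hb']
    · intro heq
      apply hχ
      simp only [χ, heq]
  have hchord : ∀ a b, a + 2 ≤ b → b < n → b + 2 ≤ n + a → G.Adj (c a) (c b) →
      Even (k + 1 - 2 * j) ∧ (∀ i, i + 1 < n → χ (c (i + 1)) ≠ χ (c i)) ∧
        χ (c 0) ≠ χ (c (n - 1)) ∧ χ (c a) ≠ χ (c b) := by
    intro a b h1 h2 h3 h4
    exact chord_cyc hc h1 h2 h3 h4 hnc (by omega) (by omega) hno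
  -- there is a chord
  have hexch : ∃ a b, a + 2 ≤ b ∧ b < n ∧ b + 2 ≤ n + a ∧ G.Adj (c a) (c b) := by
    by_contra hcon
    push Not at hcon
    have hsub : B ⊆ {c (p + 1), c (if p = 0 then n - 1 else p - 1), c (q + 1), c (q - 1)} := by
      intro x hx
      obtain ⟨a, ha, rfl, hadj | hadj⟩ := hBmem x hx
      · have h1 := hcon p a
        have h2 := hcon a p
        have h3 : a ≠ p := by rintro rfl; exact G.irrefl hadj
        have h4 : a = p + 1 ∨ a = (if p = 0 then n - 1 else p - 1) := by
          by_contra h5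
          push Not at h5
          rcases lt_or_gt_of_ne h3 with h6 | h6
          · exact h2 (by split_ifs at h5 <;> omega) (by omega) (by omega) hadj.symm
          · exact h1 (by omega) ha (by split_ifs at h5 <;> omega) hadj
        rcases h4 with h4 | h4 <;> simp [← h4]
      · have h1 := hcon q a
        have h2 := hcon a q
        have h3 : a ≠ q := by rintro rfl; exact G.irrefl hadj
        have h4 : a = q + 1 ∨ a = q - 1 := by
          by_contra h5
          push Not at h5
          rcases lt_or_gt_of_ne h3 with h6 | h6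
          · exact h2 (by omega) (by omega) (by omega) hadj.symm
          · exact h1 (by omega) ha (by omega) hadj
        rcases h4 with h4 | h4 <;> simp [← h4]
    have := (Finset.card_le_card hsub).trans Finset.card_le_four
    omega
  obtain ⟨a0, b0, h1, h2, h3, h4⟩ := hexch
  obtain ⟨heven, halt, hcl, -⟩ := hchord a0 b0 h1 h2 h3 h4
  have hcross : ∀ a < n, ∀ b < n, G.Adj (c a) (c b) → χ (c a) ≠ χ (c b) := by
    have aux : ∀ a b, a < b → b < n → G.Adj (c a) (c b) → χ (c a) ≠ χ (c b) := by
      intro a b hab hb hadj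
      by_cases c1 : b = a + 1
      · subst c1; exact (halt a hb).symm
      by_cases c2 : b + 2 ≤ n + a
      · exact (hchord a b (by omega) hb c2 hadj).2.2.2
      · rw [show a = 0 by omega, show b = n - 1 by omega]; exact hcl
    intro a ha b hb hadj
    rcases lt_trichotomy a b with hab | rfl | hab
    · exact aux a b hab hb hadj
    · exact absurd hadj G.irrefl
    · exact (aux b a hab ha hadj.symm).symm
  have hχp : χ (c p) = χ (c 0) := by
    have e1 := hcross 0 (by omega) (p + 1) (by omega) h0p
    have e2 := halt p (by omega)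
    revert e1 e2
    cases χ (c p) <;> cases χ (c 0) <;> cases χ (c (p + 1)) <;> simp
  have hχq : χ (c q) = χ (c 0) := by
    have e1 := hcross 0 (by omega) (q + 1) (by omega) h0q
    have e2 := halt q (by omega)
    revert e1 e2
    cases χ (c q) <;> cases χ (c 0) <;> cases χ (c (q + 1)) <;> simp
  by_cases hi3 : 3 ≤ i
  · have hBcol : ∀ x ∈ B, χ x ≠ χ (c 0) := by
      intro x hx
      obtain ⟨a, ha, rfl, hadj | hadj⟩ := hBmem x hx
      · rw [← hχp]; exact (hcross p (by omega) a ha hadj).symm
      · rw [← hχq]; exact (hcross q (by omega) a ha hadj).symm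
    have hBind : Indep G B := by
      intro x hx y hy hxy
      have e1 := hBcol x hx
      have e2 := hBcol y hy
      obtain ⟨a, ha, rfl, -⟩ := hBmem x hx
      obtain ⟨b, hb, rfl, -⟩ := hBmem y hy
      have e3 := hcross a ha b hb hxy
      revert e1 e2 e3
      cases χ (c a) <;> cases χ (c 0) <;> cases χ (c b) <;> simp
    have hBlay : ∀ x ∈ B, Lay G v i x := by
      intro x hx
      obtain ⟨a, ha, rfl, -⟩ := hBmem x hx
      exact hlayc a ha
    have hun := h.indep_le (I1 ∪ B) (hI1.union hBind (by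
      intro u hu x hx hux
      have := (lay_one.2 (hI1v u hu)).adj_le (hBlay x hx) hux
      omega))
    rw [Finset.card_union_of_disjoint (by
      rw [Finset.disjoint_left]
      intro u hu huB
      have := (lay_one.2 (hI1v u hu)).unique (hBlay u huB)
      omega)] at hun
    omega
  · have hi : i = 2 := by omega
    have hev : ∀ a, 2 * a < n → χ (c (2 * a)) = χ (c 0) := by
      intro a
      induction a with
      | zero => simp
      | succ a ih =>
        intro ha
        have e1 := ih (by omega)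
        have e2 := halt (2 * a) (by omega)
        have e3 := halt (2 * a + 1) (by omega)
        rw [show 2 * (a + 1) = 2 * a + 1 + 1 by ring]
        revert e1 e2 e3
        cases χ (c (2 * a)) <;> cases χ (c 0) <;> cases χ (c (2 * a + 1)) <;>
          cases χ (c (2 * a + 1 + 1)) <;> simp
    by_cases hj' : j = 1
    · have := hev 1 (by omega)
      simp only [χ, hj'] at this
      simp at this
      have := hc.inj 2 (by omega) 0 (by omega) this
      omega
    · have hj2 : j = 2 := by omega
      obtain ⟨m, hm⟩ := heven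
      have e1 := hev (m + 1) (by omega)
      simp only [χ, hj2] at e1
      simp at e1
      apply h.noCyc
      rw [show k + 1 = 2 * (m + 1) + 2 * 1 by omega]
      refine hp.tree_cycle (i := i) le_rfl (by omega) c ?_ ?_ ?_ ?_ ?_
      · intro a ha b hb; exact hc.inj a (by omega) b (by omega)
      · intro a ha; exact hc.adj a (by omega)
      · intro a ha; exact hlayc a (by omega)
      · simpa using e1.symm
      · intro heq
        have := hc.inj 0 (by omega) (2 * (m + 1)) (by omega) (by simpa using heq)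
        omega

end Crest.Agent.R54
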