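import Crest.Agent.R54.Sys
import Crest.Agent.R54.DataS

set_option autoImplicit false

namespace Crest.Agent.R54

variable {V : Type} {G : SimpleGraph V} {Q : Finset V}

/-- A list from `Q` to `Q` together with the lengths of its stretches outside `Q`. -/
inductive QA (Q : Finset V) : List V → List ℕ → Prop
  | single (q : V) : q ∈ Q → QA Q [q] [0]
  | cons (q : V) (S p : List V) (l : List ℕ) : q ∈ Q → (∀ x ∈ S, x ∉ Q) → QA Q p l →
      QA Q (q :: (S ++ p)) (S.length :: l)

theorem QA.exists_aux : ∀ (p : List V) (a : V), (∀ x ∈ (a :: p).getLast?, x ∈ Q) →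
    ∃ S R l, a :: p = S ++ R ∧ (∀ x ∈ S, x ∉ Q) ∧ QA Q R l
  | [], a, h => ⟨[], [a], [0], rfl, by simp, QA.single a (h a rfl)⟩
  | b :: p, a, h => by
    obtain ⟨S, R, l, e, h1, h2⟩ := QA.exists_aux p b (by rwa [List.getLast?_cons_cons] at h)
    by_cases ha : a ∈ Q
    · exact ⟨[], a :: (S ++ R), _, by simp [e], by simp, QA.cons a S R l ha h1 h2⟩
    · exact ⟨a :: S, R, l, by simp [e], by simpa [ha] using h1, h2⟩

theorem QPath.exists_QA {p : List V} (h : QPath G Q p) (hne : p ≠ []) : ∃ l, QA Q p l := by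
  cases p with
  | nil => exact absurd rfl hne
  | cons a p =>
    obtain ⟨S, R, l, e, h1, h2⟩ := QA.exists_aux p a h.last
    cases S with
    | nil => exact ⟨l, e ▸ h2⟩
    | cons s S =>
      simp only [List.cons_append, List.cons.injEq] at e
      exact absurd (h.head a rfl) (e.1 ▸ h1 s (by simp))

theorem QA.head {p : List V} {l : List ℕ} (h : QA Q p l) : ∃ q T, p = q :: T ∧ q ∈ Q := by
  cases h with
  | single q hq => exact ⟨q, [], rfl, hq⟩
  | cons q S p l hq _ _ => exact ⟨q, _, rfl, hq⟩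

theorem QA.head? {p : List V} {l : List ℕ} (h : QA Q p l) : ∀ x ∈ p.head?, x ∈ Q := by
  obtain ⟨q, T, rfl, hq⟩ := h.head
  simpa using hq

theorem QA.last {p : List V} {l : List ℕ} (h : QA Q p l) : ∀ x ∈ p.getLast?, x ∈ Q := by
  induction h with
  | single q hq => simpa using hq
  | cons q S p l _ _ h ih =>
    obtain ⟨q', T, rfl, -⟩ := h.head
    rwa [← List.cons_append, List.getLast?_append_of_ne_nil _ (by simp)]

theorem QA.length {p : List V} {l : List ℕ} (h : QA Q p l) : p.length = l.length + l.sum := by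
  induction h with
  | single q hq => rfl
  | cons q S p l _ _ _ ih => simp [ih]; omega

variable [DecidableEq V]

theorem QA.cq_eq {p : List V} {l : List ℕ} (h : QA Q p l) : cq Q p = l.length := by
  induction h with
  | single q hq => simp [cq, hq]
  | cons q S p l hq hS _ ih => rw [cq_cons_mem hq, cq_append, cq_of_not hS, ih]; simp

theorem mix_arc {q : V} {S p : List V} (hq : q ∈ Q) (hS : ∀ x ∈ S, x ∉ Q) (hne : S ≠ [])
    (hp : ∃ q' T, p = q' :: T ∧ q' ∈ Q) : mix Q (q :: (S ++ p)) = 2 + mix Q p := by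
  obtain ⟨q', T, rfl, hq'⟩ := hp
  have e : mix Q (q :: (S ++ q' :: T)) = mix Q (q :: (S ++ [q'])) + mix Q (q' :: T) :=
    mix_split q' T (q :: S)
  rw [e, mix_out q' S q hS hne]
  simp [hq, hq']

theorem QA.mix_eq {p : List V} {l : List ℕ} (h : QA Q p l) : mix Q p = 2 * npos l := by
  induction h with
  | single q hq => rfl
  | cons q S p l hq hS h ih =>
    cases S with
    | nil =>
      rw [List.nil_append, mix_cons_Q q h.head? (fun _ => hq), ih]
      simp [hq, npos]
    | cons s S =>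
      rw [mix_arc hq hS (by simp) h.head, ih]
      simp only [List.length_cons, npos]
      omega

theorem QA.bits_eq {p : List V} {l : List ℕ} (h : QA Q p l) :
    p.map (fun x => decide (x ∈ Q)) = bits l := by
  induction h with
  | single q hq => simp [bits, hq]
  | cons q S p l hq hS _ ih =>
    rw [List.map_cons, List.map_append, ih, bits]
    congr 2
    · simp [hq]
    · rw [List.eq_replicate_iff]
      refine ⟨by simp, ?_⟩
      intro b hb
      obtain ⟨x, hx, rfl⟩ := List.mem_map.1 hb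
      simp [hS x hx]

omit [DecidableEq V] in
theorem chain_congr_head {A B B' : List V} (h : List.IsChain G.Adj (A ++ B))
    (h' : List.IsChain G.Adj B') (e : B'.head? = B.head?) : List.IsChain G.Adj (A ++ B') :=
  h.left_of_append.append h' (e ▸ (List.isChain_append.1 h).2.2)

omit [DecidableEq V] in
theorem QA.delete (hQ : Clq G Q) {p : List V} {l : List ℕ} (h : QA Q p l) (hnd : p.Nodup)
    (hch : List.IsChain G.Adj p) {c : ℕ} (hc : c ∈ l) (h0 : 0 < c) :
    ∃ p' l', QA Q p' l' ∧ p'.Sublist p ∧ p'.head? = p.head? ∧ List.IsChain G.Adj p' ∧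
      (∀ x ∈ Q, x ∈ p → x ∈ p') ∧ p'.length + c = p.length ∧ npos l' + 1 = npos l := by
  induction h with
  | single q hq => simp at hc; omega
  | cons q S p l hq hS h ih =>
    have hsub : p.Sublist (q :: (S ++ p)) :=
      (List.sublist_append_right S p).trans (List.sublist_cons_self _ _)
    have hch' : List.IsChain G.Adj p := hch.tail.right_of_append
    by_cases hcS : c = S.length
    · have hsub' : (q :: p).Sublist (q :: (S ++ p)) := (List.sublist_append_right S p).cons_cons q
      refine ⟨q :: p, 0 :: l, QA.cons q [] p l hq (by simp) h, hsub', rfl, ?_, ?_, ?_, ?_⟩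
      · exact chain_append_Q (A := [q]) hQ (hnd.sublist hsub') (by simp) hch' (by simpa using hq)
          h.head?
      · intro x hx hxp
        simp only [List.mem_cons, List.mem_append] at hxp ⊢
        rcases hxp with h1 | h1 | h1
        · exact Or.inl h1
        · exact absurd hx (hS x h1)
        · exact Or.inr h1
      · simp; omega
      · obtain ⟨c', rfl⟩ : ∃ c', c = c' + 1 := ⟨c - 1, by omega⟩
        rw [← hcS]; rfl
    · obtain ⟨p', l', h1, h2, h3, h4, h5, h6, h7⟩ := ih (hnd.sublist hsub) hch'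
        ((List.mem_cons.1 hc).resolve_left hcS)
      refine ⟨q :: (S ++ p'), S.length :: l', QA.cons q S p' l' hq hS h1,
        ((List.Sublist.refl S).append h2).cons_cons q, rfl,
        chain_congr_head (A := q :: S) hch h4 h3, ?_, ?_, ?_⟩
      · intro x hx hxp
        simp only [List.mem_cons, List.mem_append] at hxp ⊢
        rcases hxp with h8 | h8 | h8
        · exact Or.inl h8
        · exact Or.inr (Or.inl h8)
        · exact Or.inr (Or.inr (h5 x hx h8))
      · simp; omega
      · cases S.length with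
        | zero => simpa [npos] using h7
        | succ s => simpa [npos] using h7

theorem QA.trim (hQ : Clq G Q) {p : List V} {l : List ℕ} (h : QA Q p l) (hnd : p.Nodup)
    (hch : List.IsChain G.Adj p) :
    ∃ p', p'.Sublist p ∧ QPath G Q p' ∧ p'.length = cq Q p' + l.sum ∧ cq Q p' ≤ 2 * npos l := by
  induction h with
  | single q hq => exact ⟨[], by simp, ⟨by simp, by simp, by simp, by simp⟩, rfl, by simp [cq]⟩
  | cons q S p l hq hS h ih =>
    have hsub : p.Sublist (q :: (S ++ p)) :=
      (List.sublist_append_right S p).trans (List.sublist_cons_self _ _)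
    have hch' : List.IsChain G.Adj p := hch.tail.right_of_append
    obtain ⟨p', h1, h2, h3, h4⟩ := ih (hnd.sublist hsub) hch'
    cases S with
    | nil => exact ⟨p', h1.trans hsub, h2, by simpa using h3, by simpa [npos] using h4⟩
    | cons s S =>
      obtain ⟨v, T, rfl, hv⟩ := h.head
      have key : ∀ p'' : List V, p''.Sublist (v :: T) → QPath G Q p'' → p''.head? = some v →
          p''.length = cq Q p'' + l.sum → cq Q p'' ≤ 2 * npos l + 1 →
          ∃ p', p'.Sublist (q :: ((s :: S) ++ v :: T)) ∧ QPath G Q p' ∧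
            p'.length = cq Q p' + ((s :: S).length :: l).sum ∧
            cq Q p' ≤ 2 * npos ((s :: S).length :: l) := by
        intro p'' a1 a2 a3 a4 a5
        have hs : (q :: ((s :: S) ++ p'')).Sublist (q :: ((s :: S) ++ v :: T)) :=
          ((List.Sublist.refl _).append a1).cons_cons q
        have hne : p'' ≠ [] := by rintro rfl; simp at a3
        refine ⟨_, hs, ⟨hnd.sublist hs, chain_congr_head (A := q :: s :: S) hch a2.chain a3,
          by simpa using hq, ?_⟩, ?_, ?_⟩
        · rw [← List.cons_append, List.getLast?_append_of_ne_nil _ hne]; exact a2.last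
        · rw [cq_cons_mem hq, cq_append, cq_of_not hS]
          simp only [List.length_cons, List.length_append, List.sum_cons]
          omega
        · rw [cq_cons_mem hq, cq_append, cq_of_not hS]
          simp only [List.length_cons, npos]
          omega
      rcases List.sublist_cons_iff.1 h1 with h5 | ⟨r, rfl, h5⟩
      · refine key (v :: p') (h5.cons_cons v) ?_ rfl ?_ ?_
        · exact QPath.append (A := [v]) hQ ⟨by simp, by simp, by simpa using hv, by simpa using hv⟩
            h2 ((hnd.sublist hsub).sublist (h5.cons_cons v))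
        · rw [cq_cons_mem hv, List.length_cons]; omega
        · rw [cq_cons_mem hv]; omega
      · exact key _ h1 h2 rfl h3 (by omega)

theorem npos_mul_le (r : ℕ) : ∀ l : List ℕ, (∀ c ∈ l, c = 0 ∨ r ≤ c) → r * npos l ≤ l.sum
  | [], _ => by simp [npos]
  | 0 :: l, h => by
    simpa [npos] using npos_mul_le r l (fun c hc => h c (List.mem_cons_of_mem _ hc))
  | (a + 1) :: l, h => by
    have h1 := npos_mul_le r l (fun c hc => h c (List.mem_cons_of_mem _ hc))
    have h2 := h (a + 1) (by simp)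
    simp only [npos, List.sum_cons, Nat.mul_add]
    omega

omit [DecidableEq V] in
theorem QPath.contains (hQ : Clq G Q) {p : List V} (hp : QPath G Q p) (hne : p ≠ [])
    (b : ℕ → Bool) (hb : ∀ i (hi : i < p.length), b i = true → p[i] ∈ Q) :
    Contains G p.length (cfgE p.length b) := by
  let φ : ℕ → V := fun i => p.getD i (p.head hne)
  have hφ : ∀ i (hi : i < p.length), φ i = p[i] := fun i hi => List.getD_eq_getElem _ _ hi
  have hinj : ∀ i < p.length, ∀ j < p.length, φ i = φ j → i = j := by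
    intro i hi j hj hij
    rw [hφ i hi, hφ j hj] at hij
    exact (List.Nodup.getElem_inj_iff hp.nodup).1 hij
  have hQ' : ∀ i < p.length, ∀ j < p.length, i ≠ j → φ i ∈ Q → φ j ∈ Q → G.Adj (φ i) (φ j) :=
    fun i hi j hj hij h1 h2 => hQ _ h1 _ h2 (fun e => hij (hinj i hi j hj e))
  have hs : ∀ i < p.length, ∀ j < p.length, i ≠ j → j = (i + 1) % p.length →
      G.Adj (φ i) (φ j) := by
    intro i hi j hj hij e
    by_cases h1 : i + 1 < p.length
    · rw [Nat.mod_eq_of_lt h1] at e
      subst e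
      rw [hφ i hi, hφ _ hj]
      exact hp.chain.getElem i h1
    · have e1 : i + 1 = p.length := by omega
      rw [e1, Nat.mod_self] at e
      subst e
      refine hQ' i hi 0 hj hij ?_ ?_
      · rw [hφ i hi]
        refine hp.last _ ?_
        rw [List.getLast?_eq_getElem?, show p.length - 1 = i by omega]
        simp [hi]
      · rw [hφ 0 hj]
        refine hp.head _ ?_
        rw [List.head?_eq_getElem?]
        simp [hj]
  refine ⟨φ, hinj, ?_⟩
  intro i hi j hj hij
  simp only [cfgE, Bool.and_eq_true, Bool.not_eq_true', beq_false_iff, Bool.or_eq_true,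
    Nat.beq_eq] at hij
  obtain ⟨h1, (⟨h2, h3⟩ | h2) | h2⟩ := hij
  · exact hQ' i hi j hj h1 (hφ i hi ▸ hb i hi h2) (hφ j hj ▸ hb j hj h3)
  · exact hs i hi j hj h1 h2
  · exact (hs j hj i hi h1.symm h2).symm

theorem QA.contains (hQ : Clq G Q) {p : List V} {l : List ℕ} (h : QA Q p l) (hp : QPath G Q p) :
    Contains G p.length (cfgE p.length (bitsF l)) := by
  refine hp.contains hQ (by obtain ⟨q, T, rfl, -⟩ := h.head; simp) _ ?_
  intro i hi hb
  rw [bitsF, ← h.bits_eq, List.getD_eq_getElem _ _ (by simpa using hi)] at hb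
  simpa using hb

/-- An optimal path through all of `Q`. -/
structure Opt (G : SimpleGraph V) (Q : Finset V) (k : ℕ) (p : List V) : Prop where
  path : QPath G Q p
  cover : ∀ q ∈ Q, q ∈ p
  short : p.length ≤ k
  maxlen : ∀ p', QPath G Q p' → (∀ q ∈ Q, q ∈ p') → p'.length ≤ k → p'.length ≤ p.length
  minmix : ∀ p', QPath G Q p' → (∀ q ∈ Q, q ∈ p') → p'.length = p.length → mix Q p ≤ mix Q p'

theorem Opt.reverse {k : ℕ} {p : List V} (h : Opt G Q k p) : Opt G Q k p.reverse :=
  ⟨h.path.reverse, by simpa using h.cover, by simpa using h.short, by simpa using h.maxlen, by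
    rw [mix_reverse]; simpa using h.minmix⟩

theorem exists_opt (hQ : Clq G Q) {k : ℕ} (hk : Q.card ≤ k) : ∃ p, Opt G Q k p := by
  classical
  let P : ℕ → Prop := fun n => ∃ p, QPath G Q p ∧ (∀ q ∈ Q, q ∈ p) ∧ p.length = n
  have h0 : P Q.card := ⟨Q.toList, qpath_of_subset hQ Q.nodup_toList (by simp), by simp, by simp⟩
  have h1 := Nat.findGreatest_spec (P := P) hk h0
  have h2 : ∃ m, ∃ p, QPath G Q p ∧ (∀ q ∈ Q, q ∈ p) ∧ p.length = Nat.findGreatest P k ∧
      mix Q p = m := by
    obtain ⟨p, a1, a2, a3⟩ := h1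
    exact ⟨_, p, a1, a2, a3, rfl⟩
  obtain ⟨p, a1, a2, a3, a4⟩ := Nat.find_spec h2
  refine ⟨p, a1, a2, a3 ▸ Nat.findGreatest_le k, ?_, ?_⟩
  · intro p' b1 b2 b3
    rw [a3]
    exact Nat.le_findGreatest b3 ⟨p', b1, b2, rfl⟩
  · intro p' b1 b2 b3
    rw [a4]
    exact Nat.find_min' h2 ⟨p', b1, b2, b3.trans a3, rfl⟩

theorem Opt.not_bad {k : ℕ} (h : Hyp G k) (hQ : Clq G Q) {p p' : List V} (ho : Opt G Q k p)
    (hp : QPath G Q p') (hc : ∀ q ∈ Q, q ∈ p') {l : List ℕ} (hl : QA Q p' l)
    (hlt : p.length < p'.length) : k + 1 < p'.length ∧ k + 1 < 2 * npos l + l.sum := by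
  have hk := h.three_le
  have h1 : k < p'.length := by
    by_contra h1
    have := ho.maxlen p' hp hc (by omega)
    omega
  constructor
  · by_contra h2
    have h3 := hp.hasCyc hQ (by omega)
    rw [show p'.length = k + 1 by omega] at h3
    exact h.noCyc h3
  · by_contra h2
    obtain ⟨p'', -, a2, a3, a4⟩ := hl.trim hQ hp.nodup hp.chain
    have e1 := hl.length
    have e2 := hl.cq_eq
    rw [cq_eq_card hp.nodup hc] at e2
    exact h.noCyc (a2.hasCyc_ext hQ (by omega) (by omega) (by omega))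

theorem Opt.lemmaA {k : ℕ} (h : Hyp G k) (hQ : Clq G Q) (h5 : 5 ≤ Q.card)
    (h2 : k + 1 ≤ 2 * Q.card) {p : List V} (ho : Opt G Q k p) :
    ∀ m, 1 ≤ m → m ≤ 4 → ∀ p', QPath G Q p' → (∀ q ∈ Q, q ∈ p') → p'.length = p.length + m →
      mix Q p' ≤ mix Q p → False := by
  intro m
  induction m using Nat.strong_induction_on with
  | _ m ih =>
  intro m1 m4 p' hp hc hlen hmix
  obtain ⟨l, hl⟩ := hp.exists_QA (by rintro rfl; simp at hlen; omega)
  by_cases hex : ∃ c ∈ l, 0 < c ∧ c ≤ m
  · obtain ⟨c, hcl, c0, cm⟩ := hex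
    obtain ⟨p'', l'', a1, a2, -, a4, a5, a6, a7⟩ := hl.delete hQ hp.nodup hp.chain hcl c0
    have hp'' : QPath G Q p'' := ⟨hp.nodup.sublist a2, a4, a1.head?, a1.last⟩
    have e1 := a1.mix_eq
    have e2 := hl.mix_eq
    by_cases hcm : c = m
    · have := ho.minmix p'' hp'' (fun q hq => a5 q hq (hc q hq)) (by omega)
      omega
    · exact ih (m - c) (by omega) (by omega) (by omega) p'' hp'' (fun q hq => a5 q hq (hc q hq))
        (by omega) (by omega)
  · have e0 := npos_mul_le (m + 1) l (by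
      intro c hcl
      by_contra hcon
      exact hex ⟨c, hcl, by omega, by omega⟩)
    obtain ⟨b1, b2⟩ := ho.not_bad h hQ hp hc hl (by omega)
    have e1 := hl.length
    have e2 := hl.cq_eq
    rw [cq_eq_card hp.nodup hc] at e2
    have e3 := ho.short
    interval_cases m <;> omega

theorem Opt.lemmaB [Fintype V] {k : ℕ} (h : Hyp G k) (hQ : Clq G Q) (ht : ClqBound G Q.card)
    (h5 : 5 ≤ Q.card) (h2 : k + 1 ≤ 2 * Q.card) {p : List V} (ho : Opt G Q k p) {r : ℕ}
    (r1 : 1 ≤ r) (r4 : r ≤ 4) {p' : List V} (hp : QPath G Q p') (hc : ∀ q ∈ Q, q ∈ p')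
    (hlen : p'.length = p.length + r) (hmix : mix Q p' ≤ mix Q p + 2) :
    r = 2 ∧ p.length = k := by
  obtain ⟨l, hl⟩ := hp.exists_QA (by rintro rfl; simp at hlen; omega)
  by_cases hex : ∃ c ∈ l, 0 < c ∧ c < r
  · obtain ⟨c, hcl, c0, cm⟩ := hex
    obtain ⟨p'', l'', a1, a2, -, a4, a5, a6, a7⟩ := hl.delete hQ hp.nodup hp.chain hcl c0
    have hp'' : QPath G Q p'' := ⟨hp.nodup.sublist a2, a4, a1.head?, a1.last⟩
    have e1 := a1.mix_eq
    have e2 := hl.mix_eq
    exact (ho.lemmaA h hQ h5 h2 (r - c) (by omega) (by omega) p'' hp''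
      (fun q hq => a5 q hq (hc q hq)) (by omega) (by omega)).elim
  · have hall : ∀ c ∈ l, c = 0 ∨ r ≤ c := by
      intro c hcl
      by_contra hcon
      exact hex ⟨c, hcl, by omega, by omega⟩
    have e0 := npos_mul_le r l hall
    obtain ⟨b1, b2⟩ := ho.not_bad h hQ hp hc hl (by omega)
    have e1 := hl.length
    have e2 := hl.cq_eq
    rw [cq_eq_card hp.nodup hc] at e2
    have e3 := ho.short
    have hcon := hl.contains hQ hp
    rw [e1, ← e2] at hcon
    have hsp := fun hm => h.sporadic (L := l.sum) (r := r) (e := npos l) ht hm e2.symm rfl hall rfl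
      hcon
    interval_cases r
    · omega
    · omega
    · exact (hsp (by omega)).elim
    · exact (hsp (by omega)).elim

theorem Opt.conn [Fintype V] {k : ℕ} (h : Hyp G k) (hQ : Clq G Q) (ht : ClqBound G Q.card)
    (h5 : 5 ≤ Q.card) (h2 : k + 1 ≤ 2 * Q.card) {p : List V} (ho : Opt G Q k p) {z z' : V}
    (hz : z ∈ Zm Q p) (hz' : z' ∈ Zm Q p) (hne : z ≠ z') {r : ℕ} (r1 : 1 ≤ r) (r4 : r ≤ 4)
    (hc : Conn G p.toFinset z z' r) :
    r = 2 ∧ p.length = k ∧ z ∈ Q ∧ z' ∈ Q ∧
      ∀ w ∈ Zm Q p, w ∈ Zm Q p.reverse → w = z ∨ w = z' := by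
  have hQW : Q ⊆ p.toFinset := fun q hq => List.mem_toFinset.2 (ho.cover q hq)
  obtain ⟨p', a1, a2, a3, a4, a5⟩ := surgery hQ ho.path (mem_Zm.1 hz) (mem_Zm.1 hz') hne
    (fun x hx => List.mem_toFinset.2 hx) hQW r1 hc
  have hcov : ∀ q ∈ Q, q ∈ p' := fun q hq => a2 q (ho.cover q hq)
  obtain ⟨rfl, hk⟩ := ho.lemmaB h hQ ht h5 h2 r1 r4 a1 hcov a3 a4
  have hzz : ¬ (z ∉ Q ∨ z' ∉ Q) := fun hh => ho.lemmaA h hQ h5 h2 2 r1 r4 p' a1 hcov a3 (a5 hh)
  push Not at hzz
  refine ⟨rfl, hk, hzz.1, hzz.2, ?_⟩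
  intro w hw hw'
  by_contra hcon
  push Not at hcon
  obtain ⟨p1, b1, b2, b3, b4⟩ := remove_free hQ ho.path (mem_Zm.1 hw) (mem_Zm.1 hw')
  obtain ⟨p2, c1, -, c3, -, -⟩ := surgery hQ b1 (b4 z hcon.1.symm (mem_Zm.1 hz))
    (b4 z' hcon.2.symm (mem_Zm.1 hz')) hne (fun x hx => List.mem_toFinset.2 (b2 x hx)) hQW r1 hc
  have h3 := c1.hasCyc hQ (by omega)
  rw [show p2.length = k + 1 by omega] at h3
  exact h.noCyc h3

end Crest.Agent.R54
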