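import Crest.Agent.R54.Defs

set_option autoImplicit false

namespace Crest.Agent.R54

variable {V : Type} {G : SimpleGraph V}

/-- A path inside the finset `S`. -/
def PathIn (G : SimpleGraph V) (S : Finset V) (l : List V) : Prop :=
  l.Nodup ∧ List.IsChain G.Adj l ∧ ∀ x ∈ l, x ∈ S

theorem PathIn.length_le {S : Finset V} {l : List V} (h : PathIn G S l) : l.length ≤ S.card := by
  classical
  rw [← List.toFinset_card_of_nodup h.1]
  exact Finset.card_le_card (fun x hx => h.2.2 x (List.mem_toFinset.1 hx))

/-- Rotation lemma, list form. -/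
theorem posa_list (S : Finset V) (hS : S.Nonempty) :
    ∃ (v : V) (A : List V), PathIn G S (v :: A) ∧ (A = [] ∨ ∃ w, A.getLast? = some w ∧ G.Adj w v) ∧
      (∀ x ∈ S, G.Adj v x → x ∈ v :: A) ∧
      (∀ (A1 : List V) (w y : V) (A2 : List V), v :: A = A1 ++ w :: y :: A2 → G.Adj v y →
        ∀ x ∈ S, G.Adj w x → x ∈ v :: A) := by
  classical
  obtain ⟨v0, hv0⟩ := hS
  -- longest path length
  have hex : ∃ m, ∃ l, PathIn G S l ∧ l.length = S.card - m :=
    ⟨S.card - 1, [v0], ⟨by simp, by simp, by simpa using hv0⟩, by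
      have := Finset.card_pos.2 ⟨v0, hv0⟩; simp; omega⟩
  obtain ⟨l0, hl0, hlen0⟩ := Nat.find_spec hex
  have hmax : ∀ l, PathIn G S l → l.length ≤ l0.length := by
    intro l hl
    have h1 := hl.length_le
    have h2 : Nat.find hex ≤ S.card - l.length := Nat.find_min' hex ⟨l, hl, by omega⟩
    omega
  have hl0ne : l0 ≠ [] := by
    intro h
    have := hmax [v0] ⟨by simp, by simp, by simpa using hv0⟩
    simp [h] at this
  -- best decomposition
  let P : ℕ → Prop := fun m => ∃ (v : V) (A B : List V), PathIn G S (v :: A ++ B) ∧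
    (v :: A ++ B).length = l0.length ∧ (A = [] ∨ ∃ w, A.getLast? = some w ∧ G.Adj w v) ∧
    B.length = m
  have hexP : ∃ m, P m := by
    obtain ⟨v, B, rfl⟩ := List.exists_cons_of_ne_nil hl0ne
    exact ⟨B.length, v, [], B, by simpa using hl0, by simp, Or.inl rfl, rfl⟩
  obtain ⟨v, A, B, hp, hlen, hcl, hB⟩ := Nat.find_spec hexP
  -- key: any longest path `w :: A' ++ B` with the same tail has all neighbours of `w` in `w :: A'`
  have key : ∀ (w : V) (A' : List V), PathIn G S (w :: A' ++ B) →
      (w :: A' ++ B).length = l0.length → ∀ x ∈ S, G.Adj w x → x ∈ w :: A' := by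
    intro w A' hp' hlen' x hxS hwx
    by_contra hx
    by_cases hxB : x ∈ B
    · obtain ⟨B1, B2, rfl⟩ := List.append_of_mem hxB
      have : P B2.length := by
        refine ⟨w, A' ++ B1 ++ [x], B2, by simpa using hp', by simpa using hlen', Or.inr ⟨x, by simp, hwx.symm⟩, rfl⟩
      have h2 := Nat.find_min' hexP this
      rw [← hB] at h2
      simp at h2
      omega
    · have : PathIn G S (x :: (w :: A' ++ B)) := by
        refine ⟨List.nodup_cons.2 ⟨?_, hp'.1⟩, ?_, ?_⟩
        · intro hm
          rcases List.mem_append.1 hm with hm | hm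
          · exact hx hm
          · exact hxB hm
        · rw [List.cons_append, List.isChain_cons_cons]
          exact ⟨hwx.symm, by simpa using hp'.2.1⟩
        · intro y hy
          rcases List.mem_cons.1 hy with rfl | hy
          · exact hxS
          · exact hp'.2.2 y hy
      have h2 := hmax _ this
      rw [List.length_cons, hlen'] at h2
      omega
  have hpA : PathIn G S (v :: A) :=
    ⟨hp.1.of_append_left, hp.2.1.left_of_append, fun x hx => hp.2.2 x (List.mem_append_left _ hx)⟩
  refine ⟨v, A, hpA, hcl, key v A hp hlen, ?_⟩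
  intro A1 w y A2 heq hvy x hxS hwx
  -- the rotated path
  have hperm : (w :: (A1.reverse ++ y :: A2)).Perm (v :: A) := by
    rw [heq]
    have : (w :: (A1.reverse ++ y :: A2)).Perm (w :: (A1 ++ y :: A2)) :=
      List.Perm.cons _ (List.Perm.append_right _ (List.reverse_perm _))
    exact this.trans List.perm_middle.symm
  have hch := hp.2.1
  rw [heq] at hch
  have hrot : PathIn G S (w :: (A1.reverse ++ y :: A2) ++ B) := by
    refine ⟨?_, ?_, ?_⟩
    · exact (List.Perm.append_right B hperm).nodup_iff.2 hp.1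
    · have h1 : List.IsChain G.Adj (A1 ++ [w]) := by
        have : A1 ++ w :: y :: A2 ++ B = (A1 ++ [w]) ++ (y :: A2 ++ B) := by simp
        rw [this] at hch
        exact hch.left_of_append
      have h2 : List.IsChain G.Adj (y :: A2 ++ B) := by
        have : A1 ++ w :: y :: A2 ++ B = (A1 ++ [w]) ++ (y :: A2 ++ B) := by simp
        rw [this] at hch
        exact hch.right_of_append
      have h3 := isChain_rev h1
      have : w :: (A1.reverse ++ y :: A2) ++ B = (A1 ++ [w]).reverse ++ (y :: A2 ++ B) := by simp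
      rw [this]
      refine h3.append h2 ?_
      intro a ha b hb
      simp only [List.getLast?_reverse] at ha
      have hv : (A1 ++ [w]).head? = some v := by
        have := congrArg List.head? heq
        cases A1 <;> simp_all
      rw [hv] at ha
      simp at ha hb
      subst ha; subst hb
      exact hvy
    · intro z hz
      exact hp.2.2 z ((List.Perm.append_right B hperm).mem_iff.1 hz)
  have := key w _ hrot (by rw [← hlen]; exact (List.Perm.append_right B hperm).length_eq) x hxS hwx
  exact hperm.mem_iff.1 this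

/-- The data of a cycle given by a function. -/
structure CycFun (G : SimpleGraph V) (S : Finset V) (n : ℕ) (c : ℕ → V) : Prop where
  inj : ∀ i < n, ∀ j < n, c i = c j → i = j
  mem : ∀ i < n, c i ∈ S
  adj : ∀ i, i + 1 < n → G.Adj (c i) (c (i + 1))
  close : G.Adj (c (n - 1)) (c 0)

/-- The Pósa step: either some closed neighbourhood inside `S` lies in a clique, or two
non-adjacent vertices have all their `S`-neighbours on a cycle. -/
theorem posa_step (S : Finset V) (hS : S.Nonempty) :
    (∃ v ∈ S, ∃ K ⊆ S, Clq G K ∧ v ∈ K ∧ ∀ x ∈ S, G.Adj v x → x ∈ K) ∨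
    (∃ (n : ℕ) (c : ℕ → V) (p q : ℕ), CycFun G S n c ∧ p < q ∧ q + 1 < n ∧
      G.Adj (c 0) (c (p + 1)) ∧ G.Adj (c 0) (c (q + 1)) ∧ ¬ G.Adj (c p) (c q) ∧
      ∀ x ∈ S, (G.Adj (c p) x ∨ G.Adj (c q) x) → ∃ i < n, x = c i) := by
  classical
  obtain ⟨v, A, hp, hcl, hv, hrot⟩ := posa_list (G := G) S hS
  rcases hcl with rfl | ⟨w, hw, hwv⟩
  · left
    refine ⟨v, hp.2.2 v (by simp), {v}, by simpa using hp.2.2 v (by simp), ?_, by simp, ?_⟩
    · intro a ha b hb hab; simp at ha hb; exact absurd (ha.trans hb.symm) hab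
    · intro x hx hvx; simpa using hv x hx hvx
  set l := v :: A with hl
  set n := l.length with hn
  let c : ℕ → V := fun i => l.getD i v
  have hc : ∀ i (hi : i < n), c i = l[i] := by
    intro i hi; simp [c, List.getD_eq_getElem?_getD, List.getElem?_eq_getElem hi]
  have hc0 : c 0 = v := by simp [c, hl]
  have hAne : A ≠ [] := by rintro rfl; simp at hw
  have hn2 : 2 ≤ n := by
    have := List.length_pos_iff.2 hAne
    simp [hn, hl]; omega
  have hmemc : ∀ x ∈ l, ∃ i < n, x = c i := by
    intro x hx
    obtain ⟨i, hi, rfl⟩ := List.getElem_of_mem hx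
    exact ⟨i, hi, (hc i hi).symm⟩
  have hcyc : CycFun G S n c := by
    refine ⟨?_, ?_, ?_, ?_⟩
    · intro i hi j hj hij
      rw [hc i hi, hc j hj] at hij
      exact (List.Nodup.getElem_inj_iff hp.1).1 hij
    · intro i hi; rw [hc i hi]; exact hp.2.2 _ (List.getElem_mem _)
    · intro i hi; rw [hc i (by omega), hc (i+1) hi]; exact hp.2.1.getElem i hi
    · rw [hc0, hc (n-1) (by omega)]
      have h1 : l.getLast? = some w := by
        rw [hl, List.getLast?_cons_of_ne_nil hAne]; exact hw
      rw [List.getLast?_eq_getElem?, List.getElem?_eq_getElem (by omega)] at h1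
      simp at h1
      rw [h1]; exact hwv
  have hU : ∀ i, i + 1 < n → G.Adj (c 0) (c (i + 1)) → ∀ x ∈ S, G.Adj (c i) x → ∃ j < n, x = c j := by
    intro i hi hadj x hx hix
    refine hmemc x (hrot (l.take i) (c i) (c (i+1)) (l.drop (i+2)) ?_ (hc0 ▸ hadj) x hx hix)
    rw [hc i (by omega), hc (i+1) hi]
    conv_lhs => rw [← List.take_append_drop i l]
    rw [List.drop_eq_getElem_cons (by omega : i < l.length), List.drop_eq_getElem_cons (by omega : i + 1 < l.length)]
  by_cases hcase : ∃ p q, p < q ∧ q + 1 < n ∧ G.Adj (c 0) (c (p + 1)) ∧ G.Adj (c 0) (c (q + 1)) ∧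
      ¬ G.Adj (c p) (c q)
  · obtain ⟨p, q, hpq, hq, h1, h2, h3⟩ := hcase
    right
    refine ⟨n, c, p, q, hcyc, hpq, hq, h1, h2, h3, ?_⟩
    rintro x hx (h | h)
    · exact hU p (by omega) h1 x hx h
    · exact hU q hq h2 x hx h
  left
  push Not at hcase
  have hall : ∀ d, d + 1 < n → G.Adj (c 0) (c (n - 1 - d)) := by
    intro d
    induction d with
    | zero => intro _; simpa using hcyc.close.symm
    | succ d ih =>
      intro hd
      have h1 := ih (by omega)
      have h2 := hcase 0 (n - 1 - (d+1)) (by omega) (by omega) (hcyc.adj 0 (by omega))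
        (by rwa [show n - 1 - (d + 1) + 1 = n - 1 - d by omega])
      exact h2
  have hall' : ∀ i, i + 1 < n → G.Adj (c 0) (c (i + 1)) := by
    intro i hi
    have := hall (n - 1 - (i+1)) (by omega)
    rwa [show n - 1 - (n - 1 - (i + 1)) = i + 1 by omega] at this
  have hclq : ∀ i j, i + 1 < n → j + 1 < n → i ≠ j → G.Adj (c i) (c j) := by
    intro i j hi hj hij
    rcases lt_or_gt_of_ne hij with h | h
    · exact hcase i j h hj (hall' i hi) (hall' j hj)
    · exact (hcase j i h hi (hall' j hj) (hall' i hi)).symm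
  by_cases hlast : ∀ i, i + 1 < n → G.Adj (c i) (c (n - 1))
  · refine ⟨c 0, hcyc.mem 0 (by omega), (Finset.range n).image c, ?_, ?_, ?_, ?_⟩
    · intro x hx
      obtain ⟨i, hi, rfl⟩ := Finset.mem_image.1 hx
      exact hcyc.mem i (Finset.mem_range.1 hi)
    · intro a ha b hb hab
      obtain ⟨i, hi, rfl⟩ := Finset.mem_image.1 ha
      obtain ⟨j, hj, rfl⟩ := Finset.mem_image.1 hb
      rw [Finset.mem_range] at hi hj
      have hij : i ≠ j := by rintro rfl; exact hab rfl
      by_cases h1 : i + 1 < n <;> by_cases h2 : j + 1 < n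
      · exact hclq i j h1 h2 hij
      · rw [show j = n - 1 by omega]; exact hlast i h1
      · rw [show i = n - 1 by omega]; exact (hlast j h2).symm
      · omega
    · exact Finset.mem_image.2 ⟨0, Finset.mem_range.2 (by omega), rfl⟩
    · intro x hx h0
      obtain ⟨j, hj, rfl⟩ := hU 0 (by omega) (hall' 0 (by omega)) x hx h0
      exact Finset.mem_image.2 ⟨j, Finset.mem_range.2 hj, rfl⟩
  · push Not at hlast
    obtain ⟨i, hi, hni⟩ := hlast
    refine ⟨c i, hcyc.mem i (by omega), (Finset.range (n-1)).image c, ?_, ?_, ?_, ?_⟩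
    · intro x hx
      obtain ⟨i, hi, rfl⟩ := Finset.mem_image.1 hx
      exact hcyc.mem i (by have := Finset.mem_range.1 hi; omega)
    · intro a ha b hb hab
      obtain ⟨i, hi, rfl⟩ := Finset.mem_image.1 ha
      obtain ⟨j, hj, rfl⟩ := Finset.mem_image.1 hb
      rw [Finset.mem_range] at hi hj
      have hij : i ≠ j := by rintro rfl; exact hab rfl
      exact hclq i j (by omega) (by omega) hij
    · exact Finset.mem_image.2 ⟨i, Finset.mem_range.2 (by omega), rfl⟩
    · intro x hx h0
      obtain ⟨j, hj, rfl⟩ := hU i hi (hall' i hi) x hx h0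
      refine Finset.mem_image.2 ⟨j, Finset.mem_range.2 ?_, rfl⟩
      by_contra hj'
      exact hni (by rwa [show n - 1 = j by omega])

/-- From a local removal step to a global ratio bound. -/
theorem ratio_of_step (c : ℕ) (S : Finset V)
    (hstep : ∀ S' ⊆ S, S'.Nonempty → ∃ I T : Finset V, I ⊆ S' ∧ I.Nonempty ∧ Indep G I ∧ I ⊆ T ∧
      (∀ x ∈ S', ∀ u ∈ I, G.Adj u x → x ∈ T) ∧ 2 * T.card ≤ c * I.card) :
    ∃ J ⊆ S, Indep G J ∧ 2 * S.card ≤ c * J.card := by
  classical
  induction S using Finset.strongInduction with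
  | H S ih =>
    rcases S.eq_empty_or_nonempty with rfl | hS
    · exact ⟨∅, by simp, indep_empty, by simp⟩
    obtain ⟨I, T, hIS, hIne, hI, hIT, hT, hcard⟩ := hstep S (Finset.Subset.refl _) hS
    have hss : S \ T ⊂ S := by
      refine Finset.ssubset_iff_subset_ne.2 ⟨Finset.sdiff_subset, ?_⟩
      intro h
      obtain ⟨u, hu⟩ := hIne
      have : u ∈ S \ T := by rw [h]; exact hIS hu
      exact (Finset.mem_sdiff.1 this).2 (hIT hu)
    obtain ⟨J, hJS, hJ, hJc⟩ := ih (S \ T) hss (fun S' hS' => hstep S' (hS'.trans Finset.sdiff_subset))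
    have hdisj : Disjoint I J := by
      rw [Finset.disjoint_left]
      intro u hu huJ
      exact (Finset.mem_sdiff.1 (hJS huJ)).2 (hIT hu)
    refine ⟨I ∪ J, Finset.union_subset hIS (hJS.trans Finset.sdiff_subset), hI.union hJ ?_, ?_⟩
    · intro u hu x hx hux
      have := Finset.mem_sdiff.1 (hJS hx)
      exact this.2 (hT x this.1 u hu hux)
    · rw [Finset.card_union_of_disjoint hdisj, mul_add]
      have := Finset.le_card_sdiff T S
      omega

theorem CycFun.pathIn {S : Finset V} {n : ℕ} {c : ℕ → V} (h : CycFun G S n c) (a m : ℕ)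
    (ham : a + m ≤ n) : PathIn G S ((List.range m).map (fun i => c (a + i))) := by
  refine ⟨?_, ?_, ?_⟩
  · refine List.Nodup.map_on ?_ List.nodup_range
    intro i hi j hj hij
    have hi := List.mem_range.1 hi
    have hj := List.mem_range.1 hj
    have := h.inj (a + i) (by omega) (a + j) (by omega) hij
    omega
  · rw [List.isChain_map, List.isChain_range]
    intro i hi
    exact h.adj (a + i) (by omega)
  · intro x hx
    obtain ⟨i, hi, rfl⟩ := List.mem_map.1 hx
    have hi := List.mem_range.1 hi
    exact h.mem _ (by omega)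

/-- Ratio bound for sets without large cliques and without long paths. -/
theorem ratio_pathfree (S : Finset V) (t s : ℕ) (hclq : ∀ K ⊆ S, Clq G K → K.card ≤ t)
    (hpath : ∀ l, PathIn G S l → l.length ≤ s) :
    ∃ J ⊆ S, Indep G J ∧ 2 * S.card ≤ max (2 * t) s * J.card := by
  classical
  refine ratio_of_step _ S ?_
  intro S' hS' hne
  rcases posa_step (G := G) S' hne with ⟨v, hv, K, hKS, hK, hvK, hnb⟩ | ⟨n, c, p, q, hc, hpq, hq, -, -, hna, hnb⟩
  · refine ⟨{v}, K, by simpa using hv, by simp, indep_singleton v, by simpa using hvK, ?_, ?_⟩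
    · intro x hx u hu hux
      simp at hu; subst hu
      exact hnb x hx hux
    · have := hclq K (hKS.trans hS') hK
      have := le_max_left (2 * t) s
      simp only [Finset.card_singleton]; omega
  · have hne' : c p ≠ c q := fun h => by have := hc.inj p (by omega) q (by omega) h; omega
    refine ⟨{c p, c q}, (Finset.range n).image c, ?_, by simp, indep_pair hna, ?_, ?_, ?_⟩
    · intro x hx
      simp at hx
      rcases hx with rfl | rfl
      · exact hc.mem p (by omega)
      · exact hc.mem q (by omega)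
    · intro x hx
      simp at hx
      rcases hx with rfl | rfl
      · exact Finset.mem_image.2 ⟨p, Finset.mem_range.2 (by omega), rfl⟩
      · exact Finset.mem_image.2 ⟨q, Finset.mem_range.2 (by omega), rfl⟩
    · intro x hx u hu hux
      simp at hu
      obtain ⟨i, hi, rfl⟩ := hnb x hx (by rcases hu with rfl | rfl <;> simp [hux])
      exact Finset.mem_image.2 ⟨i, Finset.mem_range.2 hi, rfl⟩
    · have h1 := hc.pathIn 0 n (by omega)
      have h2 := hpath _ ⟨h1.1, h1.2.1, fun x hx => hS' (h1.2.2 x hx)⟩
      have h3 : ((Finset.range n).image c).card ≤ n := by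
        simpa using Finset.card_image_le (s := Finset.range n) (f := c)
      have := le_max_right (2 * t) s
      rw [Finset.card_pair hne']
      simp at h2
      omega

/-- Ratio bound inside the neighbourhood of a vertex. -/
theorem Hyp.ratio_nbhd {k t : ℕ} (h : Hyp G k) (ht : ClqBound G t) (v : V) (S : Finset V)
    (hS : ∀ x ∈ S, G.Adj v x) :
    ∃ J ⊆ S, Indep G J ∧ 2 * S.card ≤ max (2 * (t - 1)) (k - 1) * J.card := by
  classical
  refine ratio_pathfree S (t - 1) (k - 1) ?_ ?_
  · intro K hKS hK
    have h1 := ht (insert v K) (hK.insert (fun u hu => hS u (hKS hu)))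
    rw [Finset.card_insert_of_notMem (fun hv => G.irrefl (hS v (hKS hv)))] at h1
    omega
  · intro l hl
    by_contra hlen
    have hk := h.three_le
    have h1 : (l.take k).length = k := by simp; omega
    apply h.noCyc
    rw [← h1]
    refine hasCyc_of_path_in_nbhd (v := v) (hl.1.sublist (List.take_sublist _ _)) (hl.2.1.take k) ?_ ?_
    · intro x hx; exact hS x (hl.2.2 x (List.mem_of_mem_take hx))
    · intro h0; rw [h0] at h1; simp at h1; omega

end Crest.Agent.R54
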