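import Crest.Agent.R54.BigClique

set_option autoImplicit false

namespace Crest.Agent.R54

variable {V : Type} {G : SimpleGraph V}

theorem clq_three [DecidableEq V] {a b c : V} (hab : G.Adj a b) (hac : G.Adj a c)
    (hbc : G.Adj b c) : Clq G {a, b, c} ∧ ({a, b, c} : Finset V).card = 3 := by
  refine ⟨?_, Finset.card_eq_three.2 ⟨a, b, c, hab.ne, hac.ne, hbc.ne, rfl⟩⟩
  intro u hu w hw huw
  simp only [Finset.mem_insert, Finset.mem_singleton] at hu hw
  rcases hu with rfl | rfl | rfl <;> rcases hw with rfl | rfl | rfl <;>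
    first | exact absurd rfl huw | assumption | (apply SimpleGraph.Adj.symm; assumption)

theorem no_K4 (h : ClqBound G 3) {a b c d : V} (hab : G.Adj a b) (hac : G.Adj a c)
    (hbc : G.Adj b c) (hda : G.Adj d a) (hdb : G.Adj d b) (hdc : G.Adj d c) : False := by
  classical
  obtain ⟨h1, h2⟩ := clq_three hab hac hbc
  have h3 := h (insert d {a, b, c}) (h1.insert (by
    intro u hu
    simp only [Finset.mem_insert, Finset.mem_singleton] at hu
    rcases hu with rfl | rfl | rfl <;> assumption))
  rw [Finset.card_insert_of_notMem (by simp [hda.ne, hdb.ne, hdc.ne]), h2] at h3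
  omega

theorem indep_three [DecidableEq V] {a b c : V} (hab : ¬ G.Adj a b) (hac : ¬ G.Adj a c)
    (hbc : ¬ G.Adj b c) : Indep G {a, b, c} :=
  (indep_pair hbc).insert (by
    intro u hu
    simp only [Finset.mem_insert, Finset.mem_singleton] at hu
    rcases hu with rfl | rfl <;> assumption)

theorem Hyp.not_clqBound_two [Fintype V] {k : ℕ} (h : Hyp G k) (v : V) : ¬ ClqBound G 2 := by
  classical
  intro h2
  have hk := h.three_le
  have tri : ∀ a b c, G.Adj a b → G.Adj a c → G.Adj b c → False := by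
    intro a b c hab hac hbc
    obtain ⟨h1, h3⟩ := clq_three hab hac hbc
    have := h2 _ h1
    omega
  let N : V → Finset V := fun u => Finset.univ.filter (G.Adj u)
  have hN : ∀ u x, x ∈ N u ↔ G.Adj u x := by simp [N]
  have hNi : ∀ u, Indep G (N u) := fun u x hx y hy hxy =>
    tri u x y ((hN _ _).1 hx) ((hN _ _).1 hy) hxy
  have hNc : ∀ u, (N u).card = k := fun u =>
    le_antisymm (h.indep_le _ (hNi u)) (h.deg' u _ (fun x hx => (hN _ _).2 hx))
  have hne : (N v).Nonempty := Finset.card_pos.1 (by rw [hNc]; omega)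
  have hNe : ∀ u ∈ N v, ((N u).erase v).card = k - 1 := by
    intro u hu
    rw [Finset.card_erase_of_mem ((hN _ _).2 ((hN _ _).1 hu).symm), hNc]
  have huniq : ∀ y, y ≠ v → ∀ u1 ∈ N v, ∀ u2 ∈ N v, G.Adj u1 y → G.Adj u2 y → u1 = u2 := by
    intro y hy u1 hu1 u2 hu2 h1 h2'
    by_contra hne12
    have hexp := h.expand (N v) (insert v (N v ∪ (((N u1).erase v).erase y ∪
      ((N v).erase u1).biUnion (fun u => (N u).erase v)))) hne (hNi v) (by
        rintro x (hx | ⟨u, hu, hux⟩)
        · simp [hx]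
        · by_cases hxv : x = v
          · simp [hxv]
          refine Finset.mem_insert_of_mem (Finset.mem_union_right _ ?_)
          by_cases hxy : x = y
          · refine Finset.mem_union_right _ (Finset.mem_biUnion.2 ⟨u2, ?_, ?_⟩)
            · exact Finset.mem_erase.2 ⟨Ne.symm hne12, hu2⟩
            · exact Finset.mem_erase.2 ⟨hxv, (hN _ _).2 (hxy ▸ h2')⟩
          by_cases huu : u = u1
          · subst huu
            exact Finset.mem_union_left _
              (Finset.mem_erase.2 ⟨hxy, Finset.mem_erase.2 ⟨hxv, (hN _ _).2 hux⟩⟩)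
          · exact Finset.mem_union_right _ (Finset.mem_biUnion.2 ⟨u, Finset.mem_erase.2 ⟨huu, hu⟩,
              Finset.mem_erase.2 ⟨hxv, (hN _ _).2 hux⟩⟩))
    have c1 := Finset.card_insert_le v (N v ∪ (((N u1).erase v).erase y ∪
      ((N v).erase u1).biUnion (fun u => (N u).erase v)))
    have c2 := Finset.card_union_le (N v) (((N u1).erase v).erase y ∪
      ((N v).erase u1).biUnion (fun u => (N u).erase v))
    have c3 := Finset.card_union_le (((N u1).erase v).erase y)
      (((N v).erase u1).biUnion (fun u => (N u).erase v))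
    have c4 : (((N u1).erase v).erase y).card = k - 1 - 1 := by
      rw [Finset.card_erase_of_mem (Finset.mem_erase.2 ⟨hy, (hN _ _).2 h1⟩), hNe u1 hu1]
    have c5 : (((N v).erase u1).biUnion (fun u => (N u).erase v)).card ≤ (k - 1) * (k - 1) := by
      refine le_trans Finset.card_biUnion_le ?_
      rw [Finset.sum_congr rfl (fun u hu => hNe u (Finset.mem_of_mem_erase hu))]
      simp [Finset.card_erase_of_mem hu1, hNc]
    rw [hNc] at hexp c2
    obtain ⟨m, rfl⟩ : ∃ m, k = m + 2 := ⟨k - 2, by omega⟩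
    simp only [show m + 2 - 1 = m + 1 by omega, show m + 1 - 1 = m by omega] at c4 c5
    nlinarith
  obtain ⟨u1, hu1⟩ := hne
  have hind : Indep G ((N u1).erase v ∪ (N v).erase u1) := by
    refine ((hNi u1).mono (Finset.erase_subset _ _)).union
      ((hNi v).mono (Finset.erase_subset _ _)) ?_
    intro x hx u hu hxu
    obtain ⟨hx1, hx2⟩ := Finset.mem_erase.1 hx
    obtain ⟨hu1', hu2⟩ := Finset.mem_erase.1 hu
    exact hu1' (huniq x hx1 u hu2 u1 hu1 hxu.symm ((hN _ _).1 hx2))
  have := h.indep_le _ hind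
  rw [Finset.card_union_of_disjoint (by
    rw [Finset.disjoint_left]
    intro x hx hx'
    exact tri v u1 x ((hN _ _).1 hu1) ((hN _ _).1 (Finset.mem_of_mem_erase hx'))
      ((hN _ _).1 (Finset.mem_of_mem_erase hx))), hNe u1 hu1, Finset.card_erase_of_mem hu1,
    hNc] at this
  omega

theorem card_ballF_two [Fintype V] (v : V) :
    (ballF G v 2).card ≤ 1 + (layerF G v 1).card + (layerF G v 2).card := by
  have h1 := card_ballF_succ (G := G) v 0
  have h2 := card_ballF_succ (G := G) v 1
  rw [card_ballF_zero] at h1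
  simp only [zero_add] at h1
  norm_num at h2
  omega

theorem Hyp.indep_layer_two [Fintype V] {k : ℕ} (h : Hyp G k) (v : V) (J : Finset V)
    (hJ : J ⊆ layerF G v 2) (hI : Indep G J) : J.card + 1 ≤ k := by
  classical
  have h1 := h.indep_le (insert v J) (hI.insert (by
    intro u hu hvu
    have := (lay_one.2 hvu).unique (mem_layerF.1 (hJ hu))
    omega))
  rwa [Finset.card_insert_of_notMem (by
    intro hv
    have := (lay_zero.2 rfl).unique (mem_layerF.1 (hJ hv))
    omega)] at h1

theorem Hyp.expand_layer_one [Fintype V] {k : ℕ} (h : Hyp G k) (v : V) (J : Finset V)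
    (hJ : J ⊆ layerF G v 1) (hI : Indep G J) (hne : J.Nonempty) (T : Finset V)
    (hT : ∀ x, Near G v 2 x → (x ∈ J ∨ ∃ u ∈ J, G.Adj u x) → x ∈ T) :
    k * J.card + 1 ≤ T.card := by
  refine h.expand J T hne hI ?_
  intro x hx
  refine hT x ?_ hx
  rcases hx with hx | ⟨u, hu, hux⟩
  · exact (mem_layerF.1 (hJ hx)).1.mono (by omega)
  · exact Or.inr ⟨u, (mem_layerF.1 (hJ hu)).1, hux⟩

theorem Hyp.case53 [Fintype V] (h : Hyp G 5) (v : V) : ¬ ClqBound G 3 := by
  classical
  intro h3
  obtain ⟨par, hp⟩ := exists_isPar G v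
  obtain ⟨J1, hJ1, hI1, hc1⟩ := h.ratio_nbhd h3 v (layerF G v 1)
    (fun x hx => lay_one.1 (mem_layerF.1 hx))
  have hdeg := h.deg' v (layerF G v 1) (fun u hu => mem_layerF.2 (lay_one.2 hu))
  have two : ∀ x z y, Lay G v 2 x → Lay G v 2 z → Lay G v 2 y → x ≠ y → G.Adj x z → G.Adj z y →
      par x = par y := by
    intro x z y hx hz hy hxy hxz hzy
    by_contra hne
    apply h.noCyc
    have hx1 := hp 1 x hx
    have hy1 := hp 1 y hy
    have d21 : ∀ a b, Lay G v 2 a → Lay G v 1 b → a ≠ b := by
      rintro a b ha hb rfl; have := ha.unique hb; omega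
    have d20 : ∀ a, Lay G v 2 a → v ≠ a := by
      rintro a ha rfl; have := ha.unique (lay_zero.2 rfl); omega
    refine ⟨v, [par x, x, z, y, par y], ?_, rfl, ?_⟩
    · simp [(lay_one.1 hx1.1).ne, (lay_one.1 hy1.1).ne, d20 x hx, d20 z hz, d20 y hy, hne, hxy,
        hxz.ne, hzy.ne, (d21 x _ hx hx1.1).symm, (d21 z _ hz hx1.1).symm, (d21 y _ hy hx1.1).symm,
        d21 x _ hx hy1.1, d21 z _ hz hy1.1, d21 y _ hy hy1.1]
    · simp [lay_one.1 hx1.1, hx1.2, hxz, hzy, hy1.2.symm, (lay_one.1 hy1.1).symm]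
  obtain ⟨J2, hJ2, hI2, hc2⟩ := ratio_pathfree (G := G) (layerF G v 2) 2 4 (by
      intro K hK hclq
      by_contra hc
      obtain ⟨x, hx, y, hy, z, hz, hxy, hxz, hyz⟩ := Finset.two_lt_card.1 (by omega : 2 < K.card)
      have lx := mem_layerF.1 (hK hx)
      have ly := mem_layerF.1 (hK hy)
      have lz := mem_layerF.1 (hK hz)
      have axy := hclq x hx y hy hxy
      have axz := hclq x hx z hz hxz
      have ayz := hclq y hy z hz hyz
      have e1 := two x z y lx lz ly hxy axz ayz.symm
      have e2 := two x y z lx ly lz hxz axy ayz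
      exact no_K4 h3 axy axz ayz (hp 1 x lx).2 (e1 ▸ (hp 1 y ly).2) (e2 ▸ (hp 1 z lz).2))
    (by
      intro l hl
      by_contra hc
      match l, hl, hc with
      | x1 :: x2 :: x3 :: x4 :: x5 :: l, hl, _ =>
        obtain ⟨hnd, hch, hm⟩ := hl
        simp only [List.isChain_cons_cons] at hch
        have l1 := mem_layerF.1 (hm x1 (by simp))
        have l2 := mem_layerF.1 (hm x2 (by simp))
        have l3 := mem_layerF.1 (hm x3 (by simp))
        have l4 := mem_layerF.1 (hm x4 (by simp))
        have l5 := mem_layerF.1 (hm x5 (by simp))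
        simp only [List.nodup_cons, List.mem_cons, not_or] at hnd
        have e1 := two x1 x2 x3 l1 l2 l3 hnd.1.2.1 hch.1 hch.2.1
        have e2 := two x3 x4 x5 l3 l4 l5 hnd.2.2.1.2.1 hch.2.2.1 hch.2.2.2.1
        have hx1 := hp 1 x1 l1
        have hx5 := hp 1 x5 l5
        have d21 : ∀ a, Lay G v 2 a → par x1 ≠ a := by
          rintro a ha rfl; have := ha.unique hx1.1; omega
        apply h.noCyc
        refine ⟨par x1, [x1, x2, x3, x4, x5], ?_, rfl, ?_⟩
        · simp [d21 _ l1, d21 _ l2, d21 _ l3, d21 _ l4, d21 _ l5, hnd.1.1, hnd.1.2.1, hnd.1.2.2.1,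
            hnd.1.2.2.2.1, hnd.2.1.1, hnd.2.1.2.1, hnd.2.1.2.2.1, hnd.2.2.1.1, hnd.2.2.1.2.1,
            hnd.2.2.2.1.1]
        · have := hx5.2.symm
          rw [← e2, ← e1] at this
          simp [hx1.2, hch.1, hch.2.1, hch.2.2.1, hch.2.2.2.1, this]
      | [], _, hc => simp at hc
      | [_], _, hc => simp at hc
      | [_, _], _, hc => simp at hc
      | [_, _, _], _, hc => simp at hc
      | [_, _, _, _], _, hc => simp at hc)
  have h4 := h.indep_layer_two v J2 hJ2 hI2
  norm_num at hc1 hc2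
  have h5 := h.expand_layer_one v J1 hJ1 hI1 (Finset.card_pos.1 (by omega)) (ballF G v 2)
    (fun x hx _ => mem_ballF.2 hx)
  have h6 := card_ballF_two (G := G) v
  omega

theorem Hyp.case43 [Fintype V] (h : Hyp G 4) (v : V) : ¬ ClqBound G 3 := by
  classical
  intro h3
  have up : ∀ v x y p p', Lay G v 2 x → Lay G v 2 y → G.Adj x y → G.Adj v p → G.Adj p x →
      G.Adj v p' → G.Adj p' y → p = p' := by
    intro v x y p p' hx hy hxy hvp hpx hvp' hpy
    by_contra hne
    apply h.noCyc
    have d21 : ∀ a b, Lay G v 2 a → G.Adj v b → a ≠ b := by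
      rintro a b ha hb rfl; have := ha.unique (lay_one.2 hb); omega
    have d20 : ∀ a, Lay G v 2 a → v ≠ a := by
      rintro a ha rfl; have := ha.unique (lay_zero.2 rfl); omega
    refine ⟨v, [p, x, y, p'], ?_, rfl, ?_⟩
    · simp [hvp.ne, hvp'.ne, d20 x hx, d20 y hy, hne, hxy.ne, hpx.ne, (d21 y p hy hvp).symm,
        d21 x p' hx hvp', d21 y p' hy hvp']
    · simp [hvp, hpx, hxy, hpy.symm, hvp'.symm]
  have hnb : ∀ v (S : Finset V), (∀ x ∈ S, G.Adj v x) → ∃ J ⊆ S, Indep G J ∧ S.card ≤ 2 * J.card := by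
    intro v S hS
    obtain ⟨J, h1, h2, h4⟩ := h.ratio_nbhd h3 v S hS
    norm_num at h4
    exact ⟨J, h1, h2, by omega⟩
  have step1 : ∀ v (J : Finset V), (∀ x ∈ J, G.Adj v x) → Indep G J → J.card ≤ 2 := by
    intro v J0 hJ0 hI0
    by_contra hc0
    obtain ⟨par, hp⟩ := exists_isPar G v
    obtain ⟨J1, hJ1, hI1, hmax⟩ := exists_max_indep G (layerF G v 1)
    have ha := hmax J0 (fun x hx => mem_layerF.2 (lay_one.2 (hJ0 x hx))) hI0
    obtain ⟨J1', hJ1', hI1', hc1⟩ := hnb v (layerF G v 1) (fun x hx => lay_one.1 (mem_layerF.1 hx))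
    have hb := hmax J1' hJ1' hI1'
    obtain ⟨J2, hJ2, hI2, hc2⟩ := ratio_pathfree (G := G) (layerF G v 2) 2 3 (by
        intro K hK hclq
        by_contra hc
        obtain ⟨x, hx, y, hy, z, hz, hxy, hxz, hyz⟩ := Finset.two_lt_card.1 (by omega : 2 < K.card)
        have lx := mem_layerF.1 (hK hx)
        have ly := mem_layerF.1 (hK hy)
        have lz := mem_layerF.1 (hK hz)
        have axy := hclq x hx y hy hxy
        have axz := hclq x hx z hz hxz
        have ayz := hclq y hy z hz hyz
        have px := hp 1 x lx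
        have py := hp 1 y ly
        have pz := hp 1 z lz
        have e1 := up v x y _ _ lx ly axy (lay_one.1 px.1) px.2 (lay_one.1 py.1) py.2
        have e2 := up v x z _ _ lx lz axz (lay_one.1 px.1) px.2 (lay_one.1 pz.1) pz.2
        exact no_K4 h3 axy axz ayz px.2 (e1 ▸ py.2) (e2 ▸ pz.2))
      (by
        intro l hl
        by_contra hc
        match l, hl, hc with
        | x1 :: x2 :: x3 :: x4 :: l, hl, _ =>
          obtain ⟨hnd, hch, hm⟩ := hl
          simp only [List.isChain_cons_cons] at hch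
          have l1 := mem_layerF.1 (hm x1 (by simp))
          have l2 := mem_layerF.1 (hm x2 (by simp))
          have l3 := mem_layerF.1 (hm x3 (by simp))
          have l4 := mem_layerF.1 (hm x4 (by simp))
          have p1 := hp 1 x1 l1
          have p2 := hp 1 x2 l2
          have p3 := hp 1 x3 l3
          have p4 := hp 1 x4 l4
          have e1 := up v x1 x2 _ _ l1 l2 hch.1 (lay_one.1 p1.1) p1.2 (lay_one.1 p2.1) p2.2
          have e2 := up v x2 x3 _ _ l2 l3 hch.2.1 (lay_one.1 p2.1) p2.2 (lay_one.1 p3.1) p3.2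
          have e3 := up v x3 x4 _ _ l3 l4 hch.2.2.1 (lay_one.1 p3.1) p3.2 (lay_one.1 p4.1) p4.2
          simp only [List.nodup_cons, List.mem_cons, not_or] at hnd
          have d21 : ∀ a, Lay G v 2 a → par x1 ≠ a := by
            rintro a ha rfl; have := ha.unique p1.1; omega
          apply h.noCyc
          refine ⟨par x1, [x1, x2, x3, x4], ?_, rfl, ?_⟩
          · simp [d21 _ l1, d21 _ l2, d21 _ l3, d21 _ l4, hnd.1.1, hnd.1.2.1, hnd.1.2.2.1,
              hnd.2.1.1, hnd.2.1.2.1, hnd.2.2.1.1]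
          · have := p4.2.symm
            rw [← e3, ← e2, ← e1] at this
            simp [p1.2, hch.1, hch.2.1, hch.2.2.1, this]
        | [], _, hc => simp at hc
        | [_], _, hc => simp at hc
        | [_, _], _, hc => simp at hc
        | [_, _, _], _, hc => simp at hc)
    have h4 := h.indep_layer_two v J2 hJ2 hI2
    norm_num at hc2
    have h5 := h.expand_layer_one v J1 hJ1 hI1 (Finset.card_pos.1 (by omega)) (ballF G v 2)
      (fun x hx _ => mem_ballF.2 hx)
    have h6 := card_ballF_two (G := G) v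
    have hni : ¬ Indep G (layerF G v 2) := by
      intro hi
      have := h.indep_layer_two v _ (Finset.Subset.refl _) hi
      omega
    simp only [Indep, not_forall, not_not] at hni
    obtain ⟨x, hx, y, hy, hxy⟩ := hni
    have lx := mem_layerF.1 hx
    have ly := mem_layerF.1 hy
    have px := hp 1 x lx
    have py := hp 1 y ly
    obtain ⟨J3, hJ3, hI3, hc3⟩ := hnb v ((layerF G v 1).erase (par x))
      (fun z hz => lay_one.1 (mem_layerF.1 (Finset.mem_of_mem_erase hz)))
    rw [Finset.card_erase_of_mem (mem_layerF.2 px.1)] at hc3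
    have h7 := h.expand_layer_one v J3 (hJ3.trans (Finset.erase_subset _ _)) hI3
      (Finset.card_pos.1 (by omega)) ((ballF G v 2).erase x) (by
        intro z hz hz'
        refine Finset.mem_erase.2 ⟨?_, mem_ballF.2 hz⟩
        rintro rfl
        rcases hz' with hz' | ⟨u, hu, huz⟩
        · have := lx.unique (mem_layerF.1 (Finset.mem_of_mem_erase (hJ3 hz')))
          omega
        · have hu' := Finset.mem_erase.1 (hJ3 hu)
          have e1 := up v z y _ _ lx ly hxy (lay_one.1 px.1) px.2 (lay_one.1 py.1) py.2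
          have e2 := up v z y _ _ lx ly hxy (lay_one.1 (mem_layerF.1 hu'.2)) huz
            (lay_one.1 py.1) py.2
          exact hu'.1 (e2.trans e1.symm))
    rw [Finset.card_erase_of_mem (mem_ballF.2 lx.1)] at h7
    omega
  have hdeg := h.deg' v (layerF G v 1) (fun u hu => mem_layerF.2 (lay_one.2 hu))
  have child : ∀ u, G.Adj v u → ∃ x, Lay G v 2 x ∧ G.Adj u x ∧ ∃ y, Lay G v 2 y ∧ G.Adj u y ∧
      G.Adj x y := by
    intro u hu
    have hone : ∀ a b, G.Adj v a → G.Adj v b → G.Adj u a → G.Adj u b → a = b := by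
      intro a b hva hvb hua hub
      by_contra hab
      have hnab : ¬ G.Adj a b := fun hab' => no_K4 h3 hua hub hab' hu hva hvb
      obtain ⟨c, hc, hc'⟩ : ∃ c ∈ layerF G v 1, c ∉ ({u, a, b} : Finset V) := by
        refine Finset.exists_mem_notMem_of_card_lt_card ?_
        have := Finset.card_le_three (a := u) (b := a) (c := b)
        omega
      have hvc := lay_one.1 (mem_layerF.1 hc)
      simp only [Finset.mem_insert, Finset.mem_singleton, not_or] at hc'
      have path4 : ∀ a b, G.Adj v a → G.Adj v b → G.Adj u a → G.Adj u b → a ≠ b → c ≠ a → c ≠ b →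
          ¬ G.Adj a c := by
        intro a b hva hvb hua hub hab hca hcb hac
        apply h.noCyc
        refine hasCyc_of_path_in_nbhd (v := v) (l := [b, u, a, c]) ?_ ?_ ?_ (by simp)
        · simp [hub.ne.symm, hab.symm, hcb.symm, hua.ne, Ne.symm hc'.1, hac.ne]
        · simp [hub.symm, hua, hac]
        · simp [hvb, hu, hva, hvc]
      have := step1 v {a, b, c} (by simp [hva, hvb, hvc])
        (indep_three hnab (path4 a b hva hvb hua hub hab hc'.2.1 hc'.2.2)
          (path4 b a hvb hva hub hua (Ne.symm hab) hc'.2.2 hc'.2.1))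
      rw [Finset.card_eq_three.2 ⟨a, b, c, hab, Ne.symm hc'.2.1, Ne.symm hc'.2.2, rfl⟩] at this
      omega
    have h1 : ((layerF G v 1).filter (G.Adj u)).card ≤ 1 := by
      rw [Finset.card_le_one]
      intro a ha b hb
      obtain ⟨ha1, ha2⟩ := Finset.mem_filter.1 ha
      obtain ⟨hb1, hb2⟩ := Finset.mem_filter.1 hb
      exact hone a b (lay_one.1 (mem_layerF.1 ha1)) (lay_one.1 (mem_layerF.1 hb1)) ha2 hb2
    have h2 := h.deg' u (insert v ((layerF G v 1).filter (G.Adj u) ∪ (layerF G v 2).filter (G.Adj u)))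
      (by
        intro x hx
        obtain ⟨j, hj, hl⟩ := Near.exists_lay (G := G) (v := v) (i := 2) (x := x)
          (Or.inr ⟨u, (lay_one.2 hu).1, hx⟩)
        interval_cases j
        · simp [lay_zero.1 hl]
        · simp [mem_layerF, hl, hx]
        · simp [mem_layerF, hl, hx])
    have c1 := Finset.card_insert_le v
      ((layerF G v 1).filter (G.Adj u) ∪ (layerF G v 2).filter (G.Adj u))
    have c2 := Finset.card_union_le ((layerF G v 1).filter (G.Adj u))
      ((layerF G v 2).filter (G.Adj u))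
    obtain ⟨x, hx, y, hy, hxy⟩ := Finset.one_lt_card.1
      (by omega : 1 < ((layerF G v 2).filter (G.Adj u)).card)
    obtain ⟨hx1, hx2⟩ := Finset.mem_filter.1 hx
    obtain ⟨hy1, hy2⟩ := Finset.mem_filter.1 hy
    have lx := mem_layerF.1 hx1
    have ly := mem_layerF.1 hy1
    refine ⟨x, lx, hx2, y, ly, hy2, ?_⟩
    by_contra hn
    have n1 : ∀ a, Lay G v 2 a → ¬ G.Adj v a := by
      intro a ha hva; have := ha.unique (lay_one.2 hva); omega
    have d20 : ∀ a, Lay G v 2 a → v ≠ a := by
      rintro a ha rfl; have := ha.unique (lay_zero.2 rfl); omega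
    have := step1 u {v, x, y} (by simp [hu.symm, hx2, hy2]) (indep_three (n1 x lx) (n1 y ly) hn)
    rw [Finset.card_eq_three.2 ⟨v, x, y, d20 x lx, d20 y ly, hxy, rfl⟩] at this
    omega
  choose! ch hch using child
  have hinj : Set.InjOn ch (layerF G v 1 : Set V) := by
    intro a ha b hb hab
    have hva := lay_one.1 (mem_layerF.1 ha)
    have hvb := lay_one.1 (mem_layerF.1 hb)
    obtain ⟨l1, a1, y, ly, a2, a3⟩ := hch a hva
    obtain ⟨-, b1, -⟩ := hch b hvb
    exact (up v (ch a) y b a l1 ly a3 hvb (hab ▸ b1) hva a2).symm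
  have := h.indep_layer_two v ((layerF G v 1).image ch) (by
      intro x hx
      obtain ⟨a, ha, rfl⟩ := Finset.mem_image.1 hx
      exact mem_layerF.2 (hch a (lay_one.1 (mem_layerF.1 ha))).1)
    (by
      intro x hx y hy hxy
      obtain ⟨a, ha, rfl⟩ := Finset.mem_image.1 hx
      obtain ⟨b, hb, rfl⟩ := Finset.mem_image.1 hy
      have hva := lay_one.1 (mem_layerF.1 ha)
      have hvb := lay_one.1 (mem_layerF.1 hb)
      have := up v (ch a) (ch b) a b (hch a hva).1 (hch b hvb).1 hxy hva (hch a hva).2.1 hvb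
        (hch b hvb).2.1
      subst this
      exact G.irrefl hxy)
  rw [Finset.card_image_of_injOn hinj] at this
  omega

end Crest.Agent.R54
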