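import Crest.Agent.R54.Bits

set_option autoImplicit false

namespace Crest.Agent.R54

variable {V : Type} {G : SimpleGraph V} {Q : Finset V}

/-- A path whose two ends lie in `Q`. -/
structure QPath (G : SimpleGraph V) (Q : Finset V) (p : List V) : Prop where
  nodup : p.Nodup
  chain : List.IsChain G.Adj p
  head : ∀ x ∈ p.head?, x ∈ Q
  last : ∀ x ∈ p.getLast?, x ∈ Q

theorem QPath.reverse {p : List V} (h : QPath G Q p) : QPath G Q p.reverse :=
  ⟨List.nodup_reverse.2 h.nodup, isChain_rev h.chain, by simpa using h.last, by simpa using h.head⟩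

theorem chain_append_Q (hQ : Clq G Q) {A B : List V} (hnd : (A ++ B).Nodup)
    (hA : List.IsChain G.Adj A) (hB : List.IsChain G.Adj B) (h1 : ∀ x ∈ A.getLast?, x ∈ Q)
    (h2 : ∀ x ∈ B.head?, x ∈ Q) : List.IsChain G.Adj (A ++ B) :=
  hA.append hB (fun x hx y hy => hQ x (h1 x hx) y (h2 y hy)
    ((List.nodup_append.1 hnd).2.2 x (List.mem_of_mem_getLast? hx) y (List.mem_of_mem_head? hy)))

theorem QPath.append (hQ : Clq G Q) {A B : List V} (hA : QPath G Q A) (hB : QPath G Q B)
    (hnd : (A ++ B).Nodup) : QPath G Q (A ++ B) := by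
  refine ⟨hnd, chain_append_Q hQ hnd hA.chain hB.chain hA.last hB.head, ?_, ?_⟩
  · cases A with
    | nil => simpa using hB.head
    | cons a A => simpa using hA.head
  · by_cases hB' : B = []
    · subst hB'; simpa using hA.last
    · rw [List.getLast?_append_of_ne_nil _ hB']; exact hB.last

theorem qpath_of_subset (hQ : Clq G Q) {l : List V} (hnd : l.Nodup) (hl : ∀ x ∈ l, x ∈ Q) :
    QPath G Q l :=
  ⟨hnd, (List.Pairwise.imp_of_mem (fun {x y} hx hy hxy => hQ x (hl x hx) y (hl y hy) hxy)
    hnd).isChain, fun x hx => hl x (List.mem_of_mem_head? hx),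
    fun x hx => hl x (List.mem_of_mem_getLast? hx)⟩

theorem QPath.hasCyc (hQ : Clq G Q) {p : List V} (h : QPath G Q p) (h2 : 2 ≤ p.length) :
    HasCyc G p.length := by
  match p, h, h2 with
  | a :: b :: l, h, _ =>
    have hl : (a :: b :: l).getLast? = some ((b :: l).getLast (by simp)) := by
      rw [List.getLast?_cons_cons, List.getLast?_eq_some_getLast]
    refine hasCyc_of_path h.nodup h.chain (a := a) rfl hl
      (hQ _ (h.last _ hl) _ (h.head a rfl) ?_)
    intro he
    exact (List.nodup_cons.1 h.nodup).1 (he ▸ List.getLast_mem _)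
  | [a], _, h2 => simp at h2
  | [], _, h2 => simp at h2

variable [DecidableEq V]

/-- The number of entries in `Q`. -/
def cq (Q : Finset V) (p : List V) : ℕ := (p.filter (fun x => x ∈ Q)).length

theorem cq_append (A B : List V) : cq Q (A ++ B) = cq Q A + cq Q B := by simp [cq]

theorem cq_cons_mem {a : V} (h : a ∈ Q) (B : List V) : cq Q (a :: B) = cq Q B + 1 := by
  simp [cq, h]

theorem cq_of_not {S : List V} (h : ∀ x ∈ S, x ∉ Q) : cq Q S = 0 := by
  simpa [cq] using h

theorem cq_eq_card {p : List V} (hnd : p.Nodup) (hc : ∀ q ∈ Q, q ∈ p) : cq Q p = Q.card := by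
  rw [cq, ← List.toFinset_card_of_nodup (hnd.filter _)]
  congr 1
  ext x
  simpa using hc x

theorem QPath.hasCyc_ext (hQ : Clq G Q) {p : List V} (h : QPath G Q p) {j : ℕ} (h2 : 2 ≤ j)
    (h3 : p.length ≤ j) (h4 : j + cq Q p ≤ p.length + Q.card) : HasCyc G j := by
  have c1 : Q.card ≤ (Q \ p.toFinset).card + cq Q p := by
    refine le_trans (Finset.card_le_card (t := (Q \ p.toFinset) ∪
      (p.filter (fun x => x ∈ Q)).toFinset) ?_) ((Finset.card_union_le _ _).trans
        (Nat.add_le_add_left (List.toFinset_card_le _) _))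
    intro x hx
    by_cases hxp : x ∈ p <;> simp [hx, hxp]
  obtain ⟨R, hR, hRc⟩ := Finset.exists_subset_card_eq (s := Q \ p.toFinset) (n := j - p.length)
    (by omega)
  have hR' : ∀ x ∈ R.toList, x ∈ Q ∧ x ∉ p := by
    intro x hx
    simpa using hR (Finset.mem_toList.1 hx)
  have h5 := (h.append hQ (qpath_of_subset hQ R.nodup_toList (fun x hx => (hR' x hx).1))
    (List.nodup_append.2 ⟨h.nodup, R.nodup_toList, by
      rintro x hx y hy rfl
      exact (hR' x hy).2 hx⟩)).hasCyc hQ (by simp; omega)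
  have h6 : (p ++ R.toList).length = j := by simp; omega
  rwa [h6] at h5

/-- The number of consecutive pairs with exactly one entry in `Q`. -/
def mix (Q : Finset V) : List V → ℕ
  | u :: v :: l => (if (u ∈ Q ↔ v ∈ Q) then 0 else 1) + mix Q (v :: l)
  | _ => 0

@[simp] theorem mix_nil : mix Q [] = 0 := rfl
@[simp] theorem mix_single (a : V) : mix Q [a] = 0 := rfl
theorem mix_cons_cons (u v : V) (l : List V) :
    mix Q (u :: v :: l) = (if (u ∈ Q ↔ v ∈ Q) then 0 else 1) + mix Q (v :: l) := rfl

theorem mix_split (x : V) (B : List V) : ∀ A : List V,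
    mix Q (A ++ x :: B) = mix Q (A ++ [x]) + mix Q (x :: B)
  | [] => by simp
  | [a] => by simp [mix_cons_cons]
  | a :: b :: A => by
    have := mix_split x B (b :: A)
    simp only [List.cons_append, mix_cons_cons] at this ⊢
    omega

theorem mix_reverse : ∀ l : List V, mix Q l.reverse = mix Q l
  | [] => rfl
  | [_] => rfl
  | a :: b :: l => by
    have := mix_reverse (b :: l)
    rw [List.reverse_cons] at this
    rw [List.reverse_cons, List.reverse_cons, List.append_assoc, List.singleton_append, mix_split,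
      this, mix_cons_cons, mix_cons_cons, mix_single]
    by_cases ha : a ∈ Q <;> by_cases hb : b ∈ Q <;> simp [ha, hb, add_comm]

theorem mix_cons_Q (z : V) {B : List V} (hB : ∀ x ∈ B.head?, x ∈ Q) (hz : B = [] → z ∈ Q) :
    mix Q (z :: B) = (if z ∈ Q then 0 else 1) + mix Q B := by
  cases B with
  | nil => simp [hz rfl]
  | cons b B => simp [mix_cons_cons, hB b rfl]

theorem mix_append_Q {A B : List V} (hA : ∀ x ∈ A.getLast?, x ∈ Q) (hB : ∀ x ∈ B.head?, x ∈ Q) :
    mix Q (A ++ B) = mix Q A + mix Q B := by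
  rcases List.eq_nil_or_concat A with rfl | ⟨A', a, rfl⟩
  · simp
  · have ha : a ∈ Q := hA a (by simp)
    rw [List.concat_eq_append, List.append_assoc, List.singleton_append, mix_split,
      mix_cons_Q a hB (fun _ => ha)]
    simp [ha]

theorem mix_out (z' : V) : ∀ (N : List V) (z : V), (∀ x ∈ N, x ∉ Q) → N ≠ [] →
    mix Q (z :: (N ++ [z'])) = (if z ∈ Q then 1 else 0) + (if z' ∈ Q then 1 else 0)
  | [], _, _, h => absurd rfl h
  | [a], z, h, _ => by
    have ha : a ∉ Q := h a (by simp)
    by_cases h1 : z ∈ Q <;> by_cases h2 : z' ∈ Q <;> simp [mix_cons_cons, ha, h1, h2]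
  | a :: b :: N, z, h, _ => by
    have ha : a ∉ Q := h a (by simp)
    have := mix_out z' (b :: N) a (fun x hx => h x (List.mem_cons_of_mem _ hx)) (by simp)
    rw [List.cons_append, mix_cons_cons, this]
    by_cases h1 : z ∈ Q <;> simp [ha, h1]

omit [DecidableEq V] in
theorem split_cases {A A' C C' : List V} {w z : V} (h : A ++ w :: C = A' ++ z :: C') :
    (A = A' ∧ w = z ∧ C = C') ∨ (∃ D, A' = A ++ w :: D ∧ C = D ++ z :: C') ∨
      (∃ D, A = A' ++ z :: D ∧ C' = D ++ w :: C) := by
  rcases List.append_eq_append_iff.1 h with ⟨D, h1, h2⟩ | ⟨D, h1, h2⟩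
  · cases D with
    | nil => simp at h1 h2; exact Or.inl ⟨h1.symm, h2.1, h2.2⟩
    | cons d D => simp at h2; exact Or.inr (Or.inl ⟨D, by rw [h1, h2.1], h2.2⟩)
  · cases D with
    | nil => simp at h1 h2; exact Or.inl ⟨h1, h2.1.symm, h2.2.symm⟩
    | cons d D => simp at h2; exact Or.inr (Or.inr ⟨D, by rw [h1, h2.1], h2.2⟩)

omit [DecidableEq V] in
theorem split_unique {A A' C C' : List V} {w : V} (hnd : (A ++ w :: C).Nodup)
    (h : A ++ w :: C = A' ++ w :: C') : A = A' ∧ C = C' := by
  rcases split_cases h with ⟨h1, -, h2⟩ | ⟨D, -, rfl⟩ | ⟨D, rfl, -⟩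
  · exact ⟨h1, h2⟩
  · simp [List.nodup_append] at hnd
  · exfalso
    exact (List.nodup_append.1 hnd).2.2 w (by simp) w (by simp) rfl

/-- `z` is followed by a vertex of `Q`, or is the last vertex. -/
def Pred (Q : Finset V) (p : List V) (z : V) : Prop :=
  ∃ A C, p = A ++ z :: C ∧ ∀ x ∈ C.head?, x ∈ Q

theorem surgery_aux (hQ : Clq G Q) {A M C N : List V} {z z' : V}
    (hp : QPath G Q (A ++ z :: (M ++ z' :: C))) (h1 : ∀ x ∈ (M ++ z' :: C).head?, x ∈ Q)
    (h2 : ∀ x ∈ C.head?, x ∈ Q) (hN : N.Nodup) (hNe : N ≠ [])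
    (hNp : ∀ x ∈ N, x ∉ A ++ z :: (M ++ z' :: C)) (hNQ : ∀ x ∈ N, x ∉ Q)
    (hc : List.IsChain G.Adj (z :: (N ++ [z']))) :
    ∃ p', QPath G Q p' ∧ (∀ x ∈ A ++ z :: (M ++ z' :: C), x ∈ p') ∧
      p'.length = (A ++ z :: (M ++ z' :: C)).length + N.length ∧
      mix Q p' + (if z ∈ Q then 0 else 1) + (if z' ∈ Q then 0 else 1) =
        mix Q (A ++ z :: (M ++ z' :: C)) + (if z ∈ Q then 1 else 0) + (if z' ∈ Q then 1 else 0) := by
  have hperm : (A ++ z :: (N ++ z' :: (M.reverse ++ C))).Perm (N ++ (A ++ z :: (M ++ z' :: C))) := by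
    rw [List.perm_iff_count]
    intro a
    simp only [List.count_append, List.count_cons, List.count_reverse]
    omega
  have hnd : (A ++ z :: (N ++ z' :: (M.reverse ++ C))).Nodup :=
    hperm.nodup_iff.2 (List.nodup_append.2 ⟨hN, hp.nodup, by
      rintro x hx y hy rfl
      exact hNp x hx hy⟩)
  have h1' : ∀ x ∈ (M ++ [z']).head?, x ∈ Q := by
    cases M with
    | nil => simpa using h1
    | cons m M => simpa using h1
  have h1'' : ∀ x ∈ (z' :: M.reverse).getLast?, x ∈ Q := by
    have : z' :: M.reverse = (M ++ [z']).reverse := by simp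
    rw [this, List.getLast?_reverse]; exact h1'
  have hch := hp.chain
  rw [List.isChain_split, List.isChain_cons_split] at hch
  obtain ⟨c1, c2, c3⟩ := hch
  have c4 : List.IsChain G.Adj (z' :: M.reverse) := by simpa using isChain_rev c2.tail
  have hlast : C = [] → z' ∈ Q := by
    rintro rfl
    refine hp.last z' ?_
    rw [← List.cons_append, ← List.append_assoc, List.getLast?_append_of_ne_nil _ (by simp)]
    simp
  refine ⟨_, ⟨hnd, ?_, ?_, ?_⟩, ?_, ?_, ?_⟩
  · rw [List.isChain_split, List.isChain_cons_split]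
    refine ⟨c1, hc, ?_⟩
    rw [← List.cons_append]
    refine chain_append_Q hQ ?_ c4 c3.tail h1'' h2
    refine hnd.sublist ?_
    exact ((List.sublist_append_right N _).trans (List.sublist_cons_self _ _)).trans
      (List.sublist_append_right A _)
  · have := hp.head
    cases A with
    | nil => simpa using this
    | cons a A => simpa using this
  · by_cases hC : C = []
    · subst hC
      rw [← List.cons_append, ← List.append_assoc, List.getLast?_append_of_ne_nil _ (by simp),
        List.append_nil]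
      exact h1''
    · have := hp.last
      rw [← List.cons_append, ← List.append_assoc, ← List.singleton_append (l := C),
        ← List.append_assoc, List.getLast?_append_of_ne_nil _ hC] at this
      rw [← List.cons_append, ← List.append_assoc, ← List.cons_append, ← List.append_assoc,
        List.getLast?_append_of_ne_nil _ hC]
      exact this
  · intro x hx
    exact hperm.mem_iff.2 (List.mem_append_right _ hx)
  · rw [hperm.length_eq, List.length_append, add_comm]
  · have e1 : mix Q (z :: (N ++ z' :: (M.reverse ++ C))) =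
        mix Q (z :: (N ++ [z'])) + mix Q (z' :: (M.reverse ++ C)) := mix_split z' _ (z :: N)
    have e2 : mix Q (z :: (M ++ z' :: C)) =
        mix Q (z :: (M ++ [z'])) + mix Q (z' :: C) := mix_split z' _ (z :: M)
    have e3 : mix Q (z' :: (M.reverse ++ C)) = mix Q (z' :: M.reverse) + mix Q C :=
      mix_append_Q (A := z' :: M.reverse) h1'' h2
    have e4 : mix Q (z' :: M.reverse) = mix Q (M ++ [z']) := by
      rw [← mix_reverse (M ++ [z'])]; simp
    rw [mix_split z _ A, mix_split z (M ++ z' :: C) A, e1, e2, e3, e4, mix_out z' N z hNQ hNe,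
      mix_cons_Q z h1' (by simp), mix_cons_Q z' h2 hlast]
    omega

theorem surgery (hQ : Clq G Q) {p : List V} (hp : QPath G Q p) {z z' : V} (hz : Pred Q p z)
    (hz' : Pred Q p z') (hne : z ≠ z') {W : Finset V} (hW : ∀ x ∈ p, x ∈ W) (hQW : Q ⊆ W) {r : ℕ}
    (hr : 1 ≤ r) (hc : Conn G W z z' r) :
    ∃ p', QPath G Q p' ∧ (∀ x ∈ p, x ∈ p') ∧ p'.length = p.length + r ∧
      mix Q p' ≤ mix Q p + 2 ∧ (z ∉ Q ∨ z' ∉ Q → mix Q p' ≤ mix Q p) := by
  obtain ⟨A, C, e1, h1⟩ := hz
  obtain ⟨A', C', e2, h2⟩ := hz'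
  rcases split_cases (e1.symm.trans e2) with ⟨-, h, -⟩ | ⟨D, -, rfl⟩ | ⟨D, -, rfl⟩
  · exact absurd h hne
  · obtain ⟨N, n1, rfl, n3, n4⟩ := hc
    subst e1
    obtain ⟨p', q1, q2, q3, q4⟩ := surgery_aux hQ hp h1 h2 n1 (List.length_pos_iff.1 hr)
      (fun x hx hx' => n3 x hx (hW x hx')) (fun x hx hx' => n3 x hx (hQW hx')) n4
    refine ⟨p', q1, q2, q3, ?_, ?_⟩
    · split_ifs at q4 <;> omega
    · intro h
      split_ifs at q4 <;> first | omega | tauto
  · obtain ⟨N, n1, rfl, n3, n4⟩ := hc.symm
    subst e2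
    obtain ⟨p', q1, q2, q3, q4⟩ := surgery_aux hQ hp h2 h1 n1 (List.length_pos_iff.1 hr)
      (fun x hx hx' => n3 x hx (hW x hx')) (fun x hx hx' => n3 x hx (hQW hx')) n4
    refine ⟨p', q1, q2, q3, ?_, ?_⟩
    · split_ifs at q4 <;> omega
    · intro h
      split_ifs at q4 <;> first | omega | tauto

omit [DecidableEq V] in
/-- Removing a vertex both of whose neighbours on the cycle lie in `Q`. -/
theorem remove_free (hQ : Clq G Q) {p : List V} (hp : QPath G Q p) {w : V} (h1 : Pred Q p w)
    (h2 : Pred Q p.reverse w) :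
    ∃ p', QPath G Q p' ∧ (∀ x ∈ p', x ∈ p) ∧ p'.length + 1 = p.length ∧
      ∀ z, z ≠ w → Pred Q p z → Pred Q p' z := by
  obtain ⟨A, C, rfl, h1⟩ := h1
  obtain ⟨A', C', e, h2⟩ := h2
  have e' : A ++ w :: C = C'.reverse ++ w :: A'.reverse := by
    rw [← List.reverse_reverse (A ++ w :: C), e]; simp
  obtain ⟨rfl, -⟩ := split_unique hp.nodup e'
  have h3 : ∀ x ∈ C'.reverse.getLast?, x ∈ Q := by simpa using h2
  generalize C'.reverse = A at *
  have hsub : (A ++ C).Sublist (A ++ w :: C) :=
    (List.Sublist.refl A).append (List.sublist_cons_self _ _)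
  refine ⟨A ++ C, QPath.append hQ ⟨?_, hp.chain.left_of_append, ?_, h3⟩
    ⟨?_, hp.chain.right_of_append.tail, h1, ?_⟩ (hp.nodup.sublist hsub), fun x hx => hsub.subset hx,
    by simp; omega, ?_⟩
  · exact hp.nodup.sublist (List.sublist_append_left _ _)
  · have := hp.head
    cases A with
    | nil => simp
    | cons a A => simpa using this
  · exact hp.nodup.sublist ((List.sublist_cons_self _ _).trans (List.sublist_append_right _ _))
  · by_cases hC : C = []
    · simp [hC]
    · have := hp.last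
      rwa [← List.singleton_append (l := C), ← List.append_assoc,
        List.getLast?_append_of_ne_nil _ hC] at this
  · rintro z hz ⟨A2, C2, e2, h4⟩
    rcases split_cases e2 with ⟨-, h, -⟩ | ⟨D, -, rfl⟩ | ⟨D, rfl, rfl⟩
    · exact absurd h.symm hz
    · exact ⟨A ++ D, C2, by simp, h4⟩
    · refine ⟨A2, D ++ C, by simp, ?_⟩
      cases D with
      | nil => simpa using h1
      | cons d D => simpa using h4

def preds (Q : Finset V) : List V → List V
  | [] => []
  | [z] => [z]
  | z :: y :: l => if y ∈ Q then z :: preds Q (y :: l) else preds Q (y :: l)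

theorem preds_sublist : ∀ p : List V, (preds Q p).Sublist p
  | [] => List.Sublist.refl _
  | [_] => List.Sublist.refl _
  | z :: y :: l => by
    rw [preds]
    split_ifs
    · exact (preds_sublist (y :: l)).cons_cons _
    · exact (preds_sublist (y :: l)).cons _

theorem length_preds : ∀ (p : List V) (z : V), (preds Q (z :: p)).length = cq Q p + 1
  | [], _ => rfl
  | y :: l, z => by
    rw [preds]
    split_ifs with hy
    · rw [List.length_cons, length_preds l y, cq_cons_mem hy]
    · rw [length_preds l y]; simp [cq, hy]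

theorem pred_of_mem_preds : ∀ (p : List V) (x : V), x ∈ preds Q p → Pred Q p x
  | [], _, h => by simp [preds] at h
  | [z], x, h => by
    simp only [preds, List.mem_singleton] at h
    exact ⟨[], [], by simp [h], by simp⟩
  | z :: y :: l, x, h => by
    have key : x ∈ preds Q (y :: l) → Pred Q (z :: y :: l) x := by
      intro h'
      obtain ⟨A, C, e, h2⟩ := pred_of_mem_preds (y :: l) x h'
      exact ⟨z :: A, C, by simp [e], h2⟩
    rw [preds] at h
    split_ifs at h with hy
    · rcases List.mem_cons.1 h with rfl | h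
      · exact ⟨[], y :: l, rfl, by simpa using hy⟩
      · exact key h
    · exact key h

theorem mem_preds_of_pred (z : V) (C : List V) (h : ∀ x ∈ C.head?, x ∈ Q) :
    ∀ A : List V, z ∈ preds Q (A ++ z :: C)
  | [] => by
    cases C with
    | nil => simp [preds]
    | cons c C => simp [preds, h c rfl]
  | [a] => by
    have := mem_preds_of_pred z C h []
    simp only [List.nil_append, List.cons_append, preds] at this ⊢
    split_ifs
    · exact List.mem_cons_of_mem _ this
    · exact this
  | a :: b :: A => by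
    have := mem_preds_of_pred z C h (b :: A)
    simp only [List.cons_append, preds] at this ⊢
    split_ifs
    · exact List.mem_cons_of_mem _ this
    · exact this

/-- The set of predecessors of vertices of `Q`. -/
def Zm (Q : Finset V) (p : List V) : Finset V := (preds Q p).toFinset

theorem mem_Zm {p : List V} {z : V} : z ∈ Zm Q p ↔ Pred Q p z := by
  rw [Zm, List.mem_toFinset]
  refine ⟨pred_of_mem_preds p z, ?_⟩
  rintro ⟨A, C, rfl, h⟩
  exact mem_preds_of_pred z C h A

theorem Zm_subset (p : List V) : Zm Q p ⊆ p.toFinset := by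
  intro z hz
  exact List.mem_toFinset.2 ((preds_sublist p).subset (List.mem_toFinset.1 hz))

theorem card_Zm {p : List V} (hp : QPath G Q p) (hc : ∀ q ∈ Q, q ∈ p) : (Zm Q p).card = Q.card := by
  rw [Zm, List.toFinset_card_of_nodup (hp.nodup.sublist (preds_sublist p)), ← cq_eq_card hp.nodup hc]
  cases p with
  | nil => rfl
  | cons z p => rw [length_preds, cq_cons_mem (hp.head z rfl)]

omit [DecidableEq V] in
theorem exists_first_out : ∀ p : List V, (∃ x ∈ p, x ∉ Q) →
    ∃ A v B, p = A ++ v :: B ∧ v ∉ Q ∧ ∀ x ∈ A, x ∈ Q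
  | [], h => by simp at h
  | a :: p, h => by
    by_cases ha : a ∈ Q
    · obtain ⟨A, v, B, e, h1, h2⟩ := exists_first_out p (by simpa [ha] using h)
      exact ⟨a :: A, v, B, by simp [e], h1, by simpa [ha] using h2⟩
    · exact ⟨[], a, p, rfl, ha, by simp⟩

theorem exists_Zm_out {p : List V} (h : ∃ x ∈ p, x ∉ Q) : ∃ z ∈ Zm Q p, z ∉ Q := by
  obtain ⟨A, v, B, e, h1, h2⟩ := exists_first_out p.reverse (by simpa using h)
  refine ⟨v, mem_Zm.2 ⟨B.reverse, A.reverse, ?_, ?_⟩, h1⟩
  · rw [← List.reverse_reverse p, e]; simp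
  · intro x hx
    exact h2 x (List.mem_reverse.1 (List.mem_of_mem_head? hx))

theorem exists_Zp_not_Zm {p : List V} (hp : QPath G Q p) (h : ∃ x ∈ p, x ∉ Q) :
    ∃ u ∈ Zm Q p.reverse, u ∉ Zm Q p := by
  obtain ⟨A, v, B, rfl, h1, h2⟩ := exists_first_out p h
  rcases List.eq_nil_or_concat A with rfl | ⟨A', u, rfl⟩
  · exact absurd (hp.head v rfl) h1
  rw [List.concat_eq_append] at hp h2 ⊢
  refine ⟨u, mem_Zm.2 ⟨B.reverse ++ [v], A'.reverse, by simp, ?_⟩, fun hu => ?_⟩
  · intro x hx
    exact h2 x (List.mem_append_left _ (List.mem_reverse.1 (List.mem_of_mem_head? hx)))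
  · obtain ⟨A2, C2, e, h3⟩ := mem_Zm.1 hu
    have hnd := hp.nodup
    rw [List.append_assoc, List.singleton_append] at e hnd
    obtain ⟨-, rfl⟩ := split_unique hnd e
    exact h1 (h3 v rfl)

end Crest.Agent.R54
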